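/-
S0453 (switch chain) core definitions. Blueprint: shared_files `s0453_blueprint.md`.
All team lemmas on S0453 are stated with these definitions.
-/
import Mathlib
import Crest.Prelude.Def_SwitchChain

set_option autoImplicit false

namespace Crest.Agent.Switch

open Finset Crest.SwitchChain
open scoped Classical

variable {n : ℕ}

/-- `adj G u v`: the slot `{u,v}` is an edge of `G` (false when `u = v`). -/
def adj (G : Finset (Edge n)) (u v : Fin n) : Prop :=
  ∃ e ∈ G, e.1 = s(u, v)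

/-- `same a b G H`: `G`, `H` agree on every slot avoiding `a` and `b`, and on the slot `{a,b}`. -/
def same (a b : Fin n) (G H : Finset (Edge n)) : Prop :=
  (adj G a b ↔ adj H a b) ∧
    ∀ u v, u ≠ a → u ≠ b → v ≠ a → v ≠ b → (adj G u v ↔ adj H u v)

/-- The `(a,b)`-fibre (block) of `G` inside the realizations of `d`. -/
noncomputable def blk (d : Fin n → ℕ) (a b : Fin n) (G : Finset (Edge n)) : Finset (Finset (Edge n)) :=
  (realizations d).filter (same a b G)

/-- Average of `f` on the `(a,b)`-fibre of `G`. -/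
noncomputable def avg (d : Fin n → ℕ) (a b : Fin n) (f : Finset (Edge n) → ℝ)
    (G : Finset (Edge n)) : ℝ :=
  (∑ H ∈ blk d a b G, f H) / ((blk d a b G).card : ℝ)

/-- `Q_{ab} f = f - Π_{ab} f`. -/
noncomputable def Q (d : Fin n → ℕ) (a b : Fin n) (f : Finset (Edge n) → ℝ)
    (G : Finset (Edge n)) : ℝ :=
  f G - avg d a b f G

/-- `Y_{ab|ce}`: the flip with diagonals `{a,b}`, `{c,e}` applies at `G`: `G` contains exactly the
matching `ac, be` or exactly the matching `ae, bc` of the 4-cycle. -/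
def Ysplit (a b c e : Fin n) (G : Finset (Edge n)) : Prop :=
  (adj G a c ∧ adj G b e ∧ ¬ adj G a e ∧ ¬ adj G b c) ∨
    (adj G a e ∧ adj G b c ∧ ¬ adj G a c ∧ ¬ adj G b e)

/-- The flip with diagonals `{a,b}`, `{c,e}`: toggle the four slots `ac, be, ae, bc`. -/
noncomputable def flipG (a b c e : Fin n) (G : Finset (Edge n)) : Finset (Edge n) :=
  univ.filter fun ε : Edge n =>
    ¬ (ε ∈ G ↔ (ε.1 = s(a, c) ∨ ε.1 = s(b, e) ∨ ε.1 = s(a, e) ∨ ε.1 = s(b, c)))

/-- Mean of `f` over (the `(a,b)`-fibre of `G`) ∩ `Y_{ab|ce}`. -/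
noncomputable def sepMean (d : Fin n → ℕ) (a b c e : Fin n) (f : Finset (Edge n) → ℝ)
    (G : Finset (Edge n)) : ℝ :=
  (∑ H ∈ (blk d a b G).filter (Ysplit a b c e), f H) /
    (((blk d a b G).filter (Ysplit a b c e)).card : ℝ)

/-- `φ = (mean of f on fibre ∩ Y) - (mean of f on fibre)`. -/
noncomputable def phi (d : Fin n → ℕ) (a b c e : Fin n) (f : Finset (Edge n) → ℝ)
    (G : Finset (Edge n)) : ℝ :=
  sepMean d a b c e f G - avg d a b f G

/-- Flip energy of the split `ab|ce`: `∑_{unordered flip pairs} (∇f)²`. -/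
noncomputable def Fl (d : Fin n → ℕ) (a b c e : Fin n) (f : Finset (Edge n) → ℝ) : ℝ :=
  (1 / 2) * ∑ G ∈ (realizations d).filter (Ysplit a b c e), (f G - f (flipG a b c e G)) ^ 2

/-- The term `𝔗(ab; ce) = ∑_{G ∈ Y} φ(G)²`. -/
noncomputable def Tt (d : Fin n → ℕ) (a b c e : Fin n) (f : Finset (Edge n) → ℝ) : ℝ :=
  ∑ G ∈ (realizations d).filter (Ysplit a b c e), (phi d a b c e f G) ^ 2

/-- The curveball operator value `D f G = ∑_{a<b} Q_{ab} f G`. -/
noncomputable def Dop (d : Fin n → ℕ) (f : Finset (Edge n) → ℝ) (G : Finset (Edge n)) : ℝ :=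
  ∑ a : Fin n, ∑ b ∈ univ.filter (fun b : Fin n => a < b), Q d a b f G

end Crest.Agent.Switch
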