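/-
S0453 basics: slots/adjacency API, building graphs from relations, degree as a sum of adjacency,
generic block-average (conditional expectation) lemmas.
-/
import Crest.Agent.Lib.Switch.Core

set_option autoImplicit false

namespace Crest.Agent.Switch

open Finset Crest.SwitchChain
open scoped Classical

variable {n : ℕ}

/-- The edge with endpoints `u ≠ v`. -/
def mkE (u v : Fin n) (h : u ≠ v) : Edge n := ⟨s(u, v), by simpa using h⟩

theorem adj_comm (G : Finset (Edge n)) (u v : Fin n) : adj G u v ↔ adj G v u := by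
  unfold adj; simp [Sym2.eq_swap]

theorem adj_ne {G : Finset (Edge n)} {u v : Fin n} (h : adj G u v) : u ≠ v := by
  obtain ⟨e, -, he⟩ := h
  rintro rfl
  have := e.2
  rw [he] at this
  simp at this

theorem not_adj_self (G : Finset (Edge n)) (u : Fin n) : ¬ adj G u u := fun h => adj_ne h rfl

theorem adj_iff_mem {G : Finset (Edge n)} {u v : Fin n} (h : u ≠ v) :
    adj G u v ↔ mkE u v h ∈ G := by
  constructor
  · rintro ⟨e, he, h2⟩
    have : e = mkE u v h := Subtype.ext h2
    exact this ▸ he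
  · intro hm; exact ⟨_, hm, rfl⟩

theorem mem_iff_adj {G : Finset (Edge n)} {e : Edge n} {u v : Fin n} (h : e.1 = s(u, v)) :
    e ∈ G ↔ adj G u v := by
  constructor
  · intro he; exact ⟨e, he, h⟩
  · rintro ⟨e', he', h'⟩
    have : e' = e := Subtype.ext (h'.trans h.symm)
    exact this ▸ he'

/-- Graph extensionality through adjacency. -/
theorem graph_ext {G H : Finset (Edge n)} (h : ∀ u v, adj G u v ↔ adj H u v) : G = H := by
  ext e
  obtain ⟨e0, he0⟩ := e
  induction e0 using Sym2.ind with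
  | _ u v =>
    have h1 : (⟨s(u, v), he0⟩ : Edge n).1 = s(u, v) := rfl
    rw [mem_iff_adj h1, mem_iff_adj h1]
    exact h u v

/-- The graph of a relation (only used through symmetric relations). -/
noncomputable def ofRel (r : Fin n → Fin n → Prop) : Finset (Edge n) :=
  univ.filter fun e => ∃ u v, e.1 = s(u, v) ∧ (r u v ∨ r v u)

theorem adj_ofRel {r : Fin n → Fin n → Prop} (hsymm : ∀ u v, r u v ↔ r v u) {u v : Fin n}
    (h : u ≠ v) : adj (ofRel r) u v ↔ r u v := by
  rw [adj_iff_mem h]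
  simp only [ofRel, mem_filter, mem_univ, true_and, mkE]
  constructor
  · rintro ⟨x, y, hxy, hr⟩
    have h2 : r x y := hr.elim id (fun h' => (hsymm _ _).2 h')
    rw [Sym2.eq_iff] at hxy
    rcases hxy with ⟨rfl, rfl⟩ | ⟨rfl, rfl⟩
    · exact h2
    · exact (hsymm _ _).1 h2
  · intro hr; exact ⟨u, v, rfl, Or.inl hr⟩

/-- Degree as a sum of adjacency indicators. -/
theorem deg_eq_card (E : Finset (Edge n)) (v : Fin n) :
    deg E v = (univ.filter fun u => adj E v u).card := by
  unfold deg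
  refine Finset.card_bij' (i := fun e he => Sym2.Mem.other' (mem_filter.1 he).2)
    (j := fun u hu => mkE v u (adj_ne (mem_filter.1 hu).2)) ?_ ?_ ?_ ?_
  · intro e he
    simp only [mem_filter, mem_univ, true_and]
    have hm := (mem_filter.1 he).2
    refine ⟨e, (mem_filter.1 he).1, ?_⟩
    exact (Sym2.other_spec' hm).symm
  · intro u hu
    simp only [mem_filter]
    have hadj := (mem_filter.1 hu).2
    refine ⟨(adj_iff_mem (adj_ne hadj)).1 hadj, ?_⟩
    simp [mkE]
  · intro e he
    have hm := (mem_filter.1 he).2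
    apply Subtype.ext
    simp only [mkE]
    exact Sym2.other_spec' hm
  · intro u hu
    have hadj := (mem_filter.1 hu).2
    have hne := adj_ne hadj
    have hm : v ∈ (mkE v u hne).1 := by simp [mkE]
    have := Sym2.other_spec' hm
    simp only [mkE] at this ⊢
    have h3 := (Sym2.congr_right.1 this)
    exact h3

theorem deg_eq_sum (E : Finset (Edge n)) (v : Fin n) :
    (deg E v : ℤ) = ∑ u, if adj E v u then 1 else 0 := by
  rw [deg_eq_card, Finset.card_filter]
  push_cast
  rfl

theorem mem_realizations {d : Fin n → ℕ} {G : Finset (Edge n)} :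
    G ∈ realizations d ↔ ∀ v, deg G v = d v := by
  simp [realizations]

/-! ### `same` is an equivalence -/

theorem same_refl (a b : Fin n) (G : Finset (Edge n)) : same a b G G :=
  ⟨Iff.rfl, fun _ _ _ _ _ _ => Iff.rfl⟩

theorem same_symm {a b : Fin n} {G H : Finset (Edge n)} (h : same a b G H) : same a b H G :=
  ⟨h.1.symm, fun u v h1 h2 h3 h4 => (h.2 u v h1 h2 h3 h4).symm⟩

theorem same_trans {a b : Fin n} {G H K : Finset (Edge n)} (h : same a b G H) (h' : same a b H K) :
    same a b G K :=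
  ⟨h.1.trans h'.1, fun u v h1 h2 h3 h4 => (h.2 u v h1 h2 h3 h4).trans (h'.2 u v h1 h2 h3 h4)⟩

theorem same_comm (a b : Fin n) (G H : Finset (Edge n)) : same a b G H ↔ same b a G H := by
  unfold same
  constructor
  · rintro ⟨h1, h2⟩
    exact ⟨by rw [adj_comm G b a, adj_comm H b a]; exact h1,
      fun u v h3 h4 h5 h6 => h2 u v h4 h3 h6 h5⟩
  · rintro ⟨h1, h2⟩
    exact ⟨by rw [adj_comm G a b, adj_comm H a b]; exact h1,
      fun u v h3 h4 h5 h6 => h2 u v h4 h3 h6 h5⟩

theorem blk_comm (d : Fin n → ℕ) (a b : Fin n) (G : Finset (Edge n)) :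
    blk d a b G = blk d b a G := by
  unfold blk
  ext H
  simp [same_comm a b G H]

theorem avg_comm (d : Fin n → ℕ) (a b : Fin n) (f : Finset (Edge n) → ℝ) (G : Finset (Edge n)) :
    avg d a b f G = avg d b a f G := by
  unfold avg; rw [blk_comm]

theorem Q_comm (d : Fin n → ℕ) (a b : Fin n) (f : Finset (Edge n) → ℝ) (G : Finset (Edge n)) :
    Q d a b f G = Q d b a f G := by
  unfold Q; rw [avg_comm]

/-! ### Generic block averages -/

section Generic

variable {α : Type*}

/-- Block of `G` in `Ω` for a relation `r`. -/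
noncomputable def gblk (Ω : Finset α) (r : α → α → Prop) (G : α) : Finset α := Ω.filter (r G)

/-- Block average. -/
noncomputable def gavg (Ω : Finset α) (r : α → α → Prop) (f : α → ℝ) (G : α) : ℝ :=
  (∑ H ∈ gblk Ω r G, f H) / ((gblk Ω r G).card : ℝ)

variable {Ω : Finset α} {r : α → α → Prop}

theorem gblk_congr (hsymm : ∀ x y, r x y → r y x) (htrans : ∀ x y z, r x y → r y z → r x z)
    {G H : α} (h : r G H) : gblk Ω r G = gblk Ω r H := by
  unfold gblk
  ext K
  simp only [mem_filter, and_congr_right_iff]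
  intro _
  exact ⟨fun h' => htrans _ _ _ (hsymm _ _ h) h', fun h' => htrans _ _ _ h h'⟩

theorem gavg_congr (hsymm : ∀ x y, r x y → r y x) (htrans : ∀ x y z, r x y → r y z → r x z)
    (f : α → ℝ) {G H : α} (h : r G H) : gavg Ω r f G = gavg Ω r f H := by
  unfold gavg
  rw [gblk_congr hsymm htrans h]

/-- Fibration identity: a sum over `Ω` is the sum over `G` of the block mean. -/
theorem sum_eq_sum_gavg (hrefl : ∀ x, r x x) (hsymm : ∀ x y, r x y → r y x)
    (htrans : ∀ x y z, r x y → r y z → r x z) (F : α → ℝ) :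
    ∑ G ∈ Ω, F G = ∑ G ∈ Ω, gavg Ω r F G := by
  classical
  unfold gavg
  have h1 : ∀ G ∈ Ω, (∑ H ∈ gblk Ω r G, F H) / ((gblk Ω r G).card : ℝ)
      = ∑ H ∈ Ω, if r G H then F H / ((gblk Ω r H).card : ℝ) else 0 := by
    intro G _
    rw [Finset.sum_div]
    unfold gblk
    rw [Finset.sum_filter]
    refine Finset.sum_congr rfl fun H _ => ?_
    by_cases h : r G H
    · rw [if_pos h, if_pos h]
      have := gblk_congr (Ω := Ω) hsymm htrans h
      unfold gblk at this
      rw [this]
    · rw [if_neg h, if_neg h]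
  rw [Finset.sum_congr rfl h1, Finset.sum_comm]
  refine Finset.sum_congr rfl fun H hH => ?_
  have h2 : ∑ G ∈ Ω, (if r G H then F H / ((gblk Ω r H).card : ℝ) else 0)
      = ((gblk Ω r H).card : ℝ) * (F H / ((gblk Ω r H).card : ℝ)) := by
    rw [← Finset.sum_filter, Finset.sum_const, nsmul_eq_mul]
    congr 2
    unfold gblk
    congr 1
    ext K
    simp only [mem_filter, and_congr_right_iff]
    intro _
    exact ⟨hsymm _ _, hsymm _ _⟩
  rw [h2]
  have hne : ((gblk Ω r H).card : ℝ) ≠ 0 := by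
    have : H ∈ gblk Ω r H := by simp [gblk, hH, hrefl]
    exact_mod_cast (Finset.card_pos.2 ⟨H, this⟩).ne'
  field_simp

/-- Averages are self-adjoint. -/
theorem sum_gavg_mul (hrefl : ∀ x, r x x) (hsymm : ∀ x y, r x y → r y x)
    (htrans : ∀ x y z, r x y → r y z → r x z) (f g : α → ℝ) :
    ∑ G ∈ Ω, gavg Ω r f G * g G = ∑ G ∈ Ω, gavg Ω r f G * gavg Ω r g G := by
  rw [sum_eq_sum_gavg (Ω := Ω) hrefl hsymm htrans (fun G => gavg Ω r f G * g G)]
  refine Finset.sum_congr rfl fun G _ => ?_
  unfold gavg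
  have : ∑ H ∈ gblk Ω r G, (∑ K ∈ gblk Ω r H, f K) / ((gblk Ω r H).card : ℝ) * g H
      = (∑ K ∈ gblk Ω r G, f K) / ((gblk Ω r G).card : ℝ) * ∑ H ∈ gblk Ω r G, g H := by
    rw [Finset.mul_sum]
    refine Finset.sum_congr rfl fun H hH => ?_
    have hr : r G H := (mem_filter.1 hH).2
    rw [gblk_congr (Ω := Ω) hsymm htrans hr]
  rw [this]
  ring

theorem sum_mul_gavg (hrefl : ∀ x, r x x) (hsymm : ∀ x y, r x y → r y x)
    (htrans : ∀ x y z, r x y → r y z → r x z) (f g : α → ℝ) :
    ∑ G ∈ Ω, f G * gavg Ω r g G = ∑ G ∈ Ω, gavg Ω r f G * gavg Ω r g G := by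
  have := sum_gavg_mul (Ω := Ω) hrefl hsymm htrans g f
  rw [Finset.sum_congr rfl (fun G _ => mul_comm (f G) _), this]
  exact Finset.sum_congr rfl (fun G _ => mul_comm _ _)

/-- `⟨f - Π f, g - Π g⟩ = ⟨f - Π f, g⟩`. -/
theorem sum_Q_mul_Q (hrefl : ∀ x, r x x) (hsymm : ∀ x y, r x y → r y x)
    (htrans : ∀ x y z, r x y → r y z → r x z) (f g : α → ℝ) :
    ∑ G ∈ Ω, (f G - gavg Ω r f G) * (g G - gavg Ω r g G)
      = ∑ G ∈ Ω, (f G - gavg Ω r f G) * g G := by
  have h1 : ∑ G ∈ Ω, (f G - gavg Ω r f G) * gavg Ω r g G = 0 := by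
    simp only [sub_mul, Finset.sum_sub_distrib]
    rw [sum_mul_gavg hrefl hsymm htrans f g]
    simp
  have h2 : ∀ G, (f G - gavg Ω r f G) * (g G - gavg Ω r g G)
      = (f G - gavg Ω r f G) * g G - (f G - gavg Ω r f G) * gavg Ω r g G := fun G => by ring
  simp only [h2, Finset.sum_sub_distrib, h1, sub_zero]

end Generic

/-! ### Instantiation at `blk`, `avg`, `Q` -/

theorem avg_eq_gavg (d : Fin n → ℕ) (a b : Fin n) (f : Finset (Edge n) → ℝ) (G : Finset (Edge n)) :
    avg d a b f G = gavg (realizations d) (same a b) f G := rfl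

theorem same_refl' (a b : Fin n) : ∀ x : Finset (Edge n), same a b x x := same_refl a b
theorem same_symm' (a b : Fin n) : ∀ x y : Finset (Edge n), same a b x y → same a b y x :=
  fun _ _ h => same_symm h
theorem same_trans' (a b : Fin n) :
    ∀ x y z : Finset (Edge n), same a b x y → same a b y z → same a b x z :=
  fun _ _ _ h h' => same_trans h h'

/-- `∑ (Q f)² = ∑ f · Q f`. -/
theorem sum_Q_sq (d : Fin n → ℕ) (a b : Fin n) (f : Finset (Edge n) → ℝ) :
    ∑ G ∈ realizations d, (Q d a b f G) ^ 2 = ∑ G ∈ realizations d, f G * Q d a b f G := by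
  have := sum_Q_mul_Q (Ω := realizations d) (same_refl' a b) (same_symm' a b) (same_trans' a b) f f
  simp only [Q, ← avg_eq_gavg] at *
  rw [Finset.sum_congr rfl (fun G _ => sq (f G - avg d a b f G)), this]
  exact Finset.sum_congr rfl (fun G _ => mul_comm _ _)

/-- Symmetry of `Q`. -/
theorem sum_mul_Q (d : Fin n → ℕ) (a b : Fin n) (f g : Finset (Edge n) → ℝ) :
    ∑ G ∈ realizations d, f G * Q d a b g G = ∑ G ∈ realizations d, Q d a b f G * g G := by
  have h1 := sum_mul_gavg (Ω := realizations d) (same_refl' a b) (same_symm' a b) (same_trans' a b) f g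
  have h2 := sum_gavg_mul (Ω := realizations d) (same_refl' a b) (same_symm' a b) (same_trans' a b) f g
  simp only [← avg_eq_gavg] at h1 h2
  simp only [Q, mul_sub, sub_mul, Finset.sum_sub_distrib]
  rw [h1, h2]

end Crest.Agent.Switch
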