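/-
S0453 component C8: flips preserve realizations, and flips connect the realizations.
-/
import Crest.Agent.Lib.Switch.Basic

set_option autoImplicit false
set_option linter.unusedSimpArgs false

namespace Crest.Agent.Switch

open Finset Crest.SwitchChain
open scoped Classical

variable {n : ℕ}

/-- Adjacency in a flip (`u ≠ v`). -/
theorem adj_flipG {G : Finset (Edge n)} (a b c e : Fin n) {u v : Fin n} (h : u ≠ v) :
    adj (flipG a b c e G) u v ↔
      ¬ (adj G u v ↔ (s(u, v) = s(a, c) ∨ s(u, v) = s(b, e) ∨ s(u, v) = s(a, e) ∨ s(u, v) = s(b, c))) := by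
  rw [adj_iff_mem h, adj_iff_mem h]
  simp [flipG, mkE]

/-- The degree is unchanged if one neighbour is exchanged for another one. -/
theorem deg_toggle {G G' : Finset (Edge n)} {v p q : Fin n} (hp : adj G v p) (hq : ¬ adj G v q)
    (hq' : adj G' v q) (hp' : ¬ adj G' v p)
    (hother : ∀ u, u ≠ p → u ≠ q → (adj G' v u ↔ adj G v u)) : deg G' v = deg G v := by
  rw [deg_eq_card, deg_eq_card]
  have : (univ.filter fun u => adj G' v u) = insert q ((univ.filter fun u => adj G v u).erase p) := by
    ext u
    simp only [mem_filter, mem_univ, true_and, mem_insert, mem_erase]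
    by_cases h1 : u = q
    · subst h1; simp [hq']
    · by_cases h2 : u = p
      · subst h2; simp [hp', h1]
      · simp [h1, h2, hother u h2 h1]
  rw [this, card_insert_of_notMem, card_erase_of_mem (by simpa using hp)]
  · have : 0 < (univ.filter fun u => adj G v u).card := card_pos.2 ⟨p, by simpa using hp⟩
    omega
  · simp [hq]

theorem flipG_comm (a b c e : Fin n) (G : Finset (Edge n)) : flipG a b c e G = flipG a b e c G := by
  unfold flipG
  ext ε
  simp only [mem_filter, mem_univ, true_and]
  constructor <;> intro h <;> intro h' <;> apply h <;> rw [h'] <;> tauto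

/-- Main case of `flipG_mem`. -/
theorem flipG_mem_aux (d : Fin n → ℕ) {a b c e : Fin n} (hab : a ≠ b) (hac : a ≠ c) (hae : a ≠ e)
    (hbc : b ≠ c) (hbe : b ≠ e) (hce : c ≠ e) {G : Finset (Edge n)}
    (hG : G ∈ realizations d) (h1 : adj G a c) (h2 : adj G b e) (h3 : ¬ adj G a e) (h4 : ¬ adj G b c) :
    flipG a b c e G ∈ realizations d := by
  rw [mem_realizations] at hG ⊢
  intro v
  rw [← hG v]
  have hflip : ∀ u v, u ≠ v → (adj (flipG a b c e G) u v ↔
      ¬ (adj G u v ↔ (s(u, v) = s(a, c) ∨ s(u, v) = s(b, e) ∨ s(u, v) = s(a, e) ∨ s(u, v) = s(b, c)))) :=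
    fun u v h => adj_flipG a b c e h
  by_cases hva : v = a
  · subst hva
    refine deg_toggle (p := c) (q := e) h1 h3 ?_ ?_ ?_
    · rw [hflip _ _ hae]; simp [h3]
    · rw [hflip _ _ hac]; simp [h1]
    · intro u hu1 hu2
      by_cases hu : u = v
      · subst hu; exact ⟨fun h => absurd h (not_adj_self _ _), fun h => absurd h (not_adj_self _ _)⟩
      · rw [hflip _ _ (Ne.symm hu)]
        simp [Sym2.eq_iff, *, Ne.symm hab, Ne.symm hac, Ne.symm hae, Ne.symm hbc, Ne.symm hbe, Ne.symm hce]
        try tauto
  by_cases hvb : v = b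
  · subst hvb
    refine deg_toggle (p := e) (q := c) h2 h4 ?_ ?_ ?_
    · rw [hflip _ _ hbc]; simp [h4]
    · rw [hflip _ _ hbe]; simp [h2]
    · intro u hu1 hu2
      by_cases hu : u = v
      · subst hu; exact ⟨fun h => absurd h (not_adj_self _ _), fun h => absurd h (not_adj_self _ _)⟩
      · rw [hflip _ _ (Ne.symm hu)]
        simp [Sym2.eq_iff, *, Ne.symm hab, Ne.symm hac, Ne.symm hae, Ne.symm hbc, Ne.symm hbe, Ne.symm hce]
        try tauto
  by_cases hvc : v = c
  · subst hvc
    have h1' := (adj_comm _ _ _).1 h1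
    have h4' : ¬ adj G v b := fun h => h4 ((adj_comm _ _ _).1 h)
    refine deg_toggle (p := a) (q := b) h1' h4' ?_ ?_ ?_
    · rw [hflip _ _ (Ne.symm hbc)]; simp [h4', Sym2.eq_swap]
    · rw [hflip _ _ (Ne.symm hac)]; simp [h1', Sym2.eq_swap]
    · intro u hu1 hu2
      by_cases hu : u = v
      · subst hu; exact ⟨fun h => absurd h (not_adj_self _ _), fun h => absurd h (not_adj_self _ _)⟩
      · rw [hflip _ _ (Ne.symm hu)]
        simp [Sym2.eq_iff, *, Ne.symm hab, Ne.symm hac, Ne.symm hae, Ne.symm hbc, Ne.symm hbe, Ne.symm hce]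
        try tauto
  by_cases hve : v = e
  · subst hve
    have h2' := (adj_comm _ _ _).1 h2
    have h3' : ¬ adj G v a := fun h => h3 ((adj_comm _ _ _).1 h)
    refine deg_toggle (p := b) (q := a) h2' h3' ?_ ?_ ?_
    · rw [hflip _ _ (Ne.symm hae)]; simp [h3', Sym2.eq_swap]
    · rw [hflip _ _ (Ne.symm hbe)]; simp [h2', Sym2.eq_swap]
    · intro u hu1 hu2
      by_cases hu : u = v
      · subst hu; exact ⟨fun h => absurd h (not_adj_self _ _), fun h => absurd h (not_adj_self _ _)⟩
      · rw [hflip _ _ (Ne.symm hu)]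
        simp [Sym2.eq_iff, *, Ne.symm hab, Ne.symm hac, Ne.symm hae, Ne.symm hbc, Ne.symm hbe, Ne.symm hce]
        try tauto
  rw [deg_eq_card, deg_eq_card]
  congr 1
  ext u
  simp only [mem_filter, mem_univ, true_and]
  by_cases hu : u = v
  · subst hu; exact ⟨fun h => absurd h (not_adj_self _ _), fun h => absurd h (not_adj_self _ _)⟩
  · rw [hflip _ _ (Ne.symm hu)]
    simp [Sym2.eq_iff, *, Ne.symm hva, Ne.symm hvb, Ne.symm hvc, Ne.symm hve]

theorem flipG_mem (d : Fin n → ℕ) {a b c e : Fin n} (hab : a ≠ b) (hac : a ≠ c) (hae : a ≠ e)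
    (hbc : b ≠ c) (hbe : b ≠ e) (hce : c ≠ e) {G : Finset (Edge n)}
    (hG : G ∈ realizations d) (hY : Ysplit a b c e G) : flipG a b c e G ∈ realizations d := by
  rcases hY with ⟨h1, h2, h3, h4⟩ | ⟨h1, h2, h3, h4⟩
  · exact flipG_mem_aux d hab hac hae hbc hbe hce hG h1 h2 h3 h4
  · rw [flipG_comm]
    exact flipG_mem_aux d hab hae hac hbe hbc (Ne.symm hce) hG h1 h2 h3 h4

/-- Residual degree outside `U`. -/
noncomputable def rd (G : Finset (Edge n)) (U : Finset (Fin n)) (v : Fin n) : ℕ :=
  (univ.filter fun u => u ∉ U ∧ adj G v u).card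

theorem rd_eq {d : Fin n → ℕ} {G H : Finset (Edge n)} (hG : G ∈ realizations d)
    (hH : H ∈ realizations d) {U : Finset (Fin n)} (hU : ∀ u ∈ U, ∀ v, adj G u v ↔ adj H u v)
    (v : Fin n) : rd G U v = rd H U v := by
  have h1 : ∀ K : Finset (Edge n), deg K v =
      (univ.filter fun u => u ∉ U ∧ adj K v u).card + (univ.filter fun u => u ∈ U ∧ adj K v u).card := by
    intro K
    rw [deg_eq_card, ← card_union_of_disjoint]
    · congr 1
      ext u
      simp only [mem_filter, mem_univ, true_and, mem_union]
      tauto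
    · rw [disjoint_left]
      intro u hu hu'
      simp only [mem_filter, mem_univ, true_and] at hu hu'
      exact hu.1 hu'.1
  have h2 : (univ.filter fun u => u ∈ U ∧ adj G v u) = (univ.filter fun u => u ∈ U ∧ adj H v u) := by
    ext u
    simp only [mem_filter, mem_univ, true_and]
    constructor
    · rintro ⟨hu, h⟩
      exact ⟨hu, (adj_comm _ _ _).1 ((hU u hu v).1 ((adj_comm _ _ _).1 h))⟩
    · rintro ⟨hu, h⟩
      exact ⟨hu, (adj_comm _ _ _).1 ((hU u hu v).2 ((adj_comm _ _ _).1 h))⟩
  have h3 := h1 G
  have h4 := h1 H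
  rw [mem_realizations] at hG hH
  rw [hG v] at h3
  rw [hH v, ← h2] at h4
  unfold rd
  omega

/-- The vertex `w` of the switch. -/
theorem exists_w {G : Finset (Edge n)} {U : Finset (Fin n)} {a b x : Fin n} (hx : x ∉ U)
    (ha : a ∉ U) (hb : b ∉ U) (hxb' : x ≠ b)
    (hxa : adj G x a) (hxb : ¬ adj G x b) (hr : rd G U a ≤ rd G U b) :
    ∃ w, w ∉ U ∧ w ≠ a ∧ w ≠ b ∧ w ≠ x ∧ adj G b w ∧ ¬ adj G a w := by
  by_contra hcon
  push Not at hcon
  set A := univ.filter fun u => u ∉ U ∧ adj G a u with hA
  set B := univ.filter fun u => u ∉ U ∧ adj G b u with hB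
  have hsub : B.erase a ⊆ (A.erase b).erase x := by
    intro w hw
    simp only [mem_erase, hB, hA, mem_filter, mem_univ, true_and] at hw ⊢
    obtain ⟨hwa, hwU, hwb⟩ := hw
    have hwb' : w ≠ b := fun h => by subst h; exact not_adj_self _ _ hwb
    have hwx : w ≠ x := fun h => by subst h; exact hxb ((adj_comm _ _ _).1 hwb)
    exact ⟨hwx, hwb', hwU, hcon w hwU hwa hwb' hwx hwb⟩
  have hxmem : x ∈ A.erase b := by
    simp only [mem_erase, hA, mem_filter, mem_univ, true_and]
    exact ⟨hxb', hx, (adj_comm _ _ _).1 hxa⟩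
  have h1 := card_le_card hsub
  rw [card_erase_of_mem hxmem] at h1
  have hxA : x ∈ A := (mem_erase.1 hxmem).2
  have hpos : 0 < (A.erase b).card := card_pos.2 ⟨x, hxmem⟩
  have hiff : a ∈ B ↔ b ∈ A := by
    simp only [hA, hB, mem_filter, mem_univ, true_and, ha, hb, not_false_eq_true]
    exact adj_comm _ _ _
  have hAB : A.card ≤ B.card := hr
  by_cases hm : a ∈ B
  · have hm' := hiff.1 hm
    rw [card_erase_of_mem hm, card_erase_of_mem hm'] at h1
    rw [card_erase_of_mem hm'] at hpos
    omega
  · have hm' : b ∉ A := fun h => hm (hiff.2 h)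
    rw [erase_eq_of_notMem hm, erase_eq_of_notMem hm'] at h1
    rw [erase_eq_of_notMem hm'] at hpos
    omega

/-- The measure. -/
noncomputable def gap (x : Fin n) (G H : Finset (Edge n)) : ℕ :=
  (univ.filter fun u => adj G x u ∧ ¬ adj H x u).card

/-- Agreement on `U` persists after a flip inside the complement of `U`. -/
theorem agree_flip {G : Finset (Edge n)} {U : Finset (Fin n)} {a b c e : Fin n}
    (ha : a ∉ U) (hb : b ∉ U) (hc : c ∉ U) (he : e ∉ U) {u : Fin n} (hu : u ∈ U) (v : Fin n) :
    adj (flipG a b c e G) u v ↔ adj G u v := by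
  by_cases huv : u = v
  · subst huv; exact ⟨fun h => absurd h (not_adj_self _ _), fun h => absurd h (not_adj_self _ _)⟩
  · rw [adj_flipG a b c e huv]
    have h1 : u ≠ a := fun h => ha (h ▸ hu)
    have h2 : u ≠ b := fun h => hb (h ▸ hu)
    have h3 : u ≠ c := fun h => hc (h ▸ hu)
    have h4 : u ≠ e := fun h => he (h ▸ hu)
    simp [Sym2.eq_iff, h1, h2, h3, h4]

/-- Inner induction on the gap. -/
theorem flip_connected_step (d : Fin n → ℕ) (f : Finset (Edge n) → ℝ)
    (hf : ∀ a b c e : Fin n, a ≠ b → a ≠ c → a ≠ e → b ≠ c → b ≠ e → c ≠ e →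
      ∀ G ∈ realizations d, Ysplit a b c e G → f (flipG a b c e G) = f G)
    {U : Finset (Fin n)} {x : Fin n} (hxU : x ∉ U)
    (hP : ∀ G ∈ realizations d, ∀ H ∈ realizations d,
      (∀ u ∈ insert x U, ∀ v, adj G u v ↔ adj H u v) → f G = f H) (m : ℕ) :
    ∀ G ∈ realizations d, ∀ H ∈ realizations d,
      (∀ u ∈ U, ∀ v, adj G u v ↔ adj H u v) → gap x G H ≤ m → f G = f H := by
  induction m with
  | zero =>
    intro G hG H hH hU hgap
    refine hP G hG H hH ?_
    intro u hu v
    rcases mem_insert.1 hu with rfl | hu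
    · -- N_G(u) ⊆ N_H(u), equal degrees
      have hsub : (univ.filter fun w => adj G u w) ⊆ (univ.filter fun w => adj H u w) := by
        intro w hw
        simp only [mem_filter, mem_univ, true_and] at hw ⊢
        by_contra hw'
        have : w ∈ (univ.filter fun w => adj G u w ∧ ¬ adj H u w) := by simp [hw, hw']
        have h0 : gap u G H = 0 := by omega
        rw [gap, card_eq_zero] at h0
        rw [h0] at this
        simp at this
      have hcard : (univ.filter fun w => adj G u w).card = (univ.filter fun w => adj H u w).card := by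
        rw [← deg_eq_card, ← deg_eq_card, mem_realizations.1 hG u, mem_realizations.1 hH u]
      have heq := eq_of_subset_of_card_le hsub hcard.ge
      have := congrArg (fun S => v ∈ S) heq
      simpa using this
    · exact hU u hu v
  | succ m ih =>
    intro G hG H hH hU hgap
    by_cases h0 : gap x G H = 0
    · exact ih G hG H hH hU (by omega)
    -- pick `a`
    obtain ⟨a, ha⟩ : (univ.filter fun w => adj G x w ∧ ¬ adj H x w).Nonempty :=
      card_pos.1 (Nat.pos_of_ne_zero h0)
    simp only [mem_filter, mem_univ, true_and] at ha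
    -- pick `b`
    obtain ⟨b, hb⟩ : ∃ b, adj H x b ∧ ¬ adj G x b := by
      by_contra hcon
      push Not at hcon
      have hsub : (univ.filter fun w => adj H x w) ⊆ (univ.filter fun w => adj G x w) := by
        intro w hw
        simp only [mem_filter, mem_univ, true_and] at hw ⊢
        exact hcon w hw
      have hcard : (univ.filter fun w => adj H x w).card = (univ.filter fun w => adj G x w).card := by
        rw [← deg_eq_card, ← deg_eq_card, mem_realizations.1 hG x, mem_realizations.1 hH x]
      have heq := eq_of_subset_of_card_le hsub hcard.ge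
      have : a ∈ (univ.filter fun w => adj H x w) := by rw [heq]; simpa using ha.1
      simp only [mem_filter, mem_univ, true_and] at this
      exact ha.2 this
    have hxa : x ≠ a := adj_ne ha.1
    have hxb : x ≠ b := adj_ne hb.1
    have hab : a ≠ b := fun h => ha.2 (h ▸ hb.1)
    have haU : a ∉ U := fun h => ha.2 (by
      have := (hU a h x).1 ((adj_comm _ _ _).1 ha.1)
      exact (adj_comm _ _ _).1 this)
    have hbU : b ∉ U := fun h => hb.2 (by
      have := (hU b h x).2 ((adj_comm _ _ _).1 hb.1)
      exact (adj_comm _ _ _).1 this)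
    have hrda := rd_eq hG hH hU a
    have hrdb := rd_eq hG hH hU b
    by_cases hr : rd G U a ≤ rd G U b
    · -- flip `G`
      obtain ⟨w, hwU, hwa, hwb, hwx, hw1, hw2⟩ := exists_w hxU haU hbU hxb ha.1 hb.2 hr
      have hw2' : ¬ adj G w a := fun h => hw2 ((adj_comm _ _ _).1 h)
      have hw1' : adj G w b := (adj_comm _ _ _).1 hw1
      have hY : Ysplit x w a b G := Or.inl ⟨ha.1, hw1', hb.2, hw2'⟩
      have hG' := flipG_mem d (Ne.symm hwx) hxa hxb hwa hwb hab hG hY
      rw [← hf x w a b (Ne.symm hwx) hxa hxb hwa hwb hab G hG hY]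
      refine ih _ hG' H hH ?_ ?_
      · intro u hu v
        rw [agree_flip hxU hwU haU hbU hu v]
        exact hU u hu v
      · have hsub : (univ.filter fun u => adj (flipG x w a b G) x u ∧ ¬ adj H x u) ⊆
            (univ.filter fun u => adj G x u ∧ ¬ adj H x u).erase a := by
          intro u hu
          simp only [mem_filter, mem_univ, true_and, mem_erase] at hu ⊢
          obtain ⟨h1, h2⟩ := hu
          have hxu : x ≠ u := adj_ne h1
          rw [adj_flipG x w a b hxu] at h1
          have hua : u ≠ a := by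
            rintro rfl
            apply h1
            simp [ha.1]
          have hub : u ≠ b := by
            rintro rfl
            exact h2 hb.1
          refine ⟨hua, ?_, h2⟩
          simpa [Sym2.eq_iff, hua, hub, hxu, Ne.symm hwx, Ne.symm hxa, Ne.symm hxb, hxa, hxb, hwx] using h1
        have h1 := card_le_card hsub
        rw [card_erase_of_mem (by simpa using ha)] at h1
        unfold gap at hgap ⊢
        omega
    · -- flip `H`
      have hr' : rd H U b ≤ rd H U a := by omega
      obtain ⟨w, hwU, hwb, hwa, hwx, hw1, hw2⟩ := exists_w hxU hbU haU hxa hb.1 ha.2 hr'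
      have hw2' : ¬ adj H w b := fun h => hw2 ((adj_comm _ _ _).1 h)
      have hw1' : adj H w a := (adj_comm _ _ _).1 hw1
      have hY : Ysplit x w b a H := Or.inl ⟨hb.1, hw1', ha.2, hw2'⟩
      have hH' := flipG_mem d (Ne.symm hwx) hxb hxa hwb hwa (Ne.symm hab) hH hY
      rw [← hf x w b a (Ne.symm hwx) hxb hxa hwb hwa (Ne.symm hab) H hH hY]
      refine ih G hG _ hH' ?_ ?_
      · intro u hu v
        rw [agree_flip hxU hwU hbU haU hu v]
        exact hU u hu v
      · have hsub : (univ.filter fun u => adj G x u ∧ ¬ adj (flipG x w b a H) x u) ⊆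
            (univ.filter fun u => adj G x u ∧ ¬ adj H x u).erase a := by
          intro u hu
          simp only [mem_filter, mem_univ, true_and, mem_erase] at hu ⊢
          obtain ⟨h1, h2⟩ := hu
          have hxu : x ≠ u := adj_ne h1
          rw [adj_flipG x w b a hxu] at h2
          have hua : u ≠ a := by
            rintro rfl
            apply h2
            intro hiff
            exact ha.2 (by
              have := hiff.2 (by simp)
              exact this)
          have hub : u ≠ b := by
            rintro rfl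
            exact hb.2 h1
          refine ⟨hua, h1, ?_⟩
          simpa [Sym2.eq_iff, hua, hub, hxu, Ne.symm hwx, Ne.symm hxa, Ne.symm hxb, hxa, hxb, hwx] using h2
        have h1 := card_le_card hsub
        rw [card_erase_of_mem (by simpa using ha)] at h1
        unfold gap at hgap ⊢
        omega

theorem flip_connected (d : Fin n → ℕ) (f : Finset (Edge n) → ℝ)
    (hf : ∀ a b c e : Fin n, a ≠ b → a ≠ c → a ≠ e → b ≠ c → b ≠ e → c ≠ e →
      ∀ G ∈ realizations d, Ysplit a b c e G → f (flipG a b c e G) = f G)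
    {G H : Finset (Edge n)} (hG : G ∈ realizations d) (hH : H ∈ realizations d) : f G = f H := by
  -- Downward induction on `U`: we use the complement `C` of `U`.
  have main : ∀ C : Finset (Fin n), ∀ G ∈ realizations d, ∀ H ∈ realizations d,
      (∀ u, u ∉ C → ∀ v, adj G u v ↔ adj H u v) → f G = f H := by
    intro C
    induction C using Finset.induction_on with
    | empty =>
      intro G _ H _ h
      have : G = H := graph_ext (fun u v => h u (by simp) v)
      rw [this]
    | insert x C hxC ih =>
      intro G hG H hH h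
      have hU : ∀ u ∈ (insert x C)ᶜ, ∀ v, adj G u v ↔ adj H u v := by
        intro u hu v
        exact h u (by simpa using hu) v
      refine flip_connected_step d f hf (U := (insert x C)ᶜ) (x := x) (by simp) ?_ (gap x G H) G hG H hH hU le_rfl
      intro G' hG' H' hH' hag
      refine ih G' hG' H' hH' ?_
      intro u hu v
      refine hag u ?_ v
      by_cases hux : u = x
      · simp [hux]
      · simp [hux, hu]
  exact main univ G hG H hH (by simp)

end Crest.Agent.Switch
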