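/-
S0453 C3: definitions for the Johnson lemma (interface of helper3).
-/
import Mathlib

set_option autoImplicit false

namespace Crest.Agent.Switch

open Finset

section Johnson
variable {β : Type*} [DecidableEq β]

/-- `T` with the roles of `c,e` exchanged. -/
def swapSet (c e : β) (T : Finset β) : Finset β := T.image (Equiv.swap c e)

/-- `T ∈ J(W,j)` separating `c` and `e`. -/
def sepFam (W : Finset β) (j : ℕ) (c e : β) : Finset (Finset β) :=
  (W.powersetCard j).filter fun T => ¬ (c ∈ T ↔ e ∈ T)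

/-- `EE = 4 𝖤`: ordered pairs, all separating `T`. -/
noncomputable def EE (W : Finset β) (j : ℕ) (g : Finset β → ℝ) : ℝ :=
  ∑ c ∈ W, ∑ e ∈ W.erase c, ∑ T ∈ sepFam W j c e, (g T - g (swapSet c e T)) ^ 2

/-- `TTT = 2 Tr(g)`. -/
noncomputable def TTT (W : Finset β) (j : ℕ) (g : Finset β → ℝ) : ℝ :=
  ∑ c ∈ W, ∑ e ∈ W.erase c, (∑ T ∈ sepFam W j c e, g T) ^ 2 / ((sepFam W j c e).card : ℝ)

end Johnson

end Crest.Agent.Switch
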