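/-
S0453 C3, (F1): the sharp Poincaré inequality on the Johnson graph `J(W,j)`:
`EE ≥ 4 |W| ∑ g²` for `g` of mean zero, by a raising/lowering induction.
-/
import Crest.Agent.Lib.Switch.JohnsonDefs

set_option autoImplicit false
set_option linter.unusedSectionVars false
set_option linter.unusedSimpArgs false
set_option linter.unusedVariables false

namespace Crest.Agent.Switch.JohnsonUD

open Finset

variable {β : Type*} [DecidableEq β] (W : Finset β)

/-- Lowering. -/
def Dn (g : Finset β → ℝ) (S : Finset β) : ℝ := ∑ b ∈ W \ S, g (insert b S)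

/-- Raising. -/
def Up (h : Finset β → ℝ) (T : Finset β) : ℝ := ∑ a ∈ T, h (T.erase a)

/-- Adjacency form of level `i`. -/
def Adj (i : ℕ) (h : Finset β → ℝ) : ℝ :=
  ∑ T ∈ W.powersetCard i, ∑ a ∈ T, ∑ b ∈ W \ T, h T * h (insert b (T.erase a))

theorem updown (i : ℕ) (F : Finset β → β → ℝ) :
    ∑ S ∈ W.powersetCard i, ∑ b ∈ W \ S, F S b
      = ∑ T ∈ W.powersetCard (i + 1), ∑ a ∈ T, F (T.erase a) a := by
  rw [Finset.sum_sigma', Finset.sum_sigma']
  refine Finset.sum_bij' (fun x _ => ⟨insert x.2 x.1, x.2⟩) (fun y _ => ⟨y.1.erase y.2, y.2⟩)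
    ?_ ?_ ?_ ?_ ?_
  · rintro ⟨S, b⟩ hx
    simp only [mem_sigma, mem_powersetCard, mem_sdiff] at hx ⊢
    obtain ⟨⟨h1, h2⟩, h3, h4⟩ := hx
    refine ⟨⟨insert_subset h3 h1, ?_⟩, mem_insert_self _ _⟩
    rw [card_insert_of_notMem h4, h2]
  · rintro ⟨T, a⟩ hy
    simp only [mem_sigma, mem_powersetCard, mem_sdiff] at hy ⊢
    obtain ⟨⟨h1, h2⟩, h3⟩ := hy
    refine ⟨⟨(erase_subset _ _).trans h1, ?_⟩, h1 h3, notMem_erase _ _⟩
    rw [card_erase_of_mem h3, h2]
    rfl
  · rintro ⟨S, b⟩ hx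
    simp only [mem_sigma, mem_sdiff] at hx
    simp [erase_insert hx.2.2]
  · rintro ⟨T, a⟩ hy
    simp only [mem_sigma] at hy
    simp [insert_erase hy.2]
  · rintro ⟨S, b⟩ hx
    simp only [mem_sigma, mem_sdiff] at hx
    simp [erase_insert hx.2.2]

theorem Dn_erase {T : Finset β} (hT : T ⊆ W) {a : β} (ha : a ∈ T) (g : Finset β → ℝ) :
    Dn W g (T.erase a) = g T + ∑ b ∈ W \ T, g (insert b (T.erase a)) := by
  unfold Dn
  have h1 : W \ T.erase a = insert a (W \ T) := by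
    ext u
    simp only [mem_sdiff, mem_erase, mem_insert]
    by_cases hu : u = a
    · subst hu; simp [hT ha]
    · simp [hu]
  rw [h1, sum_insert (by simp [ha]), insert_erase ha]

theorem sum_Dn_sq (i : ℕ) (g : Finset β → ℝ) :
    ∑ S ∈ W.powersetCard i, (Dn W g S) ^ 2
      = ((i : ℝ) + 1) * ∑ T ∈ W.powersetCard (i + 1), g T ^ 2 + Adj W (i + 1) g := by
  have h1 : ∑ S ∈ W.powersetCard i, (Dn W g S) ^ 2
      = ∑ S ∈ W.powersetCard i, ∑ b ∈ W \ S, g (insert b S) * Dn W g S := by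
    refine sum_congr rfl fun S _ => ?_
    rw [← sum_mul, sq]
    rfl
  rw [h1, updown W i (fun S b => g (insert b S) * Dn W g S), Adj, mul_sum, ← sum_add_distrib]
  refine sum_congr rfl fun T hT => ?_
  obtain ⟨hT1, hT2⟩ := mem_powersetCard.1 hT
  have h2 : ∀ a ∈ T, g (insert a (T.erase a)) * Dn W g (T.erase a)
      = g T ^ 2 + ∑ b ∈ W \ T, g T * g (insert b (T.erase a)) := by
    intro a ha
    rw [insert_erase ha, Dn_erase W hT1 ha, mul_add, mul_sum, sq]
  rw [sum_congr rfl h2, sum_add_distrib, sum_const, hT2, nsmul_eq_mul]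
  push_cast
  ring

theorem Up_insert {S : Finset β} {b : β} (hb : b ∉ S) (h : Finset β → ℝ) :
    Up h (insert b S) = h S + ∑ a ∈ S, h (insert b (S.erase a)) := by
  unfold Up
  rw [sum_insert hb, erase_insert hb]
  congr 1
  refine sum_congr rfl fun a ha => ?_
  rw [erase_insert_of_ne]
  rintro rfl
  exact hb ha

theorem sum_Up_sq (i : ℕ) (h : Finset β → ℝ) :
    ∑ T ∈ W.powersetCard (i + 1), (Up h T) ^ 2
      = ((W.card : ℝ) - i) * ∑ S ∈ W.powersetCard i, h S ^ 2 + Adj W i h := by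
  have h1 : ∑ T ∈ W.powersetCard (i + 1), (Up h T) ^ 2
      = ∑ T ∈ W.powersetCard (i + 1), ∑ a ∈ T,
          (fun S b => h S * Up h (insert b S)) (T.erase a) a := by
    refine sum_congr rfl fun T _ => ?_
    have h0 : (Up h T) ^ 2 = (∑ a ∈ T, h (T.erase a)) * Up h T := by
      rw [sq]; rfl
    rw [h0, sum_mul]
    refine sum_congr rfl fun a ha => ?_
    simp only [insert_erase ha]
  rw [h1, ← updown W i (fun S b => h S * Up h (insert b S)), Adj, mul_sum, ← sum_add_distrib]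
  refine sum_congr rfl fun S hS => ?_
  obtain ⟨hS1, hS2⟩ := mem_powersetCard.1 hS
  have h2 : ∀ b ∈ W \ S, h S * Up h (insert b S)
      = h S ^ 2 + ∑ a ∈ S, h S * h (insert b (S.erase a)) := by
    intro b hb
    rw [Up_insert (mem_sdiff.1 hb).2, mul_add, mul_sum, sq]
  rw [sum_congr rfl h2, sum_add_distrib, sum_const, card_sdiff_of_subset hS1, nsmul_eq_mul, sum_comm]
  have : i ≤ W.card := hS2 ▸ card_le_card hS1
  rw [Nat.cast_sub (by omega), hS2]

theorem adjoint (i : ℕ) (g h : Finset β → ℝ) :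
    ∑ S ∈ W.powersetCard i, Dn W g S * h S = ∑ T ∈ W.powersetCard (i + 1), g T * Up h T := by
  have h1 : ∑ S ∈ W.powersetCard i, Dn W g S * h S
      = ∑ S ∈ W.powersetCard i, ∑ b ∈ W \ S, g (insert b S) * h S := by
    refine sum_congr rfl fun S _ => ?_
    rw [Dn, sum_mul]
  rw [h1, updown W i (fun S b => g (insert b S) * h S)]
  refine sum_congr rfl fun T _ => ?_
  rw [Up, mul_sum]
  refine sum_congr rfl fun a ha => ?_
  rw [insert_erase ha]

theorem sum_Dn (i : ℕ) (g : Finset β → ℝ) :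
    ∑ S ∈ W.powersetCard i, Dn W g S = ((i : ℝ) + 1) * ∑ T ∈ W.powersetCard (i + 1), g T := by
  have := adjoint W i g (fun _ => 1)
  simp only [mul_one] at this
  rw [this, mul_sum]
  refine sum_congr rfl fun T hT => ?_
  obtain ⟨hT1, hT2⟩ := mem_powersetCard.1 hT
  simp only [Up, sum_const, nsmul_eq_mul, mul_one, hT2]
  push_cast
  ring

theorem main_bound (i : ℕ) (g : Finset β → ℝ)
    (hg : ∑ T ∈ W.powersetCard (i + 1), g T = 0) :
    ∑ S ∈ W.powersetCard i, (Dn W g S) ^ 2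
      ≤ (i : ℝ) * ((W.card : ℝ) - i - 1) * ∑ T ∈ W.powersetCard (i + 1), g T ^ 2 := by
  induction i generalizing g with
  | zero =>
    have h := sum_Dn W 0 g
    rw [hg] at h
    simp only [powersetCard_zero, sum_singleton, mul_zero] at h
    simp [h]
  | succ i ih =>
    set h : Finset β → ℝ := Dn W g with hh
    have h0 : ∑ S ∈ W.powersetCard (i + 1), h S = 0 := by
      rw [hh, sum_Dn, hg, mul_zero]
    have h1 := ih h h0
    have h2 := sum_Dn_sq W i h
    have h3 := sum_Up_sq W (i + 1) h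
    set Nh := ∑ S ∈ W.powersetCard (i + 1), h S ^ 2 with hNh
    set Ng := ∑ T ∈ W.powersetCard (i + 1 + 1), g T ^ 2 with hNg
    set NU := ∑ T ∈ W.powersetCard (i + 1 + 1), (Up h T) ^ 2 with hNU
    have hNh0 : 0 ≤ Nh := sum_nonneg fun _ _ => sq_nonneg _
    have hNg0 : 0 ≤ Ng := sum_nonneg fun _ _ => sq_nonneg _
    have h4 : NU ≤ ((i : ℝ) + 1) * ((W.card : ℝ) - i - 2) * Nh := by
      push_cast at h3
      nlinarith
    have h5 : Nh = ∑ T ∈ W.powersetCard (i + 1 + 1), g T * Up h T := by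
      rw [← adjoint, hNh]
      refine sum_congr rfl fun S _ => ?_
      rw [sq]
    have h6 : Nh ^ 2 ≤ Ng * NU := by
      rw [h5]
      exact sum_mul_sq_le_sq_mul_sq _ _ _
    show Nh ≤ _
    push_cast
    by_cases hN : Nh = 0
    · rw [hN]
      rcases (W.powersetCard (i + 1 + 1)).eq_empty_or_nonempty with he | ⟨T, hT⟩
      · have : Ng = 0 := by rw [hNg, he]; simp
        rw [this]; simp
      · obtain ⟨hT1, hT2⟩ := mem_powersetCard.1 hT
        have h7 : i + 1 + 1 ≤ W.card := hT2 ▸ card_le_card hT1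
        have h8 : ((i : ℝ) + 1 + 1) ≤ W.card := by exact_mod_cast h7
        have h9 : (0 : ℝ) ≤ (W.card : ℝ) - (i + 1) - 1 := by linarith
        positivity
    · have hpos : 0 < Nh := lt_of_le_of_ne hNh0 (Ne.symm hN)
      have h7 : Nh * Nh ≤ Nh * (((i : ℝ) + 1) * ((W.card : ℝ) - i - 2) * Ng) := by
        calc Nh * Nh = Nh ^ 2 := by ring
          _ ≤ Ng * NU := h6
          _ ≤ Ng * (((i : ℝ) + 1) * ((W.card : ℝ) - i - 2) * Nh) :=
              mul_le_mul_of_nonneg_left h4 hNg0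
          _ = _ := by ring
      have h8 := le_of_mul_le_mul_left h7 hpos
      calc Nh ≤ ((i : ℝ) + 1) * ((W.card : ℝ) - i - 2) * Ng := h8
        _ = _ := by ring

theorem sum_swap_symm (i : ℕ) (φ : Finset β → β → β → ℝ) :
    ∑ T ∈ W.powersetCard i, ∑ a ∈ T, ∑ b ∈ W \ T, φ T a b
      = ∑ T ∈ W.powersetCard i, ∑ a ∈ T, ∑ b ∈ W \ T, φ (insert b (T.erase a)) b a := by
  have key : ∀ ψ : Finset β → β → β → ℝ, ∑ T ∈ W.powersetCard i, ∑ a ∈ T, ∑ b ∈ W \ T, ψ T a b
      = ∑ x ∈ (W.powersetCard i).sigma (fun T => T ×ˢ (W \ T)), ψ x.1 x.2.1 x.2.2 := by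
    intro ψ
    rw [Finset.sum_sigma]
    refine sum_congr rfl fun T _ => ?_
    rw [Finset.sum_product]
  rw [key φ, key (fun T a b => φ (insert b (T.erase a)) b a)]
  have hmem : ∀ x ∈ (W.powersetCard i).sigma (fun T => T ×ˢ (W \ T)),
      (⟨insert x.2.2 (x.1.erase x.2.1), (x.2.2, x.2.1)⟩ : Σ _ : Finset β, β × β)
        ∈ (W.powersetCard i).sigma (fun T => T ×ˢ (W \ T)) := by
    rintro ⟨T, a, b⟩ hx
    simp only [mem_sigma, mem_product, mem_powersetCard, mem_sdiff] at hx ⊢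
    obtain ⟨⟨h1, h2⟩, h3, h4, h5⟩ := hx
    have hne : a ≠ b := by rintro rfl; exact h5 h3
    refine ⟨⟨insert_subset h4 ((erase_subset _ _).trans h1), ?_⟩, mem_insert_self _ _, h1 h3, ?_⟩
    · rw [card_insert_of_notMem (fun h => h5 (mem_of_mem_erase h)), card_erase_of_mem h3, h2]
      have : 0 < T.card := card_pos.2 ⟨a, h3⟩
      omega
    · simp [hne]
  have hinv : ∀ x ∈ (W.powersetCard i).sigma (fun T => T ×ˢ (W \ T)),
      insert x.2.1 ((insert x.2.2 (x.1.erase x.2.1)).erase x.2.2) = x.1 := by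
    rintro ⟨T, a, b⟩ hx
    simp only [mem_sigma, mem_product, mem_powersetCard, mem_sdiff] at hx ⊢
    obtain ⟨⟨h1, h2⟩, h3, h4, h5⟩ := hx
    rw [erase_insert (fun h => h5 (mem_of_mem_erase h)), insert_erase h3]
  refine Finset.sum_bij' (fun x _ => ⟨insert x.2.2 (x.1.erase x.2.1), (x.2.2, x.2.1)⟩)
    (fun x _ => ⟨insert x.2.2 (x.1.erase x.2.1), (x.2.2, x.2.1)⟩) hmem hmem ?_ ?_ ?_
  · rintro ⟨T, a, b⟩ hx
    have := hinv _ hx
    simp only at this ⊢
    rw [this]
  · rintro ⟨T, a, b⟩ hx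
    have := hinv _ hx
    simp only at this ⊢
    rw [this]
  · rintro ⟨T, a, b⟩ hx
    have := hinv _ hx
    simp only at this ⊢
    rw [this]

theorem swapSet_eq {T : Finset β} {a b : β} (ha : a ∈ T) (hb : b ∉ T) :
    swapSet a b T = insert b (T.erase a) := by
  have hne : a ≠ b := by rintro rfl; exact hb ha
  ext u
  simp only [swapSet, mem_image, mem_insert, mem_erase]
  constructor
  · rintro ⟨x, hx, rfl⟩
    by_cases h1 : x = a
    · subst h1; simp
    · by_cases h2 : x = b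
      · subst h2; exact absurd hx hb
      · rw [Equiv.swap_apply_of_ne_of_ne h1 h2]
        exact Or.inr ⟨h1, hx⟩
  · rintro (rfl | ⟨h1, h2⟩)
    · exact ⟨a, ha, by simp⟩
    · refine ⟨u, h2, ?_⟩
      have : u ≠ b := by rintro rfl; exact hb h2
      exact Equiv.swap_apply_of_ne_of_ne h1 this

theorem swapSet_comm (a b : β) (T : Finset β) : swapSet a b T = swapSet b a T := by
  unfold swapSet
  rw [Equiv.swap_comm]

/-- `EE` as a sum over `T`, `a ∈ T`, `b ∉ T`. -/
theorem EE_eq (j : ℕ) (g : Finset β → ℝ) :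
    EE W j g = 2 * ∑ T ∈ W.powersetCard j, ∑ a ∈ T, ∑ b ∈ W \ T,
      (g T - g (insert b (T.erase a))) ^ 2 := by
  unfold EE sepFam
  simp only [sum_filter]
  have h1 : ∑ c ∈ W, ∑ e ∈ W.erase c, ∑ T ∈ W.powersetCard j,
        (if ¬(c ∈ T ↔ e ∈ T) then (g T - g (swapSet c e T)) ^ 2 else 0)
      = ∑ T ∈ W.powersetCard j, ∑ c ∈ W, ∑ e ∈ W.erase c,
        (if ¬(c ∈ T ↔ e ∈ T) then (g T - g (swapSet c e T)) ^ 2 else 0) := by
    calc _ = ∑ c ∈ W, ∑ T ∈ W.powersetCard j, ∑ e ∈ W.erase c,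
          (if ¬(c ∈ T ↔ e ∈ T) then (g T - g (swapSet c e T)) ^ 2 else 0) :=
          sum_congr rfl (fun c _ => sum_comm)
      _ = _ := sum_comm
  rw [h1, mul_sum]
  refine sum_congr rfl fun T hT => ?_
  obtain ⟨hT1, hT2⟩ := mem_powersetCard.1 hT
  rw [← sum_sdiff hT1]
  have h2 : ∀ c ∈ W \ T, ∑ e ∈ W.erase c,
      (if ¬(c ∈ T ↔ e ∈ T) then (g T - g (swapSet c e T)) ^ 2 else 0)
      = ∑ e ∈ T, (g T - g (insert c (T.erase e))) ^ 2 := by
    intro c hc
    obtain ⟨hc1, hc2⟩ := mem_sdiff.1 hc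
    rw [← sum_filter]
    have h3 : (W.erase c).filter (fun e => ¬(c ∈ T ↔ e ∈ T)) = T := by
      ext e
      simp only [mem_filter, mem_erase, hc2, false_iff, not_not]
      constructor
      · exact fun h => h.2
      · intro h
        refine ⟨⟨?_, hT1 h⟩, h⟩
        rintro rfl
        exact hc2 h
    rw [h3]
    refine sum_congr rfl fun e he => ?_
    rw [swapSet_comm, swapSet_eq he hc2]
  have h4 : ∀ c ∈ T, ∑ e ∈ W.erase c,
      (if ¬(c ∈ T ↔ e ∈ T) then (g T - g (swapSet c e T)) ^ 2 else 0)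
      = ∑ e ∈ W \ T, (g T - g (insert e (T.erase c))) ^ 2 := by
    intro c hc
    rw [← sum_filter]
    have h3 : (W.erase c).filter (fun e => ¬(c ∈ T ↔ e ∈ T)) = W \ T := by
      ext e
      simp only [mem_filter, mem_erase, hc, true_iff, mem_sdiff]
      constructor
      · exact fun h => ⟨h.1.2, h.2⟩
      · intro h
        refine ⟨⟨?_, h.1⟩, h.2⟩
        rintro rfl
        exact h.2 hc
    rw [h3]
    refine sum_congr rfl fun e he => ?_
    rw [swapSet_eq hc (mem_sdiff.1 he).2]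
  rw [sum_congr rfl h2, sum_congr rfl h4, sum_comm, two_mul]

theorem EE_expand (i : ℕ) (g : Finset β → ℝ) :
    EE W (i + 1) g = 4 * (((i : ℝ) + 1) * ((W.card : ℝ) - i) * ∑ T ∈ W.powersetCard (i + 1), g T ^ 2
      - ∑ S ∈ W.powersetCard i, (Dn W g S) ^ 2) := by
  rw [EE_eq, sum_Dn_sq]
  have h1 := sum_swap_symm W (i + 1) (fun T a b => g (insert b (T.erase a)) ^ 2)
  have h2 : ∑ T ∈ W.powersetCard (i + 1), ∑ a ∈ T, ∑ b ∈ W \ T,
        g (insert a ((insert b (T.erase a)).erase b)) ^ 2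
      = ((i : ℝ) + 1) * ((W.card : ℝ) - i - 1) * ∑ T ∈ W.powersetCard (i + 1), g T ^ 2 := by
    rw [mul_sum]
    refine sum_congr rfl fun T hT => ?_
    obtain ⟨hT1, hT2⟩ := mem_powersetCard.1 hT
    have h3 : ∀ a ∈ T, ∑ b ∈ W \ T, g (insert a ((insert b (T.erase a)).erase b)) ^ 2
        = ((W.card : ℝ) - i - 1) * g T ^ 2 := by
      intro a ha
      have h4 : ∀ b ∈ W \ T, g (insert a ((insert b (T.erase a)).erase b)) ^ 2 = g T ^ 2 := by
        intro b hb
        rw [erase_insert (fun h => (mem_sdiff.1 hb).2 (mem_of_mem_erase h)), insert_erase ha]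
      rw [sum_congr rfl h4, sum_const, card_sdiff_of_subset hT1, nsmul_eq_mul, hT2]
      have : i + 1 ≤ W.card := hT2 ▸ card_le_card hT1
      rw [Nat.cast_sub this]
      push_cast
      ring
    rw [sum_congr rfl h3, sum_const, hT2, nsmul_eq_mul]
    push_cast
    ring
  rw [h2] at h1
  have h5 : ∑ T ∈ W.powersetCard (i + 1), ∑ a ∈ T, ∑ b ∈ W \ T,
        (g T - g (insert b (T.erase a))) ^ 2
      = ∑ T ∈ W.powersetCard (i + 1), ∑ a ∈ T, ∑ b ∈ W \ T, g T ^ 2
        + ∑ T ∈ W.powersetCard (i + 1), ∑ a ∈ T, ∑ b ∈ W \ T, g (insert b (T.erase a)) ^ 2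
        - 2 * Adj W (i + 1) g := by
    rw [Adj, mul_sum, ← sum_add_distrib, ← sum_sub_distrib]
    refine sum_congr rfl fun T _ => ?_
    rw [mul_sum, ← sum_add_distrib, ← sum_sub_distrib]
    refine sum_congr rfl fun a _ => ?_
    rw [mul_sum, ← sum_add_distrib, ← sum_sub_distrib]
    refine sum_congr rfl fun b _ => ?_
    ring
  have h6 : ∑ T ∈ W.powersetCard (i + 1), ∑ a ∈ T, ∑ b ∈ W \ T, g T ^ 2
      = ((i : ℝ) + 1) * ((W.card : ℝ) - i - 1) * ∑ T ∈ W.powersetCard (i + 1), g T ^ 2 := by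
    rw [mul_sum]
    refine sum_congr rfl fun T hT => ?_
    obtain ⟨hT1, hT2⟩ := mem_powersetCard.1 hT
    have : i + 1 ≤ W.card := hT2 ▸ card_le_card hT1
    rw [sum_const, hT2, nsmul_eq_mul, sum_const, card_sdiff_of_subset hT1, nsmul_eq_mul, hT2,
      Nat.cast_sub this]
    push_cast
    ring
  rw [h5, h6, h1]
  ring

/-- (F1), true form. -/
theorem johnson_F1_sharp (j : ℕ) (g : Finset β → ℝ)
    (hg : ∑ T ∈ W.powersetCard j, g T = 0) :
    4 * (W.card : ℝ) * ∑ T ∈ W.powersetCard j, g T ^ 2 ≤ EE W j g := by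
  cases j with
  | zero =>
    have h1 : g ∅ = 0 := by simpa using hg
    have h2 : 0 ≤ EE W 0 g := by
      unfold EE
      exact sum_nonneg fun _ _ => sum_nonneg fun _ _ => sum_nonneg fun _ _ => sq_nonneg _
    simpa [h1] using h2
  | succ i =>
    rw [EE_expand]
    have h1 := main_bound W i g hg
    nlinarith

theorem EE_nonneg (j : ℕ) (g : Finset β → ℝ) : 0 ≤ EE W j g := by
  unfold EE
  exact sum_nonneg fun _ _ => sum_nonneg fun _ _ => sum_nonneg fun _ _ => sq_nonneg _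

end Crest.Agent.Switch.JohnsonUD

namespace Crest.Agent.Switch

open Finset

variable {β : Type*} [DecidableEq β]

/-- (F1, weak form; true form is `JohnsonUD.johnson_F1_sharp`). -/
theorem johnson_F1 (W : Finset β) (j : ℕ) (g : Finset β → ℝ)
    (hg : ∑ T ∈ W.powersetCard j, g T = 0) :
    8 * ∑ T ∈ W.powersetCard j, g T ^ 2 ≤ EE W j g := by
  by_cases hm : 2 ≤ W.card
  · have h1 := JohnsonUD.johnson_F1_sharp W j g hg
    have h2 : (2 : ℝ) ≤ W.card := by exact_mod_cast hm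
    have h3 : 0 ≤ ∑ T ∈ W.powersetCard j, g T ^ 2 := sum_nonneg fun _ _ => sq_nonneg _
    nlinarith
  · have hc : (W.powersetCard j).card ≤ 1 := by
      rw [card_powersetCard]
      have : W.card = 0 ∨ W.card = 1 := by omega
      rcases this with h | h <;> rw [h]
      · cases j <;> simp
      · rcases j with _ | _ | j
        · simp
        · simp
        · rw [Nat.choose_eq_zero_of_lt (by omega)]
          omega
    have h0 : ∑ T ∈ W.powersetCard j, g T ^ 2 = 0 := by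
      refine sum_eq_zero fun T hT => ?_
      have h4 : W.powersetCard j = {T} := by
        ext T'
        simp only [mem_singleton]
        constructor
        · intro hT'
          exact card_le_one.1 hc _ hT' _ hT
        · rintro rfl
          exact hT
      rw [h4, sum_singleton] at hg
      rw [hg]
      simp
    rw [h0, mul_zero]
    exact JohnsonUD.EE_nonneg W j g

end Crest.Agent.Switch
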