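/-
S0453 component C3 (part F2): Bessel inequalities on the Johnson scheme.

`∑_{c ≠ e} (∑_{T separating c,e} g T)² / |S_ce| ≤ (m - 1) ∑ g²` for `g` of mean zero on `J(W,j)`.
-/
import Mathlib

set_option autoImplicit false
set_option linter.unusedSimpArgs false

namespace Crest.Agent.Switch

open Finset

theorem sum_sq_shift {ι : Type*} (s : Finset ι) (a : ι → ℝ) (t : ℝ) :
    ∑ d ∈ s, (a d - t) ^ 2 = ∑ d ∈ s, a d ^ 2 - 2 * t * ∑ d ∈ s, a d + (s.card : ℝ) * t ^ 2 := by
  have : ∀ d ∈ s, (a d - t) ^ 2 = a d ^ 2 - 2 * t * a d + t ^ 2 := fun d _ => by ring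
  rw [Finset.sum_congr rfl this, Finset.sum_add_distrib, Finset.sum_sub_distrib, ← Finset.mul_sum,
    Finset.sum_const, nsmul_eq_mul]

/-- Bessel inequality for a regular simplex: only the pairwise distances matter. -/
theorem simplex_bessel {Ω I : Type*} (s : Finset Ω) (ι : Finset I) (φ : I → Ω → ℝ) (g : Ω → ℝ)
    {u : ℝ} (hu : 0 ≤ u)
    (hφ : ∀ i ∈ ι, ∀ i' ∈ ι, i ≠ i' → ∑ T ∈ s, (φ i T - φ i' T) ^ 2 = 2 * u)
    (hx : ∑ i ∈ ι, ∑ T ∈ s, g T * φ i T = 0) :
    ∑ i ∈ ι, (∑ T ∈ s, g T * φ i T) ^ 2 ≤ u * ∑ T ∈ s, g T ^ 2 := by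
  classical
  set x : I → ℝ := fun i => ∑ T ∈ s, g T * φ i T with hxdef
  set y : Ω → ℝ := fun T => ∑ i ∈ ι, x i * φ i T with hydef
  have hX : ∑ i ∈ ι, x i ^ 2 = ∑ T ∈ s, g T * y T := by
    simp only [hydef, Finset.mul_sum]
    rw [Finset.sum_comm]
    refine Finset.sum_congr rfl fun i _ => ?_
    rw [sq]
    nth_rewrite 2 [hxdef]
    simp only [Finset.mul_sum]
    refine Finset.sum_congr rfl fun T _ => by ring
  have hY : ∑ T ∈ s, y T ^ 2 = u * ∑ i ∈ ι, x i ^ 2 := by
    -- expansion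
    have h1 : ∀ T ∈ s, y T ^ 2 = ∑ i ∈ ι, ∑ i' ∈ ι, x i * x i' * (φ i T * φ i' T) := by
      intro T _
      simp only [hydef, sq, Finset.sum_mul_sum]
      refine Finset.sum_congr rfl fun i _ => Finset.sum_congr rfl fun i' _ => by ring
    rw [Finset.sum_congr rfl h1, Finset.sum_comm]
    have h2 : ∀ i ∈ ι, ∑ T ∈ s, ∑ i' ∈ ι, x i * x i' * (φ i T * φ i' T)
        = ∑ i' ∈ ι, x i * x i' * ∑ T ∈ s, (φ i T * φ i' T) := by
      intro i _
      rw [Finset.sum_comm]
      exact Finset.sum_congr rfl fun i' _ =>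
        (Finset.mul_sum s (fun T => φ i T * φ i' T) (x i * x i')).symm
    rw [Finset.sum_congr rfl h2]
    set N : I → ℝ := fun i => ∑ T ∈ s, φ i T ^ 2 with hN
    have h3 : ∀ i ∈ ι, ∀ i' ∈ ι, ∑ T ∈ s, (φ i T * φ i' T)
        = (N i + N i' - (if i = i' then 0 else 2 * u)) / 2 := by
      intro i hi i' hi'
      by_cases h : i = i'
      · subst h
        simp only [if_true, hN]
        rw [← Finset.sum_add_distrib]
        ring_nf
        rw [Finset.sum_mul]
        refine Finset.sum_congr rfl fun T _ => by ring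
      · rw [if_neg h, ← hφ i hi i' hi' h]
        simp only [hN]
        rw [← Finset.sum_add_distrib, ← Finset.sum_sub_distrib, Finset.sum_div]
        refine Finset.sum_congr rfl fun T _ => by ring
    have h4 : ∀ i ∈ ι, ∑ i' ∈ ι, x i * x i' * ∑ T ∈ s, (φ i T * φ i' T)
        = ∑ i' ∈ ι, x i * x i' * ((N i + N i' - (if i = i' then 0 else 2 * u)) / 2) := by
      intro i hi
      refine Finset.sum_congr rfl fun i' hi' => by rw [h3 i hi i' hi']
    rw [Finset.sum_congr rfl h4]
    have hx0 : ∑ i ∈ ι, x i = 0 := hx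
    have h5 : ∑ i ∈ ι, ∑ i' ∈ ι, x i * x i' * ((N i + N i' - (if i = i' then 0 else 2 * u)) / 2)
        = (1 / 2) * (∑ i ∈ ι, x i * N i) * (∑ i' ∈ ι, x i') + (1 / 2) * (∑ i ∈ ι, x i) * (∑ i' ∈ ι, x i' * N i')
          - u * (∑ i ∈ ι, x i) * (∑ i' ∈ ι, x i') + u * ∑ i ∈ ι, x i ^ 2 := by
      have e1 : ∀ i ∈ ι, ∑ i' ∈ ι, x i * x i' * ((N i + N i' - (if i = i' then 0 else 2 * u)) / 2)
          = (1 / 2) * (x i * N i) * (∑ i' ∈ ι, x i') + (1 / 2) * (x i) * (∑ i' ∈ ι, x i' * N i')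
            - u * (x i) * (∑ i' ∈ ι, x i') + u * x i ^ 2 := by
        intro i hi
        have e2 : ∀ i' ∈ ι, x i * x i' * ((N i + N i' - (if i = i' then 0 else 2 * u)) / 2)
            = (1 / 2) * (x i * N i) * x i' + (1 / 2) * x i * (x i' * N i') - u * x i * x i'
              + (if i = i' then u * x i * x i' else 0) := by
          intro i' _
          by_cases h : i = i'
          · subst h; simp only [if_true]; ring
          · simp only [if_neg h]; ring
        rw [Finset.sum_congr rfl e2, Finset.sum_add_distrib, Finset.sum_sub_distrib,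
          Finset.sum_add_distrib, Finset.sum_ite_eq]
        simp only [hi, if_true, ← Finset.mul_sum]
        ring
      rw [Finset.sum_congr rfl e1, Finset.sum_add_distrib, Finset.sum_sub_distrib,
        Finset.sum_add_distrib]
      simp only [← Finset.sum_mul, ← Finset.mul_sum]
    rw [h5, hx0]
    ring
  have hCS : (∑ T ∈ s, g T * y T) ^ 2 ≤ (∑ T ∈ s, g T ^ 2) * ∑ T ∈ s, y T ^ 2 :=
    Finset.sum_mul_sq_le_sq_mul_sq s g y
  rw [← hX, hY] at hCS
  set X := ∑ i ∈ ι, x i ^ 2 with hXdef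
  set Γ := ∑ T ∈ s, g T ^ 2 with hΓ
  have hX0 : 0 ≤ X := Finset.sum_nonneg fun _ _ => sq_nonneg _
  have hΓ0 : 0 ≤ Γ := Finset.sum_nonneg fun _ _ => sq_nonneg _
  by_cases hpos : X = 0
  · rw [hpos]; positivity
  · have hXpos : 0 < X := lt_of_le_of_ne hX0 (Ne.symm hpos)
    have : X * X ≤ X * (u * Γ) := by nlinarith
    exact le_of_mul_le_mul_left this hXpos

section Johnson

variable {β : Type*} [DecidableEq β]

/-- Number of `T` in `J(W,j)` containing `c`, not `e`. -/
theorem card_in_out {W : Finset β} {j : ℕ} {c e : β} (hc : c ∈ W) (he : e ∈ W) (hne : c ≠ e)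
    (hj : 1 ≤ j) :
    ((W.powersetCard j).filter fun T => c ∈ T ∧ e ∉ T).card = (W.card - 2).choose (j - 1) := by
  have hcard : ((W.erase c).erase e).card = W.card - 2 := by
    rw [card_erase_of_mem (mem_erase.2 ⟨Ne.symm hne, he⟩), card_erase_of_mem hc]
    omega
  rw [← hcard, ← card_powersetCard]
  refine Finset.card_bij' (i := fun T _ => T.erase c) (j := fun S _ => insert c S) ?_ ?_ ?_ ?_
  · intro T hT
    simp only [mem_filter, mem_powersetCard] at hT
    obtain ⟨⟨h1, h2⟩, h3, h4⟩ := hT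
    simp only [mem_powersetCard]
    refine ⟨?_, ?_⟩
    · intro x hx
      simp only [mem_erase] at hx ⊢
      refine ⟨?_, hx.1, h1 hx.2⟩
      rintro rfl
      exact h4 hx.2
    · rw [card_erase_of_mem h3, h2]
  · intro S hS
    simp only [mem_powersetCard] at hS
    obtain ⟨h1, h2⟩ := hS
    have hcS : c ∉ S := fun h => by
      have := h1 h
      simp at this
    simp only [mem_filter, mem_powersetCard]
    refine ⟨⟨?_, ?_⟩, mem_insert_self _ _, ?_⟩
    · intro x hx
      rcases mem_insert.1 hx with rfl | hx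
      · exact hc
      · have := h1 hx
        simp only [mem_erase] at this
        exact this.2.2
    · rw [card_insert_of_notMem hcS, h2]; omega
    · intro h
      rcases mem_insert.1 h with h | h
      · exact hne h.symm
      · have := h1 h
        simp at this
  · intro T hT
    simp only [mem_filter, mem_powersetCard] at hT
    exact insert_erase hT.2.1
  · intro S hS
    simp only [mem_powersetCard] at hS
    have hcS : c ∉ S := fun h => by
      have := hS.1 h
      simp at this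
    exact erase_insert hcS

/-- Number of `T` in `J(W,j)` separating `c`, `e`. -/
theorem card_sep {W : Finset β} {j : ℕ} {c e : β} (hc : c ∈ W) (he : e ∈ W) (hne : c ≠ e)
    (hj : 1 ≤ j) :
    ((W.powersetCard j).filter fun T => ¬ (c ∈ T ↔ e ∈ T)).card = 2 * (W.card - 2).choose (j - 1) := by
  have h1 := card_in_out hc he hne hj
  have h2 := card_in_out he hc (Ne.symm hne) hj
  have h3 : ((W.powersetCard j).filter fun T => ¬ (c ∈ T ↔ e ∈ T))
      = ((W.powersetCard j).filter fun T => c ∈ T ∧ e ∉ T) ∪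
        ((W.powersetCard j).filter fun T => e ∈ T ∧ c ∉ T) := by
    ext T
    simp only [mem_filter, mem_union]
    tauto
  rw [h3, card_union_of_disjoint, h1, h2]
  · ring
  · rw [disjoint_left]
    intro T hT hT'
    simp only [mem_filter] at hT hT'
    exact hT.2.2 hT'.2.1

/-- Indicator of "`T` separates `c` and `d`". -/
def chi (c d : β) (T : Finset β) : ℝ := if ¬ (c ∈ T ↔ d ∈ T) then 1 else 0

/-- Indicator of "`c ∈ T`". -/
def ind (c : β) (T : Finset β) : ℝ := if c ∈ T then 1 else 0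

theorem chi_diff_sq (c d d' : β) (T : Finset β) : (chi c d T - chi c d' T) ^ 2 = chi d d' T := by
  unfold chi
  by_cases h1 : c ∈ T <;> by_cases h2 : d ∈ T <;> by_cases h3 : d' ∈ T <;> simp [h1, h2, h3]

theorem ind_diff_sq (d d' : β) (T : Finset β) : (ind d T - ind d' T) ^ 2 = chi d d' T := by
  unfold chi ind
  by_cases h2 : d ∈ T <;> by_cases h3 : d' ∈ T <;> simp [h2, h3]

theorem sum_chi {W : Finset β} {j : ℕ} {c d : β} (hc : c ∈ W) (hd : d ∈ W) (hne : c ≠ d) (hj : 1 ≤ j) :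
    ∑ T ∈ W.powersetCard j, chi c d T = 2 * ((W.card - 2).choose (j - 1) : ℝ) := by
  unfold chi
  rw [Finset.sum_boole, card_sep hc hd hne hj]
  push_cast
  ring

theorem sum_ind_over {W : Finset β} {j : ℕ} {T : Finset β} (hT : T ∈ W.powersetCard j) :
    ∑ c ∈ W, ind c T = (j : ℝ) := by
  unfold ind
  rw [mem_powersetCard] at hT
  rw [Finset.sum_boole]
  have : (W.filter fun c => c ∈ T) = T := by
    ext x
    simp only [mem_filter]
    exact ⟨fun h => h.2, fun h => ⟨hT.1 h, h⟩⟩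
  rw [this, hT.2]

theorem sum_chi_over {W : Finset β} {j : ℕ} {c : β} (hc : c ∈ W) {T : Finset β}
    (hT : T ∈ W.powersetCard j) :
    ∑ d ∈ W.erase c, chi c d T = (j : ℝ) + ((W.card : ℝ) - 2 * j) * ind c T := by
  unfold chi ind
  rw [mem_powersetCard] at hT
  rw [Finset.sum_boole]
  by_cases hcT : c ∈ T
  · have : ((W.erase c).filter fun d => ¬ (c ∈ T ↔ d ∈ T)) = W \ T := by
      ext x
      simp only [mem_filter, mem_erase, mem_sdiff, hcT, true_iff]
      constructor
      · rintro ⟨⟨_, h2⟩, h3⟩; exact ⟨h2, h3⟩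
      · rintro ⟨h2, h3⟩
        refine ⟨⟨?_, h2⟩, h3⟩
        rintro rfl
        exact h3 hcT
    rw [this, card_sdiff_of_subset hT.1, hT.2, if_pos hcT]
    have := card_le_card hT.1
    rw [hT.2] at this
    push_cast [this]
    ring
  · have : ((W.erase c).filter fun d => ¬ (c ∈ T ↔ d ∈ T)) = T := by
      ext x
      simp only [mem_filter, mem_erase, hcT, false_iff, not_not]
      constructor
      · rintro ⟨_, h2⟩; exact h2
      · intro h2
        refine ⟨⟨?_, hT.1 h2⟩, h2⟩
        rintro rfl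
        exact hcT h2
    rw [this, hT.2, if_neg hcT]
    ring

/-- Level-1 Bessel. -/
theorem bessel_level1 {W : Finset β} {j : ℕ} (hj : 1 ≤ j) (g : Finset β → ℝ)
    (hg : ∑ T ∈ W.powersetCard j, g T = 0) :
    ∑ c ∈ W, (∑ T ∈ W.powersetCard j, g T * ind c T) ^ 2
      ≤ ((W.card - 2).choose (j - 1) : ℝ) * ∑ T ∈ W.powersetCard j, g T ^ 2 := by
  refine simplex_bessel (W.powersetCard j) W ind g (by positivity) ?_ ?_
  · intro c hc d hd hne
    simp only [ind_diff_sq]
    exact sum_chi hc hd hne hj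
  · rw [Finset.sum_comm]
    have : ∀ T ∈ W.powersetCard j, ∑ c ∈ W, g T * ind c T = g T * (j : ℝ) := by
      intro T hT
      rw [← Finset.mul_sum, sum_ind_over hT]
    rw [Finset.sum_congr rfl this, ← Finset.sum_mul, hg, zero_mul]

/-- Row Bessel. -/
theorem bessel_row {W : Finset β} {j : ℕ} (hj : 1 ≤ j) (g : Finset β → ℝ)
    (hg : ∑ T ∈ W.powersetCard j, g T = 0) {c : β} (hc : c ∈ W) (hm : 2 ≤ W.card) :
    ∑ d ∈ W.erase c, (∑ T ∈ W.powersetCard j, g T * chi c d T) ^ 2
      ≤ ((W.card - 2).choose (j - 1) : ℝ) * ∑ T ∈ W.powersetCard j, g T ^ 2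
        + ((W.card : ℝ) - 2 * j) ^ 2 / ((W.card : ℝ) - 1)
          * (∑ T ∈ W.powersetCard j, g T * ind c T) ^ 2 := by
  set m : ℝ := (W.card : ℝ) with hm'
  have hm1 : (0 : ℝ) < m - 1 := by
    have : (2 : ℝ) ≤ m := by rw [hm']; exact_mod_cast hm
    linarith
  set Gc := ∑ T ∈ W.powersetCard j, g T * ind c T with hGc
  set κ : ℝ := (m - 2 * j) / (m - 1) with hκ
  set φ : β → Finset β → ℝ := fun d T => chi c d T - κ * ind c T with hφ
  have hx : ∀ d, ∑ T ∈ W.powersetCard j, g T * φ d T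
      = ∑ T ∈ W.powersetCard j, g T * chi c d T - κ * Gc := by
    intro d
    simp only [hφ, mul_sub, Finset.sum_sub_distrib, hGc, Finset.mul_sum]
    congr 1
    refine Finset.sum_congr rfl fun T _ => by ring
  have hsumA : ∑ d ∈ W.erase c, ∑ T ∈ W.powersetCard j, g T * chi c d T = (m - 2 * j) * Gc := by
    rw [Finset.sum_comm]
    have : ∀ T ∈ W.powersetCard j, ∑ d ∈ W.erase c, g T * chi c d T
        = (j : ℝ) * g T + (m - 2 * j) * (g T * ind c T) := by
      intro T hT
      rw [← Finset.mul_sum, sum_chi_over hc hT]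
      ring
    rw [Finset.sum_congr rfl this, Finset.sum_add_distrib, ← Finset.mul_sum, ← Finset.mul_sum, hg]
    ring
  have hcardE : ((W.erase c).card : ℝ) = m - 1 := by
    rw [card_erase_of_mem hc]
    have : 1 ≤ W.card := by omega
    rw [hm']
    push_cast [this]
    ring
  have hsum0 : ∑ d ∈ W.erase c, ∑ T ∈ W.powersetCard j, g T * φ d T = 0 := by
    simp only [hx]
    rw [Finset.sum_sub_distrib, hsumA, Finset.sum_const, nsmul_eq_mul, hcardE, hκ]
    field_simp
    ring
  have hB := simplex_bessel (W.powersetCard j) (W.erase c) φ g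
    (u := ((W.card - 2).choose (j - 1) : ℝ)) (by positivity) (by
      intro d hd d' hd' hne
      have hdW := (mem_erase.1 hd).2
      have hdW' := (mem_erase.1 hd').2
      have : ∀ T, (φ d T - φ d' T) ^ 2 = chi d d' T := by
        intro T
        rw [← chi_diff_sq c d d' T]
        simp only [hφ]
        ring
      simp only [this]
      exact sum_chi hdW hdW' hne hj) hsum0
  simp only [hx] at hB
  -- expansion
  have hexp : ∑ d ∈ W.erase c, (∑ T ∈ W.powersetCard j, g T * chi c d T) ^ 2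
      = ∑ d ∈ W.erase c, (∑ T ∈ W.powersetCard j, g T * chi c d T - κ * Gc) ^ 2
        + (m - 2 * j) ^ 2 / (m - 1) * Gc ^ 2 := by
    have h1 := sum_sq_shift (W.erase c) (fun d => ∑ T ∈ W.powersetCard j, g T * chi c d T) (κ * Gc)
    rw [h1, hsumA, hcardE]
    generalize ∑ d ∈ W.erase c, (∑ T ∈ W.powersetCard j, g T * chi c d T) ^ 2 = A
    rw [hκ]
    field_simp
    ring
  rw [hexp]
  linarith

/-- The full Bessel bound. -/
theorem bessel_all {W : Finset β} {j : ℕ} (hj : 1 ≤ j) (hj' : j + 1 ≤ W.card) (g : Finset β → ℝ)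
    (hg : ∑ T ∈ W.powersetCard j, g T = 0) :
    ∑ c ∈ W, ∑ d ∈ W.erase c, (∑ T ∈ W.powersetCard j, g T * chi c d T) ^ 2
      ≤ 2 * ((W.card : ℝ) - 1) * (((W.card - 2).choose (j - 1) : ℝ) * ∑ T ∈ W.powersetCard j, g T ^ 2) := by
  have hm : 2 ≤ W.card := by omega
  set m : ℝ := (W.card : ℝ) with hm'
  have hm2 : (2 : ℝ) ≤ m := by rw [hm']; exact_mod_cast hm
  have hm1 : (0 : ℝ) < m - 1 := by linarith
  set U := (((W.card - 2).choose (j - 1) : ℝ) * ∑ T ∈ W.powersetCard j, g T ^ 2) with hU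
  have hU0 : 0 ≤ U := by
    rw [hU]
    exact mul_nonneg (by positivity) (Finset.sum_nonneg fun _ _ => sq_nonneg _)
  have h1 : ∑ c ∈ W, ∑ d ∈ W.erase c, (∑ T ∈ W.powersetCard j, g T * chi c d T) ^ 2
      ≤ ∑ c ∈ W, (U + (m - 2 * j) ^ 2 / (m - 1) * (∑ T ∈ W.powersetCard j, g T * ind c T) ^ 2) :=
    Finset.sum_le_sum fun c hc => bessel_row hj g hg hc hm
  rw [Finset.sum_add_distrib, Finset.sum_const, nsmul_eq_mul, ← Finset.mul_sum] at h1
  have h2 := bessel_level1 hj g hg
  rw [← hU] at h2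
  have h3 : (m - 2 * j) ^ 2 / (m - 1) ≤ m - 2 := by
    rw [div_le_iff₀ hm1]
    have hj1 : (1 : ℝ) ≤ j := by exact_mod_cast hj
    have hj2 : (j : ℝ) + 1 ≤ m := by rw [hm']; exact_mod_cast hj'
    nlinarith
  have h4 : (m - 2 * j) ^ 2 / (m - 1) * ∑ c ∈ W, (∑ T ∈ W.powersetCard j, g T * ind c T) ^ 2
      ≤ (m - 2) * U := by
    have h5 : 0 ≤ (m - 2 * j) ^ 2 / (m - 1) := by positivity
    calc _ ≤ (m - 2 * j) ^ 2 / (m - 1) * U := mul_le_mul_of_nonneg_left h2 h5
      _ ≤ (m - 2) * U := mul_le_mul_of_nonneg_right h3 hU0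
  calc _ ≤ _ := h1
    _ ≤ m * U + (m - 2) * U := by linarith
    _ = 2 * (m - 1) * U := by ring

/-- Main result of this file, with explicit sums (`TTT W j g ≤ (m-1) ∑ g²`). -/
theorem ttt_le (W : Finset β) (j : ℕ) (g : Finset β → ℝ) (hg : ∑ T ∈ W.powersetCard j, g T = 0) :
    ∑ c ∈ W, ∑ e ∈ W.erase c,
        (∑ T ∈ (W.powersetCard j).filter (fun T => ¬ (c ∈ T ↔ e ∈ T)), g T) ^ 2 /
          (((W.powersetCard j).filter fun T => ¬ (c ∈ T ↔ e ∈ T)).card : ℝ)
      ≤ ((W.card : ℝ) - 1) * ∑ T ∈ W.powersetCard j, g T ^ 2 := by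
  have hsq : 0 ≤ ∑ T ∈ W.powersetCard j, g T ^ 2 := Finset.sum_nonneg fun _ _ => sq_nonneg _
  by_cases hm0 : W.card = 0
  · have : W = ∅ := card_eq_zero.1 hm0
    subst this
    have h0 : ∑ T ∈ (∅ : Finset β).powersetCard j, g T ^ 2 = 0 := by
      rcases j with _ | j
      · simp at hg ⊢
        exact hg
      · rw [Finset.powersetCard_eq_empty.2 (by simp)]
        simp
    rw [h0]
    simp
  have hm1R : (1 : ℝ) ≤ (W.card : ℝ) := by
    have : 1 ≤ W.card := Nat.pos_of_ne_zero hm0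
    exact_mod_cast this
  have hR : 0 ≤ ((W.card : ℝ) - 1) * ∑ T ∈ W.powersetCard j, g T ^ 2 :=
    mul_nonneg (by linarith) hsq
  by_cases hj : 1 ≤ j ∧ j + 1 ≤ W.card
  · obtain ⟨hj, hj'⟩ := hj
    have hB := bessel_all hj hj' g hg
    have hu : 0 < ((W.card - 2).choose (j - 1) : ℝ) := by
      have : 0 < (W.card - 2).choose (j - 1) := Nat.choose_pos (by omega)
      exact_mod_cast this
    have h1 : ∀ c ∈ W, ∀ e ∈ W.erase c,
        (∑ T ∈ (W.powersetCard j).filter (fun T => ¬ (c ∈ T ↔ e ∈ T)), g T) ^ 2 /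
          (((W.powersetCard j).filter fun T => ¬ (c ∈ T ↔ e ∈ T)).card : ℝ)
        = (∑ T ∈ W.powersetCard j, g T * chi c e T) ^ 2 / (2 * ((W.card - 2).choose (j - 1) : ℝ)) := by
      intro c hc e he
      have he' := mem_erase.1 he
      rw [card_sep hc he'.2 (Ne.symm he'.1) hj, Finset.sum_filter]
      push_cast
      congr 2
      refine Finset.sum_congr rfl fun T _ => ?_
      unfold chi
      split_ifs <;> simp
    rw [Finset.sum_congr rfl fun c hc => Finset.sum_congr rfl (h1 c hc)]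
    simp only [← Finset.sum_div]
    rw [div_le_iff₀ (by positivity)]
    refine hB.trans (le_of_eq ?_)
    ring
  · -- degenerate: nothing separates
    have hemp : ∀ c ∈ W, ∀ e ∈ W.erase c,
        (W.powersetCard j).filter (fun T => ¬ (c ∈ T ↔ e ∈ T)) = ∅ := by
      intro c hc e he
      rw [filter_eq_empty_iff]
      intro T hT
      rw [mem_powersetCard] at hT
      have he' := (mem_erase.1 he).2
      by_cases hj0 : j = 0
      · subst hj0
        have : T = ∅ := card_eq_zero.1 hT.2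
        subst this
        simp
      · have hjW : W.card ≤ j := by
          by_contra h
          exact hj ⟨Nat.pos_of_ne_zero hj0, by omega⟩
        have : T = W := eq_of_subset_of_card_le hT.1 (by omega)
        subst this
        simp [hc, he']
    have : ∑ c ∈ W, ∑ e ∈ W.erase c,
        (∑ T ∈ (W.powersetCard j).filter (fun T => ¬ (c ∈ T ↔ e ∈ T)), g T) ^ 2 /
          (((W.powersetCard j).filter fun T => ¬ (c ∈ T ↔ e ∈ T)).card : ℝ) = 0 := by
      refine Finset.sum_eq_zero fun c hc => Finset.sum_eq_zero fun e he => ?_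
      rw [hemp c hc e he]
      simp
    rw [this]
    exact hR

end Johnson

end Crest.Agent.Switch
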