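/-
S0453 C3: the Johnson lemma (F1 + F2).
-/
import Crest.Agent.Lib.Switch.JohnsonF1
import Crest.Agent.Lib.Switch.JohnsonF2

set_option autoImplicit false

namespace Crest.Agent.Switch

open Finset

variable {β : Type*} [DecidableEq β]

/-- (F1+F2): `½ 𝖤 ≥ Tr`. -/
theorem johnson_F2 (W : Finset β) (j : ℕ) (g : Finset β → ℝ)
    (hg : ∑ T ∈ W.powersetCard j, g T = 0) :
    4 * TTT W j g ≤ EE W j g := by
  have h1 := JohnsonUD.johnson_F1_sharp W j g hg
  have h2 := ttt_le W j g hg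
  have h3 : 0 ≤ ∑ T ∈ W.powersetCard j, g T ^ 2 := sum_nonneg fun _ _ => sq_nonneg _
  have h4 : TTT W j g ≤ ((W.card : ℝ) - 1) * ∑ T ∈ W.powersetCard j, g T ^ 2 := by
    unfold TTT sepFam
    convert h2
  nlinarith

end Crest.Agent.Switch
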