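/-
S0453 C5b: the `(a,b)`-fibre of a realization `G` is the Johnson scheme `J(W,j)`.
-/
import Crest.Agent.Lib.Switch.Connect
import Crest.Agent.Lib.Switch.JohnsonDefs

set_option autoImplicit false
set_option linter.unusedSectionVars false
set_option linter.unusedSimpArgs false
set_option linter.unusedVariables false

namespace Crest.Agent.Switch.JohnsonG

open Finset Crest.SwitchChain
open scoped Classical

variable {n : ℕ} {a b : Fin n} {d : Fin n → ℕ} {G H H' : Finset (Edge n)}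

/-- Free columns of the `(a,b)`-fibre of `G`. -/
noncomputable def wW (a b : Fin n) (G : Finset (Edge n)) : Finset (Fin n) :=
  univ.filter fun w => w ≠ a ∧ w ≠ b ∧ ¬ (adj G a w ↔ adj G b w)

/-- Coordinates of `H` in the fibre of `G`. -/
noncomputable def toT (a b : Fin n) (G H : Finset (Edge n)) : Finset (Fin n) :=
  (wW a b G).filter fun w => adj H a w

/-- `j`. -/
noncomputable def jj (a b : Fin n) (G : Finset (Edge n)) : ℕ := (toT a b G G).card

theorem mem_wW {w : Fin n} : w ∈ wW a b G ↔ w ≠ a ∧ w ≠ b ∧ ¬ (adj G a w ↔ adj G b w) := by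
  simp [wW]

theorem mem_toT {w : Fin n} : w ∈ toT a b G H ↔ w ∈ wW a b G ∧ adj H a w := by
  simp [toT]

/-- The degree of `w ∉ {a,b}`. -/
theorem deg_w (hab : a ≠ b) (G : Finset (Edge n)) (w : Fin n) :
    deg G w = (if adj G a w then 1 else 0) + (if adj G b w then 1 else 0)
      + (univ.filter fun u => u ≠ a ∧ u ≠ b ∧ adj G w u).card := by
  rw [deg_eq_card]
  have h1 : (univ.filter fun u => adj G w u)
      = (({a, b} : Finset (Fin n)).filter fun u => adj G w u)
        ∪ (univ.filter fun u => u ≠ a ∧ u ≠ b ∧ adj G w u) := by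
    ext u
    simp only [mem_filter, mem_univ, true_and, mem_union, mem_insert, mem_singleton]
    constructor
    · intro h
      by_cases h1 : u = a
      · exact Or.inl ⟨Or.inl h1, h⟩
      by_cases h2 : u = b
      · exact Or.inl ⟨Or.inr h2, h⟩
      exact Or.inr ⟨h1, h2, h⟩
    · rintro (h | h)
      · exact h.2
      · exact h.2.2
  have h2 : Disjoint (({a, b} : Finset (Fin n)).filter fun u => adj G w u)
      (univ.filter fun u => u ≠ a ∧ u ≠ b ∧ adj G w u) := by
    rw [Finset.disjoint_left]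
    intro u hu hu'
    obtain ⟨hu1, -⟩ := mem_filter.1 hu
    obtain ⟨-, h3, h4, -⟩ := mem_filter.1 hu'
    simp only [mem_insert, mem_singleton] at hu1
    rcases hu1 with rfl | rfl <;> simp_all
  rw [h1, card_union_of_disjoint h2, Finset.card_filter, Finset.sum_insert, Finset.sum_singleton]
  · simp only [adj_comm G w]
  · simpa using hab

theorem prof_cases1 (p q r s : Prop)
    (h : (if p then 1 else 0) + (if q then 1 else 0) = (if r then 1 else 0) + (if s then 1 else 0))
    (hrs : r ↔ s) : (p ↔ r) ∧ (q ↔ s) := by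
  by_cases a1 : p <;> by_cases a2 : q <;> by_cases a3 : r <;> by_cases a4 : s <;> simp_all

theorem prof_cases2 (p q r s : Prop)
    (h : (if p then 1 else 0) + (if q then 1 else 0) = (if r then 1 else 0) + (if s then 1 else 0))
    (hrs : ¬ (r ↔ s)) : (q ↔ ¬ p) := by
  by_cases a1 : p <;> by_cases a2 : q <;> by_cases a3 : r <;> by_cases a4 : s <;> simp_all

theorem prof_cases3 (p q r s : Prop) (hrs : ¬ (r ↔ s)) (hpq : q ↔ ¬ p) :
    ((if p then 1 else 0) + (if q then 1 else 0) : ℕ) = (if r then 1 else 0) + (if s then 1 else 0) := by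
  by_cases a1 : p <;> by_cases a2 : q <;> by_cases a3 : r <;> by_cases a4 : s <;> simp_all

/-- The shape of a member of the fibre. -/
structure Shape (a b : Fin n) (G H : Finset (Edge n)) : Prop where
  hsame : same a b G H
  hout : ∀ w, w ≠ a → w ≠ b → w ∉ wW a b G → (adj H a w ↔ adj G a w) ∧ (adj H b w ↔ adj G b w)
  hin : ∀ w ∈ wW a b G, (adj H b w ↔ ¬ adj H a w)

theorem shape_of_blk (hab : a ≠ b) (hG : G ∈ realizations d) (hH : H ∈ blk d a b G) :
    Shape a b G H := by
  obtain ⟨hH1, hH2⟩ := mem_filter.1 hH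
  have key : ∀ w, w ≠ a → w ≠ b →
      (if adj H a w then 1 else 0) + (if adj H b w then 1 else 0)
        = (if adj G a w then 1 else 0) + (if adj G b w then 1 else 0) := by
    intro w h1 h2
    have e1 := deg_w hab G w
    have e2 := deg_w hab H w
    rw [mem_realizations.1 hG] at e1
    rw [mem_realizations.1 hH1] at e2
    have e3 : (univ.filter fun u => u ≠ a ∧ u ≠ b ∧ adj G w u)
        = (univ.filter fun u => u ≠ a ∧ u ≠ b ∧ adj H w u) := by
      ext u
      simp only [mem_filter, mem_univ, true_and]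
      constructor
      · rintro ⟨h3, h4, h5⟩
        exact ⟨h3, h4, (hH2.2 w u h1 h2 h3 h4).1 h5⟩
      · rintro ⟨h3, h4, h5⟩
        exact ⟨h3, h4, (hH2.2 w u h1 h2 h3 h4).2 h5⟩
    rw [e3] at e1
    omega
  refine ⟨hH2, ?_, ?_⟩
  · intro w h1 h2 h3
    have hk := key w h1 h2
    rw [mem_wW] at h3
    have h4 : adj G a w ↔ adj G b w := by
      by_contra h4
      exact h3 ⟨h1, h2, h4⟩
    exact prof_cases1 _ _ _ _ hk h4
  · intro w hw
    obtain ⟨h1, h2, h3⟩ := mem_wW.1 hw
    have hk := key w h1 h2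
    exact prof_cases2 _ _ _ _ hk h3

theorem toT_subset : toT a b G H ⊆ wW a b G := filter_subset _ _

/-- Neighbours of `a` in terms of `toT`. -/
theorem deg_a (hab : a ≠ b) (h : Shape a b G H) :
    deg H a = (if adj G a b then 1 else 0) + (toT a b G H).card
      + (univ.filter fun u => u ≠ a ∧ u ≠ b ∧ u ∉ wW a b G ∧ adj G a u).card := by
  rw [deg_eq_card]
  have h1 : (univ.filter fun u => adj H a u)
      = (({b} : Finset (Fin n)).filter fun u => adj G a u) ∪
        (toT a b G H ∪ (univ.filter fun u => u ≠ a ∧ u ≠ b ∧ u ∉ wW a b G ∧ adj G a u)) := by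
    ext u
    simp only [mem_filter, mem_univ, true_and, mem_union, mem_singleton, mem_toT]
    constructor
    · intro h2
      have hua : u ≠ a := (adj_ne h2).symm
      by_cases hub : u = b
      · subst hub; exact Or.inl ⟨rfl, h.hsame.1.2 h2⟩
      · by_cases huW : u ∈ wW a b G
        · exact Or.inr (Or.inl ⟨huW, h2⟩)
        · exact Or.inr (Or.inr ⟨hua, hub, huW, (h.hout u hua hub huW).1.1 h2⟩)
    · rintro (⟨rfl, h2⟩ | ⟨-, h2⟩ | ⟨h3, h4, h5, h6⟩)
      · exact h.hsame.1.1 h2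
      · exact h2
      · exact (h.hout u h3 h4 h5).1.2 h6
  have h2 : Disjoint (toT a b G H)
      (univ.filter fun u => u ≠ a ∧ u ≠ b ∧ u ∉ wW a b G ∧ adj G a u) := by
    rw [Finset.disjoint_left]
    intro u hu hu'
    have := (mem_toT.1 hu).1
    exact (mem_filter.1 hu').2.2.2.1 this
  have h3 : Disjoint (({b} : Finset (Fin n)).filter fun u => adj G a u)
      (toT a b G H ∪ (univ.filter fun u => u ≠ a ∧ u ≠ b ∧ u ∉ wW a b G ∧ adj G a u)) := by
    rw [Finset.disjoint_left]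
    intro u hu hu'
    have hub : u = b := by simpa using (mem_filter.1 hu).1
    subst hub
    rcases mem_union.1 hu' with h4 | h4
    · exact (mem_wW.1 (mem_toT.1 h4).1).2.1 rfl
    · exact (mem_filter.1 h4).2.2.1 rfl
  rw [h1, card_union_of_disjoint h3, card_union_of_disjoint h2, Finset.card_filter,
    Finset.sum_singleton]
  ring

/-- Neighbours of `b` in terms of `toT`. -/
theorem deg_b (hab : a ≠ b) (h : Shape a b G H) :
    deg H b = (if adj G a b then 1 else 0) + ((wW a b G).card - (toT a b G H).card)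
      + (univ.filter fun u => u ≠ a ∧ u ≠ b ∧ u ∉ wW a b G ∧ adj G b u).card := by
  rw [deg_eq_card]
  have h1 : (univ.filter fun u => adj H b u)
      = (({a} : Finset (Fin n)).filter fun u => adj G a b) ∪
        (((wW a b G) \ toT a b G H) ∪ (univ.filter fun u => u ≠ a ∧ u ≠ b ∧ u ∉ wW a b G ∧ adj G b u)) := by
    ext u
    simp only [mem_filter, mem_univ, true_and, mem_union, mem_singleton, mem_sdiff, mem_toT]
    constructor
    · intro h2
      have hub : u ≠ b := (adj_ne h2).symm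
      by_cases hua : u = a
      · subst hua; exact Or.inl ⟨rfl, h.hsame.1.2 ((adj_comm _ _ _).1 h2)⟩
      · by_cases huW : u ∈ wW a b G
        · refine Or.inr (Or.inl ⟨huW, ?_⟩)
          rintro ⟨-, h3⟩
          exact ((h.hin u huW).1 h2) h3
        · exact Or.inr (Or.inr ⟨hua, hub, huW, (h.hout u hua hub huW).2.1 h2⟩)
    · rintro (⟨rfl, h2⟩ | ⟨h2, h3⟩ | ⟨h3, h4, h5, h6⟩)
      · exact (adj_comm _ _ _).1 (h.hsame.1.1 h2)
      · exact (h.hin u h2).2 fun h4 => h3 ⟨h2, h4⟩
      · exact (h.hout u h3 h4 h5).2.2 h6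
  have h2 : Disjoint ((wW a b G) \ toT a b G H)
      (univ.filter fun u => u ≠ a ∧ u ≠ b ∧ u ∉ wW a b G ∧ adj G b u) := by
    rw [Finset.disjoint_left]
    intro u hu hu'
    exact (mem_filter.1 hu').2.2.2.1 (mem_sdiff.1 hu).1
  have h3 : Disjoint (({a} : Finset (Fin n)).filter fun u => adj G a b)
      (((wW a b G) \ toT a b G H) ∪ (univ.filter fun u => u ≠ a ∧ u ≠ b ∧ u ∉ wW a b G ∧ adj G b u)) := by
    rw [Finset.disjoint_left]
    intro u hu hu'
    have hua : u = a := by simpa using (mem_filter.1 hu).1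
    subst hua
    rcases mem_union.1 hu' with h4 | h4
    · exact (mem_wW.1 (mem_sdiff.1 h4).1).1 rfl
    · exact (mem_filter.1 h4).2.1 rfl
  rw [h1, card_union_of_disjoint h3, card_union_of_disjoint h2, Finset.card_filter,
    Finset.sum_singleton, card_sdiff_of_subset toT_subset]
  ring

/-- The profile of a vertex outside `{a,b}` is determined by the shape. -/
theorem deg_of_shape_w (hab : a ≠ b) (h : Shape a b G H) {w : Fin n} (h1 : w ≠ a) (h2 : w ≠ b) :
    deg H w = deg G w := by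
  rw [deg_w hab H w, deg_w hab G w]
  have e3 : (univ.filter fun u => u ≠ a ∧ u ≠ b ∧ adj G w u)
      = (univ.filter fun u => u ≠ a ∧ u ≠ b ∧ adj H w u) := by
    ext u
    simp only [mem_filter, mem_univ, true_and]
    constructor
    · rintro ⟨h3, h4, h5⟩
      exact ⟨h3, h4, (h.hsame.2 w u h1 h2 h3 h4).1 h5⟩
    · rintro ⟨h3, h4, h5⟩
      exact ⟨h3, h4, (h.hsame.2 w u h1 h2 h3 h4).2 h5⟩
  rw [← e3]
  congr 1
  by_cases hw : w ∈ wW a b G
  · have h3 := h.hin w hw
    have h4 := (mem_wW.1 hw).2.2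
    exact prof_cases3 _ _ _ _ h4 h3
  · have := h.hout w h1 h2 hw
    simp only [this.1, this.2]

theorem shape_refl (hab : a ≠ b) (G : Finset (Edge n)) : Shape a b G G := by
  refine ⟨same_refl a b G, fun _ _ _ _ => ⟨Iff.rfl, Iff.rfl⟩, ?_⟩
  intro w hw
  have h4 := (mem_wW.1 hw).2.2
  by_cases a1 : adj G a w <;> by_cases a4 : adj G b w <;> simp_all

theorem card_toT_of_blk (hab : a ≠ b) (hG : G ∈ realizations d) (hH : H ∈ blk d a b G) :
    (toT a b G H).card = jj a b G := by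
  have h := shape_of_blk hab hG hH
  have e1 := deg_a hab h
  have e2 := deg_a hab (shape_refl hab G)
  rw [mem_realizations.1 (mem_filter.1 hH).1] at e1
  rw [mem_realizations.1 hG] at e2
  unfold jj
  omega

theorem toT_mem (hab : a ≠ b) (hG : G ∈ realizations d) (hH : H ∈ blk d a b G) :
    toT a b G H ∈ (wW a b G).powersetCard (jj a b G) :=
  mem_powersetCard.2 ⟨toT_subset, card_toT_of_blk hab hG hH⟩

/-- Extensionality in the fibre. -/
theorem ext_shape (hab : a ≠ b) (h : Shape a b G H) (h' : Shape a b G H')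
    (ht : toT a b G H = toT a b G H') : H = H' := by
  have haw : ∀ w, w ≠ a → w ≠ b → (adj H a w ↔ adj H' a w) := by
    intro w h1 h2
    by_cases hw : w ∈ wW a b G
    · have := congrArg (fun S => w ∈ S) ht
      simpa [mem_toT, hw] using this
    · rw [(h.hout w h1 h2 hw).1, (h'.hout w h1 h2 hw).1]
  have hbw : ∀ w, w ≠ a → w ≠ b → (adj H b w ↔ adj H' b w) := by
    intro w h1 h2
    by_cases hw : w ∈ wW a b G
    · rw [h.hin w hw, h'.hin w hw, haw w h1 h2]
    · rw [(h.hout w h1 h2 hw).2, (h'.hout w h1 h2 hw).2]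
  have hab' : adj H a b ↔ adj H' a b := h.hsame.1.symm.trans h'.hsame.1
  have hrest : ∀ u v, u ≠ a → u ≠ b → v ≠ a → v ≠ b → (adj H u v ↔ adj H' u v) :=
    fun u v h1 h2 h3 h4 => (h.hsame.2 u v h1 h2 h3 h4).symm.trans (h'.hsame.2 u v h1 h2 h3 h4)
  apply graph_ext
  intro u v
  by_cases hua : u = a
  · subst hua
    by_cases hva : v = u
    · subst hva; simp [not_adj_self]
    by_cases hvb : v = b
    · subst hvb; exact hab'
    exact haw v hva hvb
  by_cases hub : u = b
  · subst hub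
    by_cases hva : v = a
    · subst hva; rw [adj_comm H, adj_comm H']; exact hab'
    by_cases hvb : v = u
    · subst hvb; simp [not_adj_self]
    exact hbw v hva hvb
  by_cases hva : v = a
  · subst hva; rw [adj_comm H, adj_comm H']; exact haw u hua hub
  by_cases hvb : v = b
  · subst hvb; rw [adj_comm H, adj_comm H']; exact hbw u hua hub
  exact hrest u v hua hub hva hvb

theorem toT_inj (hab : a ≠ b) (hG : G ∈ realizations d) (hH : H ∈ blk d a b G)
    (hH' : H' ∈ blk d a b G) (h : toT a b G H = toT a b G H') : H = H' :=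
  ext_shape hab (shape_of_blk hab hG hH) (shape_of_blk hab hG hH') h

/-- The relation of the graph with coordinates `T`. -/
def glueRel (a b : Fin n) (G : Finset (Edge n)) (T : Finset (Fin n)) (u v : Fin n) : Prop :=
  (u = a ∧ v = b ∧ adj G a b) ∨ (u = b ∧ v = a ∧ adj G a b) ∨
  (u = a ∧ v ≠ a ∧ v ≠ b ∧ ((v ∈ wW a b G ∧ v ∈ T) ∨ (v ∉ wW a b G ∧ adj G a v))) ∨
  (v = a ∧ u ≠ a ∧ u ≠ b ∧ ((u ∈ wW a b G ∧ u ∈ T) ∨ (u ∉ wW a b G ∧ adj G a u))) ∨
  (u = b ∧ v ≠ a ∧ v ≠ b ∧ ((v ∈ wW a b G ∧ v ∉ T) ∨ (v ∉ wW a b G ∧ adj G b v))) ∨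
  (v = b ∧ u ≠ a ∧ u ≠ b ∧ ((u ∈ wW a b G ∧ u ∉ T) ∨ (u ∉ wW a b G ∧ adj G b u))) ∨
  (u ≠ a ∧ u ≠ b ∧ v ≠ a ∧ v ≠ b ∧ adj G u v)

theorem glueRel_symm (G : Finset (Edge n)) (T : Finset (Fin n)) (u v : Fin n) :
    glueRel a b G T u v ↔ glueRel a b G T v u := by
  have aux : ∀ u v, glueRel a b G T u v → glueRel a b G T v u := by
    intro u v h
    rcases h with h | h | h | h | h | h | h
    · exact Or.inr (Or.inl ⟨h.2.1, h.1, h.2.2⟩)
    · exact Or.inl ⟨h.2.1, h.1, h.2.2⟩
    · exact Or.inr (Or.inr (Or.inr (Or.inl h)))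
    · exact Or.inr (Or.inr (Or.inl h))
    · exact Or.inr (Or.inr (Or.inr (Or.inr (Or.inr (Or.inl h)))))
    · exact Or.inr (Or.inr (Or.inr (Or.inr (Or.inl h))))
    · obtain ⟨h1, h2, h3, h4, h5⟩ := h
      exact Or.inr (Or.inr (Or.inr (Or.inr (Or.inr (Or.inr ⟨h3, h4, h1, h2, (adj_comm _ _ _).1 h5⟩)))))
  exact ⟨aux u v, aux v u⟩

theorem glue_shape (hab : a ≠ b) (G : Finset (Edge n)) {T : Finset (Fin n)} (hT : T ⊆ wW a b G) :
    Shape a b G (ofRel (glueRel a b G T)) ∧ toT a b G (ofRel (glueRel a b G T)) = T := by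
  have hadj : ∀ u v, u ≠ v → (adj (ofRel (glueRel a b G T)) u v ↔ glueRel a b G T u v) :=
    fun u v h => adj_ofRel (glueRel_symm G T) h
  have haw : ∀ w, w ≠ a → w ≠ b → (adj (ofRel (glueRel a b G T)) a w ↔
      ((w ∈ wW a b G ∧ w ∈ T) ∨ (w ∉ wW a b G ∧ adj G a w))) := by
    intro w h1 h2
    rw [hadj a w (Ne.symm h1)]
    unfold glueRel
    simp [h1, h2, hab, Ne.symm hab]
  have hbw : ∀ w, w ≠ a → w ≠ b → (adj (ofRel (glueRel a b G T)) b w ↔
      ((w ∈ wW a b G ∧ w ∉ T) ∨ (w ∉ wW a b G ∧ adj G b w))) := by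
    intro w h1 h2
    rw [hadj b w (Ne.symm h2)]
    unfold glueRel
    simp [h1, h2, hab, Ne.symm hab]
  refine ⟨⟨⟨?_, ?_⟩, ?_, ?_⟩, ?_⟩
  · rw [hadj a b hab]
    unfold glueRel
    simp [hab, Ne.symm hab]
  · intro u v h1 h2 h3 h4
    by_cases huv : u = v
    · subst huv; simp [not_adj_self]
    rw [hadj u v huv]
    unfold glueRel
    simp [h1, h2, h3, h4]
  · intro w h1 h2 h3
    rw [haw w h1 h2, hbw w h1 h2]
    simp [h3]
  · intro w hw
    obtain ⟨h1, h2, h3⟩ := mem_wW.1 hw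
    rw [haw w h1 h2, hbw w h1 h2]
    simp [hw]
  · ext w
    rw [mem_toT]
    constructor
    · rintro ⟨h1, h2⟩
      obtain ⟨h3, h4, -⟩ := mem_wW.1 h1
      rw [haw w h3 h4] at h2
      simpa [h1] using h2
    · intro h1
      have h2 := hT h1
      obtain ⟨h3, h4, -⟩ := mem_wW.1 h2
      refine ⟨h2, ?_⟩
      rw [haw w h3 h4]
      exact Or.inl ⟨h2, h1⟩

theorem toT_surj (hab : a ≠ b) (hG : G ∈ realizations d) {T : Finset (Fin n)}
    (hT : T ∈ (wW a b G).powersetCard (jj a b G)) : ∃ H ∈ blk d a b G, toT a b G H = T := by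
  obtain ⟨hT1, hT2⟩ := mem_powersetCard.1 hT
  obtain ⟨h1, h2⟩ := glue_shape hab G hT1
  refine ⟨_, ?_, h2⟩
  refine mem_filter.2 ⟨mem_realizations.2 ?_, h1.hsame⟩
  intro v
  rw [← mem_realizations.1 hG v]
  by_cases hva : v = a
  · subst hva
    rw [deg_a hab h1, deg_a hab (shape_refl hab G), h2, hT2]
    rfl
  by_cases hvb : v = b
  · subst hvb
    rw [deg_b hab h1, deg_b hab (shape_refl hab G), h2, hT2]
    rfl
  exact deg_of_shape_w hab h1 hva hvb

theorem Y_iff (hab : a ≠ b) (hG : G ∈ realizations d) (hH : H ∈ blk d a b G) {c e : Fin n}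
    (hca : c ≠ a) (hcb : c ≠ b) (hea : e ≠ a) (heb : e ≠ b) (hce : c ≠ e) :
    Ysplit a b c e H ↔ c ∈ wW a b G ∧ e ∈ wW a b G ∧ ¬ (c ∈ toT a b G H ↔ e ∈ toT a b G H) := by
  have h := shape_of_blk hab hG hH
  have hW : ∀ w, w ≠ a → w ≠ b → ¬ (adj H a w ↔ adj H b w) → w ∈ wW a b G := by
    intro w h1 h2 h3
    by_contra h4
    have := h.hout w h1 h2 h4
    apply h3
    rw [this.1, this.2]
    by_contra h5
    exact h4 (mem_wW.2 ⟨h1, h2, h5⟩)
  unfold Ysplit
  constructor
  · rintro (⟨h1, h2, h3, h4⟩ | ⟨h1, h2, h3, h4⟩)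
    · have hc : c ∈ wW a b G := hW c hca hcb (by simp [h1, h4])
      have he : e ∈ wW a b G := hW e hea heb (by simp [h2, h3])
      refine ⟨hc, he, ?_⟩
      simp [mem_toT, hc, he, h1, h3]
    · have hc : c ∈ wW a b G := hW c hca hcb (by simp [h2, h3])
      have he : e ∈ wW a b G := hW e hea heb (by simp [h1, h4])
      refine ⟨hc, he, ?_⟩
      simp [mem_toT, hc, he, h1, h3]
  · rintro ⟨hc, he, h1⟩
    have h2 := h.hin c hc
    have h3 := h.hin e he
    simp only [mem_toT, hc, he, true_and] at h1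
    by_cases a1 : adj H a c <;> by_cases a2 : adj H a e <;> simp_all

theorem flip_mem (hab : a ≠ b) (hG : G ∈ realizations d) (hH : H ∈ blk d a b G) {c e : Fin n}
    (hca : c ≠ a) (hcb : c ≠ b) (hea : e ≠ a) (heb : e ≠ b) (hce : c ≠ e) (hY : Ysplit a b c e H) :
    flipG a b c e H ∈ blk d a b G := by
  obtain ⟨hH1, hH2⟩ := mem_filter.1 hH
  refine mem_filter.2 ⟨flipG_mem d hab hca.symm hea.symm hcb.symm heb.symm hce hH1 hY, ?_⟩
  refine same_trans hH2 ⟨?_, ?_⟩
  · rw [adj_flipG a b c e hab]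
    simp [Sym2.eq_iff, hab, Ne.symm hab, hca, hcb, hea, heb, Ne.symm hca, Ne.symm hcb, Ne.symm hea,
      Ne.symm heb]
  · intro u v h1 h2 h3 h4
    by_cases huv : u = v
    · subst huv; simp [not_adj_self]
    rw [adj_flipG a b c e huv]
    simp [Sym2.eq_iff, h1, h2, h3, h4]

theorem toT_flip (hab : a ≠ b) (hG : G ∈ realizations d) (hH : H ∈ blk d a b G) {c e : Fin n}
    (hca : c ≠ a) (hcb : c ≠ b) (hea : e ≠ a) (heb : e ≠ b) (hce : c ≠ e) (hY : Ysplit a b c e H) :
    toT a b G (flipG a b c e H) = swapSet c e (toT a b G H) := by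
  obtain ⟨hc, he, hsep⟩ := (Y_iff hab hG hH hca hcb hea heb hce).1 hY
  have hflip : ∀ w, w ≠ a → (adj (flipG a b c e H) a w ↔ ¬ (adj H a w ↔ (w = c ∨ w = e))) := by
    intro w hw
    rw [adj_flipG a b c e (Ne.symm hw)]
    simp [Sym2.eq_iff, hab, Ne.symm hab, hca, hcb, hea, heb, Ne.symm hca, Ne.symm hcb, Ne.symm hea,
      Ne.symm heb, hw, Ne.symm hw]
  have hswap : ∀ w, w ∈ swapSet c e (toT a b G H) ↔ Equiv.swap c e w ∈ toT a b G H := by
    intro w
    unfold swapSet
    rw [Finset.mem_image]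
    constructor
    · rintro ⟨x, hx, rfl⟩
      simpa using hx
    · intro h
      exact ⟨_, h, by simp⟩
  ext w
  rw [hswap, mem_toT]
  simp only [mem_toT, hc, he, true_and] at hsep
  by_cases hwc : w = c
  · subst hwc
    rw [Equiv.swap_apply_left, mem_toT, hflip w (by simpa using hca)]
    simp [hc, he]
    tauto
  by_cases hwe : w = e
  · subst hwe
    rw [Equiv.swap_apply_right, mem_toT, hflip w hea]
    simp [hc, he]
    tauto
  rw [Equiv.swap_apply_of_ne_of_ne hwc hwe, mem_toT]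
  refine and_congr_right fun hw => ?_
  rw [hflip w (mem_wW.1 hw).1]
  simp [hwc, hwe]

end Crest.Agent.Switch.JohnsonG
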