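/-
S0453 C5b: the graph side of the Johnson lemma.
-/
import Crest.Agent.Lib.Switch.JohnsonFibre
import Crest.Agent.Lib.Switch.Johnson

set_option autoImplicit false
set_option linter.unusedSectionVars false
set_option linter.unusedSimpArgs false
set_option linter.unusedVariables false

namespace Crest.Agent.Switch

open Finset Crest.SwitchChain
open scoped Classical

variable {n : ℕ}

/-- Ordered sum over `c ≠ e` avoiding `a,b`. -/
noncomputable def pairs (a b : Fin n) : Finset (Fin n × Fin n) :=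
  univ.filter fun p => p.1 ≠ a ∧ p.1 ≠ b ∧ p.2 ≠ a ∧ p.2 ≠ b ∧ p.1 ≠ p.2

namespace JohnsonG

variable {a b : Fin n} {d : Fin n → ℕ} {G H : Finset (Edge n)}

/-- Transport of a sum to the Johnson scheme. -/
theorem sum_toT (hab : a ≠ b) (hG : G ∈ realizations d) (u : Finset (Fin n) → ℝ) :
    ∑ H ∈ blk d a b G, u (toT a b G H) = ∑ T ∈ (wW a b G).powersetCard (jj a b G), u T := by
  refine Finset.sum_nbij (toT a b G) (fun H hH => toT_mem hab hG hH) ?_ ?_ (fun _ _ => rfl)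
  · intro H hH H' hH' h
    exact toT_inj hab hG hH hH' h
  · intro T hT
    obtain ⟨H, hH, rfl⟩ := toT_surj hab hG hT
    exact ⟨H, hH, rfl⟩

/-- The function on the Johnson scheme. -/
noncomputable def fT (d : Fin n → ℕ) (a b : Fin n) (G : Finset (Edge n)) (f : Finset (Edge n) → ℝ)
    (T : Finset (Fin n)) : ℝ :=
  f (Function.invFunOn (toT a b G) (blk d a b G : Set (Finset (Edge n))) T)

theorem fT_toT (hab : a ≠ b) (hG : G ∈ realizations d) (f : Finset (Edge n) → ℝ)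
    (hH : H ∈ blk d a b G) : fT d a b G f (toT a b G H) = f H := by
  unfold fT
  congr 1
  have h1 : toT a b G H ∈ toT a b G '' (blk d a b G : Set (Finset (Edge n))) := ⟨H, hH, rfl⟩
  exact toT_inj hab hG (Function.invFunOn_mem h1) hH (Function.invFunOn_eq h1)

/-- The centred function on the Johnson scheme. -/
noncomputable def gT (d : Fin n → ℕ) (a b : Fin n) (G : Finset (Edge n)) (f : Finset (Edge n) → ℝ)
    (T : Finset (Fin n)) : ℝ :=
  fT d a b G f T - avg d a b f G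

theorem gT_toT (hab : a ≠ b) (hG : G ∈ realizations d) (f : Finset (Edge n) → ℝ)
    (hH : H ∈ blk d a b G) : gT d a b G f (toT a b G H) = f H - avg d a b f G := by
  unfold gT
  rw [fT_toT hab hG f hH]

theorem self_mem_blk (hG : G ∈ realizations d) : G ∈ blk d a b G :=
  mem_filter.2 ⟨hG, same_refl a b G⟩

theorem blk_eq (hH : H ∈ blk d a b G) : blk d a b H = blk d a b G := by
  have h := (mem_filter.1 hH).2
  unfold blk
  ext K
  simp only [mem_filter, and_congr_right_iff]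
  intro _
  exact ⟨fun h' => same_trans h h', fun h' => same_trans (same_symm h) h'⟩

theorem avg_eq (f : Finset (Edge n) → ℝ) (hH : H ∈ blk d a b G) :
    avg d a b f H = avg d a b f G := by
  unfold avg
  rw [blk_eq hH]

theorem Q_eq (hab : a ≠ b) (hG : G ∈ realizations d) (f : Finset (Edge n) → ℝ)
    (hH : H ∈ blk d a b G) : Q d a b f H = gT d a b G f (toT a b G H) := by
  unfold Q
  rw [gT_toT hab hG f hH, avg_eq f hH]

theorem sum_gT (hab : a ≠ b) (hG : G ∈ realizations d) (f : Finset (Edge n) → ℝ) :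
    ∑ T ∈ (wW a b G).powersetCard (jj a b G), gT d a b G f T = 0 := by
  rw [← sum_toT hab hG]
  rw [Finset.sum_congr rfl (fun H hH => gT_toT hab hG f hH), Finset.sum_sub_distrib, Finset.sum_const,
    nsmul_eq_mul]
  have hne : ((blk d a b G).card : ℝ) ≠ 0 := by
    exact_mod_cast (Finset.card_pos.2 ⟨G, self_mem_blk hG⟩).ne'
  unfold avg
  field_simp
  ring

theorem sum_Q_sq_block (hab : a ≠ b) (hG : G ∈ realizations d) (f : Finset (Edge n) → ℝ) :
    ∑ H ∈ blk d a b G, (Q d a b f H) ^ 2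
      = ∑ T ∈ (wW a b G).powersetCard (jj a b G), (gT d a b G f T) ^ 2 := by
  rw [← sum_toT hab hG]
  exact Finset.sum_congr rfl fun H hH => by rw [Q_eq hab hG f hH]

/-- Sums over `Y` in the fibre are sums over `sepFam`. -/
theorem sum_Y (hab : a ≠ b) (hG : G ∈ realizations d) {c e : Fin n}
    (hca : c ≠ a) (hcb : c ≠ b) (hea : e ≠ a) (heb : e ≠ b) (hce : c ≠ e)
    (hc : c ∈ wW a b G) (he : e ∈ wW a b G) (u : Finset (Fin n) → ℝ) :
    ∑ H ∈ (blk d a b G).filter (Ysplit a b c e), u (toT a b G H)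
      = ∑ T ∈ sepFam (wW a b G) (jj a b G) c e, u T := by
  unfold sepFam
  rw [Finset.sum_filter, Finset.sum_filter, ← sum_toT hab hG]
  refine Finset.sum_congr rfl fun H hH => ?_
  have hY := Y_iff hab hG hH hca hcb hea heb hce
  by_cases h : Ysplit a b c e H
  · have h2 := (hY.1 h).2.2
    rw [if_pos h, if_pos h2]
  · have h2 : ¬ ¬ (c ∈ toT a b G H ↔ e ∈ toT a b G H) := fun h3 => h (hY.2 ⟨hc, he, h3⟩)
    rw [if_neg h, if_neg h2]

theorem Y_empty (hab : a ≠ b) (hG : G ∈ realizations d) {c e : Fin n}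
    (hca : c ≠ a) (hcb : c ≠ b) (hea : e ≠ a) (heb : e ≠ b) (hce : c ≠ e)
    (hc : ¬ (c ∈ wW a b G ∧ e ∈ wW a b G)) {H : Finset (Edge n)} (hH : H ∈ blk d a b G) :
    ¬ Ysplit a b c e H := by
  intro h
  have := (Y_iff hab hG hH hca hcb hea heb hce).1 h
  exact hc ⟨this.1, this.2.1⟩

/-- The flip energy on a block. -/
theorem sum_flip (hab : a ≠ b) (hG : G ∈ realizations d) (f : Finset (Edge n) → ℝ) {c e : Fin n}
    (hca : c ≠ a) (hcb : c ≠ b) (hea : e ≠ a) (heb : e ≠ b) (hce : c ≠ e) :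
    ∑ H ∈ blk d a b G, (if Ysplit a b c e H then (f H - f (flipG a b c e H)) ^ 2 else 0)
      = if c ∈ wW a b G ∧ e ∈ wW a b G then
          ∑ T ∈ sepFam (wW a b G) (jj a b G) c e,
            (gT d a b G f T - gT d a b G f (swapSet c e T)) ^ 2
        else 0 := by
  by_cases hc : c ∈ wW a b G ∧ e ∈ wW a b G
  · rw [if_pos hc, ← Finset.sum_filter, ← sum_Y hab hG hca hcb hea heb hce hc.1 hc.2]
    refine Finset.sum_congr rfl fun H hH => ?_
    obtain ⟨hH1, hH2⟩ := mem_filter.1 hH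
    rw [← toT_flip hab hG hH1 hca hcb hea heb hce hH2,
      gT_toT hab hG f hH1, gT_toT hab hG f (flip_mem hab hG hH1 hca hcb hea heb hce hH2)]
    ring
  · rw [if_neg hc]
    refine Finset.sum_eq_zero fun H hH => ?_
    rw [if_neg (Y_empty hab hG hca hcb hea heb hce hc hH)]

/-- `phi` on the `Y`-part of a block. -/
theorem phi_eq (hab : a ≠ b) (hG : G ∈ realizations d) (f : Finset (Edge n) → ℝ) {c e : Fin n}
    (hH : H ∈ blk d a b G) (hY : Ysplit a b c e H) :
    phi d a b c e f H = (∑ K ∈ (blk d a b G).filter (Ysplit a b c e), gT d a b G f (toT a b G K))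
      / (((blk d a b G).filter (Ysplit a b c e)).card : ℝ) := by
  have hne : (((blk d a b G).filter (Ysplit a b c e)).card : ℝ) ≠ 0 := by
    exact_mod_cast (Finset.card_pos.2 ⟨H, mem_filter.2 ⟨hH, hY⟩⟩).ne'
  unfold phi sepMean
  rw [blk_eq hH, avg_eq f hH]
  rw [Finset.sum_congr rfl (fun K hK => gT_toT hab hG f (mem_filter.1 hK).1),
    Finset.sum_sub_distrib, Finset.sum_const, nsmul_eq_mul]
  field_simp

/-- The `𝔗` term on a block. -/
theorem sum_phi (hab : a ≠ b) (hG : G ∈ realizations d) (f : Finset (Edge n) → ℝ) {c e : Fin n}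
    (hca : c ≠ a) (hcb : c ≠ b) (hea : e ≠ a) (heb : e ≠ b) (hce : c ≠ e) :
    ∑ H ∈ blk d a b G, (if Ysplit a b c e H then (phi d a b c e f H) ^ 2 else 0)
      = if c ∈ wW a b G ∧ e ∈ wW a b G then
          (∑ T ∈ sepFam (wW a b G) (jj a b G) c e, gT d a b G f T) ^ 2
            / ((sepFam (wW a b G) (jj a b G) c e).card : ℝ)
        else 0 := by
  by_cases hc : c ∈ wW a b G ∧ e ∈ wW a b G
  · rw [if_pos hc, ← Finset.sum_filter]
    have h1 := sum_Y (d := d) hab hG hca hcb hea heb hce hc.1 hc.2 (gT d a b G f)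
    have h2 := sum_Y (d := d) hab hG hca hcb hea heb hce hc.1 hc.2 (fun _ => 1)
    simp only [Finset.sum_const, nsmul_eq_mul, mul_one] at h2
    rw [← h1, ← h2]
    rw [Finset.sum_congr rfl (fun K hK => by
      rw [phi_eq hab hG f (mem_filter.1 hK).1 (mem_filter.1 hK).2]), Finset.sum_const, nsmul_eq_mul]
    by_cases h0 : (((blk d a b G).filter (Ysplit a b c e)).card : ℝ) = 0
    · simp [h0]
    · field_simp
  · rw [if_neg hc]
    refine Finset.sum_eq_zero fun H hH => ?_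
    rw [if_neg (Y_empty hab hG hca hcb hea heb hce hc hH)]

/-- Sum over pairs. -/
theorem sum_pairs {W : Finset (Fin n)} (ha : a ∉ W) (hb : b ∉ W) (X : Fin n × Fin n → ℝ) :
    ∑ p ∈ pairs a b, (if p.1 ∈ W ∧ p.2 ∈ W then X p else 0)
      = ∑ c ∈ W, ∑ e ∈ W.erase c, X (c, e) := by
  rw [← Finset.sum_filter]
  refine Finset.sum_finset_product _ _ _ ?_
  rintro ⟨c, e⟩
  simp only [pairs, mem_filter, mem_univ, true_and, mem_erase, ne_eq]
  constructor
  · rintro ⟨⟨-, -, -, -, h5⟩, h6, h7⟩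
    exact ⟨h6, fun h => h5 h.symm, h7⟩
  · rintro ⟨h1, h2, h3⟩
    refine ⟨⟨?_, ?_, ?_, ?_, fun h => h2 h.symm⟩, h1, h3⟩
    · rintro rfl; exact ha h1
    · rintro rfl; exact hb h1
    · rintro rfl; exact ha h3
    · rintro rfl; exact hb h3

theorem a_notMem (G : Finset (Edge n)) : a ∉ wW a b G := fun h => (mem_wW.1 h).1 rfl
theorem b_notMem (G : Finset (Edge n)) : b ∉ wW a b G := fun h => (mem_wW.1 h).2.1 rfl

theorem pair_ne {p : Fin n × Fin n} (hp : p ∈ pairs a b) :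
    p.1 ≠ a ∧ p.1 ≠ b ∧ p.2 ≠ a ∧ p.2 ≠ b ∧ p.1 ≠ p.2 := by
  simpa [pairs] using hp

theorem block_fl (hab : a ≠ b) (hG : G ∈ realizations d) (f : Finset (Edge n) → ℝ) :
    ∑ p ∈ pairs a b, ∑ H ∈ blk d a b G,
        (if Ysplit a b p.1 p.2 H then (f H - f (flipG a b p.1 p.2 H)) ^ 2 else 0)
      = EE (wW a b G) (jj a b G) (gT d a b G f) := by
  rw [Finset.sum_congr rfl (fun p hp => by
    obtain ⟨h1, h2, h3, h4, h5⟩ := pair_ne hp
    exact sum_flip hab hG f h1 h2 h3 h4 h5)]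
  exact sum_pairs (a_notMem G) (b_notMem G)
    (fun p => ∑ T ∈ sepFam (wW a b G) (jj a b G) p.1 p.2,
      (gT d a b G f T - gT d a b G f (swapSet p.1 p.2 T)) ^ 2)

theorem block_tt (hab : a ≠ b) (hG : G ∈ realizations d) (f : Finset (Edge n) → ℝ) :
    ∑ p ∈ pairs a b, ∑ H ∈ blk d a b G,
        (if Ysplit a b p.1 p.2 H then (phi d a b p.1 p.2 f H) ^ 2 else 0)
      = TTT (wW a b G) (jj a b G) (gT d a b G f) := by
  rw [Finset.sum_congr rfl (fun p hp => by
    obtain ⟨h1, h2, h3, h4, h5⟩ := pair_ne hp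
    exact sum_phi hab hG f h1 h2 h3 h4 h5)]
  exact sum_pairs (a_notMem G) (b_notMem G)
    (fun p => (∑ T ∈ sepFam (wW a b G) (jj a b G) p.1 p.2, gT d a b G f T) ^ 2
            / ((sepFam (wW a b G) (jj a b G) p.1 p.2).card : ℝ))

/-- Nonnegativity block by block. -/
theorem nonneg_of_blocks (a b : Fin n) (F : Finset (Edge n) → ℝ)
    (h : ∀ G ∈ realizations d, 0 ≤ ∑ H ∈ blk d a b G, F H) : 0 ≤ ∑ G ∈ realizations d, F G := by
  rw [sum_eq_sum_gavg (Ω := realizations d) (same_refl' a b) (same_symm' a b) (same_trans' a b) F]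
  refine Finset.sum_nonneg fun G hG => ?_
  exact div_nonneg (h G hG) (Nat.cast_nonneg _)

theorem Fl_eq (d : Fin n → ℕ) (a b c e : Fin n) (f : Finset (Edge n) → ℝ) :
    Fl d a b c e f = (1 / 2) * ∑ G ∈ realizations d,
      (if Ysplit a b c e G then (f G - f (flipG a b c e G)) ^ 2 else 0) := by
  unfold Fl
  rw [Finset.sum_filter]

theorem Tt_eq (d : Fin n → ℕ) (a b c e : Fin n) (f : Finset (Edge n) → ℝ) :
    Tt d a b c e f = ∑ G ∈ realizations d,
      (if Ysplit a b c e G then (phi d a b c e f G) ^ 2 else 0) := by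
  unfold Tt
  rw [Finset.sum_filter]

end JohnsonG

open JohnsonG in
theorem johnson_main_T (d : Fin n → ℕ) {a b : Fin n} (hab : a ≠ b) (f : Finset (Edge n) → ℝ) :
    0 ≤ ∑ p ∈ pairs a b, (Fl d a b p.1 p.2 f - 2 * Tt d a b p.1 p.2 f) := by
  have h0 : ∑ p ∈ pairs a b, (Fl d a b p.1 p.2 f - 2 * Tt d a b p.1 p.2 f)
      = ∑ G ∈ realizations d, ((1 / 2) * ∑ p ∈ pairs a b,
          (if Ysplit a b p.1 p.2 G then (f G - f (flipG a b p.1 p.2 G)) ^ 2 else 0)
        - 2 * ∑ p ∈ pairs a b, (if Ysplit a b p.1 p.2 G then (phi d a b p.1 p.2 f G) ^ 2 else 0)) := by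
    have e1 : ∑ p ∈ pairs a b, Fl d a b p.1 p.2 f = (1 / 2) * ∑ G ∈ realizations d, ∑ p ∈ pairs a b,
        (if Ysplit a b p.1 p.2 G then (f G - f (flipG a b p.1 p.2 G)) ^ 2 else 0) := by
      simp only [Fl_eq]
      rw [← Finset.mul_sum, Finset.sum_comm]
    have e2 : ∑ p ∈ pairs a b, Tt d a b p.1 p.2 f = ∑ G ∈ realizations d, ∑ p ∈ pairs a b,
        (if Ysplit a b p.1 p.2 G then (phi d a b p.1 p.2 f G) ^ 2 else 0) := by
      simp only [Tt_eq]
      rw [Finset.sum_comm]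
    rw [Finset.sum_sub_distrib, ← Finset.mul_sum, e1, e2, Finset.sum_sub_distrib, ← Finset.mul_sum,
      ← Finset.mul_sum]
  rw [h0]
  refine nonneg_of_blocks a b _ fun G hG => ?_
  have h1 := block_fl hab hG f
  have h2 := block_tt hab hG f
  rw [Finset.sum_sub_distrib, ← Finset.mul_sum, ← Finset.mul_sum, Finset.sum_comm, h1,
    Finset.sum_comm, h2]
  have h3 := johnson_F2 (wW a b G) (jj a b G) (gT d a b G f) (sum_gT hab hG f)
  linarith

open JohnsonG in
theorem johnson_main_Q (d : Fin n → ℕ) {a b : Fin n} (hab : a ≠ b) (f : Finset (Edge n) → ℝ) :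
    4 * ∑ G ∈ realizations d, (Q d a b f G) ^ 2 ≤ ∑ p ∈ pairs a b, Fl d a b p.1 p.2 f := by
  have h0 : ∑ p ∈ pairs a b, Fl d a b p.1 p.2 f - 4 * ∑ G ∈ realizations d, (Q d a b f G) ^ 2
      = ∑ G ∈ realizations d, ((1 / 2) * ∑ p ∈ pairs a b,
          (if Ysplit a b p.1 p.2 G then (f G - f (flipG a b p.1 p.2 G)) ^ 2 else 0)
        - 4 * (Q d a b f G) ^ 2) := by
    have e1 : ∑ p ∈ pairs a b, Fl d a b p.1 p.2 f = (1 / 2) * ∑ G ∈ realizations d, ∑ p ∈ pairs a b,
        (if Ysplit a b p.1 p.2 G then (f G - f (flipG a b p.1 p.2 G)) ^ 2 else 0) := by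
      simp only [Fl_eq]
      rw [← Finset.mul_sum, Finset.sum_comm]
    rw [e1, Finset.sum_sub_distrib, ← Finset.mul_sum, ← Finset.mul_sum]
  have h1 : 0 ≤ ∑ p ∈ pairs a b, Fl d a b p.1 p.2 f - 4 * ∑ G ∈ realizations d, (Q d a b f G) ^ 2 := by
    rw [h0]
    refine nonneg_of_blocks a b _ fun G hG => ?_
    have h1 := block_fl hab hG f
    rw [Finset.sum_sub_distrib, ← Finset.mul_sum, ← Finset.mul_sum, Finset.sum_comm, h1,
      sum_Q_sq_block hab hG f]
    have h3 := JohnsonUD.johnson_F1_sharp (wW a b G) (jj a b G) (gT d a b G f) (sum_gT hab hG f)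
    have h4 := johnson_F1 (wW a b G) (jj a b G) (gT d a b G f) (sum_gT hab hG f)
    linarith
  linarith

end Crest.Agent.Switch
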