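/-
S0453 component C9a: elementary facts on the switch chain: symmetry, stochasticity, closure.
-/
import Crest.Agent.Lib.Switch.Basic

set_option autoImplicit false
set_option linter.unusedSimpArgs false

namespace Crest.Agent.Switch

open Finset Crest.SwitchChain
open scoped Classical

variable {n : ℕ}

/-! ### Symmetry -/

theorem switchResult_rev {E E' F F' : Finset (Edge n)} (hne : E ≠ E')
    (h : switchResult E F F' = E') : switchResult E' F' F = E := by
  unfold switchResult at h ⊢
  split_ifs at h with hf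
  · obtain ⟨h1, h2⟩ := hf
    subst h
    have hd : Disjoint F F' := disjoint_of_subset_left h1 (Disjoint.symm h2)
    have h3 : F' ⊆ E \ F ∪ F' := subset_union_right
    have h4 : Disjoint F (E \ F ∪ F') := by
      rw [disjoint_union_right]
      exact ⟨disjoint_sdiff, hd⟩
    rw [if_pos ⟨h3, h4⟩]
    ext x
    simp only [mem_union, mem_sdiff]
    have hx1 : x ∈ F → x ∈ E := fun h => h1 h
    have hx2 : x ∈ F' → x ∉ E := fun h => disjoint_left.1 h2 h
    tauto
  · exact absurd h hne

theorem proposalCount_comm (E E' : Finset (Edge n)) : proposalCount E E' = proposalCount E' E := by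
  by_cases h : E = E'
  · rw [h]
  unfold proposalCount
  refine sum_congr rfl fun S _ => ?_
  rw [Finset.sum_comm' (s' := fun y => (pmSet S).erase y) (t' := pmSet S)
    (by intro x y; simp only [mem_erase]; constructor
        · rintro ⟨h1, h2, h3⟩; exact ⟨⟨fun h' => h2 h'.symm, h1⟩, h3⟩
        · rintro ⟨⟨h2, h1⟩, h3⟩; exact ⟨h1, fun h' => h2 h'.symm, h3⟩)]
  refine sum_congr rfl fun F' _ => sum_congr rfl fun F _ => ?_
  have h1 : switchResult E F F' = E' ↔ switchResult E' F' F = E :=
    ⟨switchResult_rev h, switchResult_rev (Ne.symm h)⟩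
  simp only [h1]

theorem kernel_symm (E E' : Finset (Edge n)) : kernel n E E' = kernel n E' E := by
  unfold kernel
  rw [proposalCount_comm E E']
  by_cases h : E = E'
  · rw [h]
  · rw [if_neg h, if_neg (Ne.symm h)]

/-! ### Perfect matchings on a four-set -/

/-- The matching `{pq, rt}`. -/
noncomputable def mtch (p q r t : Fin n) (hpq : p ≠ q) (hrt : r ≠ t) : Finset (Edge n) :=
  {mkE p q hpq, mkE r t hrt}

theorem mkE_mem {p q v : Fin n} {h : p ≠ q} : v ∈ (mkE p q h).1 ↔ v = p ∨ v = q := by
  simp [mkE]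

theorem mtch_mem_pmSet {S : Finset (Fin n)} {p q r t : Fin n} (hS : S = {p, q, r, t})
    (hpq : p ≠ q) (hpr : p ≠ r) (hpt : p ≠ t) (hqr : q ≠ r) (hqt : q ≠ t) (hrt : r ≠ t) :
    mtch p q r t hpq hrt ∈ pmSet S := by
  have hne : mkE p q hpq ≠ mkE r t hrt := by
    intro h
    have : p ∈ (mkE r t hrt).1 := h ▸ (mkE_mem.2 (Or.inl rfl))
    rw [mkE_mem] at this
    rcases this with h' | h'
    · exact hpr h'
    · exact hpt h'
  unfold pmSet mtch
  simp only [mem_filter, mem_powersetCard, subset_univ, true_and]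
  refine ⟨card_pair hne, ?_, ?_⟩
  · intro e he v hv
    rw [hS]
    simp only [mem_insert, mem_singleton] at he ⊢
    rcases he with rfl | rfl
    · rw [mkE_mem] at hv; tauto
    · rw [mkE_mem] at hv; tauto
  · intro v hv
    rw [hS] at hv
    simp only [mem_insert, mem_singleton] at hv
    rw [filter_insert, filter_singleton]
    have h1 : v ∈ (mkE p q hpq).1 ↔ v = p ∨ v = q := mkE_mem
    have h2 : v ∈ (mkE r t hrt).1 ↔ v = r ∨ v = t := mkE_mem
    rcases hv with rfl | rfl | rfl | rfl
    · simp [h1, h2, hpr, hpt]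
    · simp [h1, h2, hqr, hqt]
    · simp [h1, h2, Ne.symm hpr, Ne.symm hqr]
    · simp [h1, h2, Ne.symm hpt, Ne.symm hqt]

/-- A perfect matching containing `pq` is `{pq, rt}`. -/
theorem pm_eq_of_mem {S : Finset (Fin n)} {p q r t : Fin n} (hS : S = {p, q, r, t})
    (hpq : p ≠ q) (hpr : p ≠ r) (hpt : p ≠ t) (hqr : q ≠ r) (hqt : q ≠ t) (hrt : r ≠ t)
    {F : Finset (Edge n)} (hF : F ∈ pmSet S) (hm : mkE p q hpq ∈ F) : F = mtch p q r t hpq hrt := by
  unfold pmSet at hF
  simp only [mem_filter, mem_powersetCard, subset_univ, true_and] at hF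
  obtain ⟨hc, -, hcov⟩ := hF
  have hr : r ∈ S := by rw [hS]; simp
  have ht : t ∈ S := by rw [hS]; simp
  have hexr : ∃ g ∈ F, r ∈ g.1 := by
    have := hcov r hr
    have h1 : (F.filter fun e => r ∈ e.1).Nonempty := card_pos.1 (by omega)
    obtain ⟨g, hg⟩ := h1
    exact ⟨g, (mem_filter.1 hg).1, (mem_filter.1 hg).2⟩
  have hext : ∃ g ∈ F, t ∈ g.1 := by
    have := hcov t ht
    have h1 : (F.filter fun e => t ∈ e.1).Nonempty := card_pos.1 (by omega)
    obtain ⟨g, hg⟩ := h1
    exact ⟨g, (mem_filter.1 hg).1, (mem_filter.1 hg).2⟩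
  obtain ⟨g, hg, hgr⟩ := hexr
  obtain ⟨g', hg', hgt⟩ := hext
  have hg0 : g ≠ mkE p q hpq := by
    rintro rfl
    rw [mkE_mem] at hgr
    rcases hgr with h | h
    · exact hpr h.symm
    · exact hqr h.symm
  have hg0' : g' ≠ mkE p q hpq := by
    rintro rfl
    rw [mkE_mem] at hgt
    rcases hgt with h | h
    · exact hpt h.symm
    · exact hqt h.symm
  obtain ⟨x, y, hxy, hFeq⟩ := card_eq_two.1 hc
  have hgg' : g = g' := by
    rw [hFeq] at hg hg' hm
    simp only [mem_insert, mem_singleton] at hg hg' hm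
    rcases hm with rfl | rfl <;> rcases hg with rfl | rfl <;> rcases hg' with rfl | rfl <;>
      first | rfl | exact absurd rfl hg0 | exact absurd rfl hg0'
  subst hgg'
  have hgeq : g = mkE r t hrt := by
    apply Subtype.ext
    exact (Sym2.mem_and_mem_iff hrt).1 ⟨hgr, hgt⟩
  have hsub : mtch p q r t hpq hrt ⊆ F := by
    intro z hz
    simp only [mtch, mem_insert, mem_singleton] at hz
    rcases hz with rfl | rfl
    · exact hm
    · exact hgeq ▸ hg
  have hcard : (mtch p q r t hpq hrt).card = 2 := by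
    have hne : mkE p q hpq ≠ mkE r t hrt := hgeq ▸ Ne.symm hg0
    exact card_pair hne
  exact (eq_of_subset_of_card_le hsub (by omega)).symm

theorem card_pmSet {S : Finset (Fin n)} (hS : S.card = 4) : (pmSet S).card = 3 := by
  obtain ⟨a, T, haT, rfl, hT⟩ := card_eq_succ.1 hS
  obtain ⟨b, c, e, hbc, hbe, hce, rfl⟩ := card_eq_three.1 hT
  simp only [mem_insert, mem_singleton, not_or] at haT
  obtain ⟨hab, hac, hae⟩ := haT
  have hS1 : (insert a {b, c, e} : Finset (Fin n)) = {a, b, c, e} := rfl
  have hS2 : (insert a {b, c, e} : Finset (Fin n)) = {a, c, b, e} := by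
    ext x; simp only [mem_insert, mem_singleton]; tauto
  have hS3 : (insert a {b, c, e} : Finset (Fin n)) = {a, e, b, c} := by
    ext x; simp only [mem_insert, mem_singleton]; tauto
  have hm1 := mtch_mem_pmSet hS1 hab hac hae hbc hbe hce
  have hm2 := mtch_mem_pmSet hS2 hac hab hae (Ne.symm hbc) hce hbe
  have hm3 := mtch_mem_pmSet hS3 hae hab hac (Ne.symm hbe) (Ne.symm hce) hbc
  have hall : pmSet (insert a {b, c, e}) =
      {mtch a b c e hab hce, mtch a c b e hac hbe, mtch a e b c hae hbc} := by
    apply Subset.antisymm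
    · intro F hF
      have hF' := hF
      unfold pmSet at hF'
      simp only [mem_filter, mem_powersetCard, subset_univ, true_and] at hF'
      obtain ⟨-, hin, hcov⟩ := hF'
      have ha : a ∈ (insert a {b, c, e} : Finset (Fin n)) := mem_insert_self _ _
      have h1 : (F.filter fun z => a ∈ z.1).Nonempty := card_pos.1 (by have := hcov a ha; omega)
      obtain ⟨g, hg⟩ := h1
      obtain ⟨hgF, hag⟩ := mem_filter.1 hg
      obtain ⟨x, hx⟩ : ∃ x, g.1 = s(a, x) := by
        obtain ⟨x, hx⟩ := Sym2.mem_iff_exists.1 hag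
        exact ⟨x, hx⟩
      have hxS : x ∈ (insert a {b, c, e} : Finset (Fin n)) := hin g hgF x (by rw [hx]; simp)
      have hax : a ≠ x := by
        rintro rfl
        apply g.2
        rw [hx]; simp
      have hgE : ∀ (h : a ≠ x), g = mkE a x h := fun h => Subtype.ext hx
      simp only [mem_insert, mem_singleton] at hxS
      simp only [mem_insert, mem_singleton]
      rcases hxS with rfl | rfl | rfl | rfl
      · exact absurd rfl hax
      · left
        exact pm_eq_of_mem hS1 hab hac hae hbc hbe hce hF (hgE hab ▸ hgF)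
      · right; left
        exact pm_eq_of_mem hS2 hac hab hae (Ne.symm hbc) hce hbe hF (hgE hac ▸ hgF)
      · right; right
        exact pm_eq_of_mem hS3 hae hab hac (Ne.symm hbe) (Ne.symm hce) hbc hF (hgE hae ▸ hgF)
    · intro F hF
      simp only [mem_insert, mem_singleton] at hF
      rcases hF with rfl | rfl | rfl
      · exact hm1
      · exact hm2
      · exact hm3
  rw [hall]
  have hne : ∀ {p q r t u v w z : Fin n} {h1 : p ≠ q} {h2 : r ≠ t} {h3 : u ≠ v} {h4 : w ≠ z},
      mkE p q h1 ∉ ({mkE u v h3, mkE w z h4} : Finset (Edge n)) →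
      mtch p q r t h1 h2 ≠ mtch u v w z h3 h4 := by
    intro p q r t u v w z h1 h2 h3 h4 h hh
    apply h
    have h5 : mkE p q h1 ∈ mtch p q r t h1 h2 := by simp [mtch]
    rw [hh] at h5
    exact h5
  have hne' : ∀ {p q u v : Fin n} {h1 : p ≠ q} {h3 : u ≠ v},
      mkE p q h1 = mkE u v h3 → s(p, q) = s(u, v) := fun h => congrArg Subtype.val h
  rw [card_insert_of_notMem, card_insert_of_notMem, card_singleton]
  · simp only [mem_singleton]
    apply hne
    simp only [mem_insert, mem_singleton, not_or]
    constructor <;> intro h <;> have := hne' h <;> simp [Sym2.eq_iff, *, Ne.symm hab, Ne.symm hac, Ne.symm hae, Ne.symm hbc, Ne.symm hbe, Ne.symm hce] at this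
  · simp only [mem_insert, mem_singleton, not_or]
    constructor
    · apply hne
      simp only [mem_insert, mem_singleton, not_or]
      constructor <;> intro h <;> have := hne' h <;> simp [Sym2.eq_iff, *, Ne.symm hab, Ne.symm hac, Ne.symm hae, Ne.symm hbc, Ne.symm hbe, Ne.symm hce] at this
    · apply hne
      simp only [mem_insert, mem_singleton, not_or]
      constructor <;> intro h <;> have := hne' h <;> simp [Sym2.eq_iff, *, Ne.symm hab, Ne.symm hac, Ne.symm hae, Ne.symm hbc, Ne.symm hbe, Ne.symm hce] at this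

/-! ### Row sums -/

theorem sum_proposalCount (E : Finset (Edge n)) :
    ∑ E', proposalCount E E' = 6 * n.choose 4 := by
  unfold proposalCount
  simp only [Finset.sum_comm (s := (univ : Finset (Finset (Edge n)))) (t := (univ : Finset (Fin n)).powersetCard 4)]
  have h1 : ∀ S ∈ (univ : Finset (Fin n)).powersetCard 4,
      ∑ E' : Finset (Edge n), ∑ F ∈ pmSet S, ∑ F' ∈ (pmSet S).erase F,
        (if switchResult E F F' = E' then 1 else 0) = 6 := by
    intro S hS
    have hc : S.card = 4 := (mem_powersetCard.1 hS).2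
    rw [Finset.sum_comm]
    have h2 : ∀ F ∈ pmSet S, ∑ E' : Finset (Edge n), ∑ F' ∈ (pmSet S).erase F,
        (if switchResult E F F' = E' then 1 else 0) = 2 := by
      intro F hF
      rw [Finset.sum_comm]
      have h3 : ∀ F' ∈ (pmSet S).erase F, ∑ E' : Finset (Edge n),
          (if switchResult E F F' = E' then 1 else 0) = 1 := by
        intro F' _
        simp
      rw [Finset.sum_congr rfl h3, Finset.sum_const, card_erase_of_mem hF, card_pmSet hc]
      rfl
    rw [Finset.sum_congr rfl h2, Finset.sum_const, card_pmSet hc]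
    rfl
  rw [Finset.sum_congr rfl h1, Finset.sum_const, card_powersetCard]
  simp [mul_comm]

theorem choose_four_pos (hn : 4 ≤ n) : (0 : ℝ) < (n.choose 4 : ℝ) := by
  exact_mod_cast Nat.choose_pos hn

theorem kernel_nonneg (hn : 4 ≤ n) (E E' : Finset (Edge n)) : 0 ≤ kernel n E E' := by
  unfold kernel
  have := choose_four_pos hn
  split_ifs <;> positivity

theorem kernel_sum (hn : 4 ≤ n) (E : Finset (Edge n)) : ∑ E', kernel n E E' = 1 := by
  unfold kernel
  rw [Finset.sum_add_distrib, Finset.sum_ite_eq, ← Finset.sum_div, ← Nat.cast_sum,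
    sum_proposalCount]
  have := choose_four_pos hn
  simp only [mem_univ, if_true]
  push_cast
  field_simp
  norm_num

/-- The off-holding part of the kernel. -/
theorem kernel_ge (hn : 4 ≤ n) (E E' : Finset (Edge n)) :
    (if E = E' then 1 / 2 else 0) ≤ kernel n E E' := by
  unfold kernel
  have := choose_four_pos hn
  have h2 : (0 : ℝ) ≤ (proposalCount E E' : ℝ) / (12 * (n.choose 4 : ℝ)) := by positivity
  linarith

/-! ### Closure -/

theorem deg_switch {S : Finset (Fin n)} {E F F' : Finset (Edge n)} (hF : F ∈ pmSet S)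
    (hF' : F' ∈ pmSet S) (h1 : F ⊆ E) (h2 : Disjoint F' E) (v : Fin n) :
    deg (E \ F ∪ F') v = deg E v := by
  unfold deg
  have hd : Disjoint (E \ F) F' := (disjoint_of_subset_left sdiff_subset h2.symm)
  rw [filter_union, card_union_of_disjoint (disjoint_filter_filter hd)]
  have hsd : (E \ F).filter (fun e => v ∈ e.1) = (E.filter fun e => v ∈ e.1) \ (F.filter fun e => v ∈ e.1) := by
    ext x; simp only [mem_filter, mem_sdiff]; tauto
  have hsub : (F.filter fun e => v ∈ e.1) ⊆ (E.filter fun e => v ∈ e.1) := filter_subset_filter _ h1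
  rw [hsd, card_sdiff_of_subset hsub]
  have hle := card_le_card hsub
  unfold pmSet at hF hF'
  simp only [mem_filter, mem_powersetCard, subset_univ, true_and] at hF hF'
  by_cases hv : v ∈ S
  · rw [hF.2.2 v hv, hF'.2.2 v hv] at *
    omega
  · have h0 : (F.filter fun e => v ∈ e.1) = ∅ :=
      filter_eq_empty_iff.2 (fun e he hm => hv (hF.2.1 e he v hm))
    have h0' : (F'.filter fun e => v ∈ e.1) = ∅ :=
      filter_eq_empty_iff.2 (fun e he hm => hv (hF'.2.1 e he v hm))
    rw [h0, h0']
    simp

theorem mem_realizations_of_proposalCount {d : Fin n → ℕ} {E E' : Finset (Edge n)}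
    (h : proposalCount E E' ≠ 0) (hE : E ∈ realizations d) : E' ∈ realizations d := by
  unfold proposalCount at h
  obtain ⟨S, -, hS⟩ := exists_ne_zero_of_sum_ne_zero h
  obtain ⟨F, hF, hS⟩ := exists_ne_zero_of_sum_ne_zero hS
  obtain ⟨F', hF', hS⟩ := exists_ne_zero_of_sum_ne_zero hS
  have hres : switchResult E F F' = E' := by
    by_contra hcon
    exact hS (if_neg hcon)
  have hF'' := (mem_erase.1 hF').2
  rw [← hres]
  unfold switchResult
  split_ifs with hf
  · rw [mem_realizations] at hE ⊢
    intro v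
    rw [deg_switch hF hF'' hf.1 hf.2, hE v]
  · exact hE

theorem kernel_eq_zero_of_notMem {d : Fin n → ℕ} {E E' : Finset (Edge n)} (hE : E ∈ realizations d)
    (hE' : E' ∉ realizations d) : kernel n E E' = 0 := by
  unfold kernel
  have hne : E ≠ E' := fun h => hE' (h ▸ hE)
  rw [if_neg hne]
  have : proposalCount E E' = 0 := by
    by_contra hcon
    exact hE' (mem_realizations_of_proposalCount hcon hE)
  simp [this]

end Crest.Agent.Switch
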