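/-
S0453 C9: kernel comparison.
-/
import Crest.Agent.Lib.Switch.Chain

set_option autoImplicit false
set_option linter.unusedSimpArgs false
set_option linter.unusedVariables false

namespace Crest.Agent.Switch

open Finset Crest.SwitchChain
open scoped Classical

variable {n : ℕ}

/-- Ordered distinct 4-tuples. -/
noncomputable def quads (n : ℕ) : Finset (Fin n × Fin n × Fin n × Fin n) :=
  univ.filter fun t => t.1 ≠ t.2.1 ∧ t.1 ≠ t.2.2.1 ∧ t.1 ≠ t.2.2.2 ∧ t.2.1 ≠ t.2.2.1 ∧
    t.2.1 ≠ t.2.2.2 ∧ t.2.2.1 ≠ t.2.2.2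

namespace KernelAux

/-- The edge set `{pq, rt}`, without side conditions. -/
noncomputable def mm (p q r t : Fin n) : Finset (Edge n) :=
  univ.filter fun ε => ε.1 = s(p, q) ∨ ε.1 = s(r, t)

theorem mem_mm {p q r t : Fin n} {ε : Edge n} : ε ∈ mm p q r t ↔ ε.1 = s(p, q) ∨ ε.1 = s(r, t) := by
  simp [mm]

theorem mm_eq_mtch {p q r t : Fin n} (hpq : p ≠ q) (hrt : r ≠ t) :
    mm p q r t = mtch p q r t hpq hrt := by
  ext ε
  simp [mem_mm, mtch, mkE, Subtype.ext_iff]

theorem mm_left {a c b e c' b' e' : Fin n} (h : mm a c b e = mm a c' b' e') (hac : a ≠ c)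
    (hab' : a ≠ b') (hae' : a ≠ e') : c = c' := by
  have h1 : mkE a c hac ∈ mm a c b e := mem_mm.2 (Or.inl rfl)
  rw [h, mem_mm] at h1
  rcases h1 with h1 | h1
  · have h2 : s(a, c) = s(a, c') := h1
    exact Sym2.congr_right.1 h2
  · have h2 : s(a, c) = s(b', e') := h1
    rw [Sym2.eq_iff] at h2
    rcases h2 with ⟨h3, _⟩ | ⟨h3, _⟩
    · exact absurd h3 hab'
    · exact absurd h3 hae'

theorem mm_right {a c b e b' : Fin n} (h : mm a c b e = mm a c b' e) (hab : a ≠ b) (hae : a ≠ e) (hbe : b ≠ e) :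
    b = b' := by
  have h1 : mkE b e hbe ∈ mm a c b e := mem_mm.2 (Or.inr rfl)
  rw [h, mem_mm] at h1
  rcases h1 with h1 | h1
  · have h2 : s(b, e) = s(a, c) := h1
    rw [Sym2.eq_iff] at h2
    rcases h2 with ⟨h3, _⟩ | ⟨_, h3⟩
    · exact absurd h3.symm hab
    · exact absurd h3.symm hae
  · have h2 : s(b, e) = s(b', e) := h1
    exact Sym2.congr_left.1 h2

theorem mm_ne {a b c e : Fin n} (hac : a ≠ c) (hab : a ≠ b) (hce : c ≠ e) :
    mm a c b e ≠ mm a e b c := by
  intro h
  exact hce (mm_left h hac hab hac)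

/-- The vertex set of a quad. -/
def vs (q : Fin n × Fin n × Fin n × Fin n) : Finset (Fin n) := {q.1, q.2.2.1, q.2.1, q.2.2.2}

/-- The two matchings of the 4-cycle of a quad. -/
noncomputable def F1 (q : Fin n × Fin n × Fin n × Fin n) : Finset (Edge n) := mm q.1 q.2.2.1 q.2.1 q.2.2.2
noncomputable def F2 (q : Fin n × Fin n × Fin n × Fin n) : Finset (Edge n) := mm q.1 q.2.2.2 q.2.1 q.2.2.1

theorem vs_card {q : Fin n × Fin n × Fin n × Fin n} (hq : q ∈ quads n) : (vs q).card = 4 := by
  obtain ⟨a, b, c, e⟩ := q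
  simp only [quads, mem_filter, mem_univ, true_and] at hq
  obtain ⟨hab, hac, hae, hbc, hbe, hce⟩ := hq
  unfold vs
  rw [card_insert_of_notMem, card_insert_of_notMem, card_pair hbe]
  · simp [Ne.symm hbc, hce]
  · simp [hac, hab, hae]

theorem F1_mem {q : Fin n × Fin n × Fin n × Fin n} (hq : q ∈ quads n) : F1 q ∈ pmSet (vs q) := by
  obtain ⟨a, b, c, e⟩ := q
  simp only [quads, mem_filter, mem_univ, true_and] at hq
  obtain ⟨hab, hac, hae, hbc, hbe, hce⟩ := hq
  show mm a c b e ∈ pmSet (vs (a, b, c, e))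
  rw [mm_eq_mtch hac hbe]
  exact mtch_mem_pmSet rfl hac hab hae (Ne.symm hbc) hce hbe

theorem F2_mem {q : Fin n × Fin n × Fin n × Fin n} (hq : q ∈ quads n) : F2 q ∈ pmSet (vs q) := by
  obtain ⟨a, b, c, e⟩ := q
  simp only [quads, mem_filter, mem_univ, true_and] at hq
  obtain ⟨hab, hac, hae, hbc, hbe, hce⟩ := hq
  show mm a e b c ∈ pmSet (vs (a, b, c, e))
  rw [mm_eq_mtch hae hbc]
  have hS : vs (a, b, c, e) = {a, e, b, c} := by
    ext x
    simp only [vs, mem_insert, mem_singleton]
    tauto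
  exact mtch_mem_pmSet hS hae hab hac (Ne.symm hbe) (Ne.symm hce) hbc

theorem F_ne {q : Fin n × Fin n × Fin n × Fin n} (hq : q ∈ quads n) : F2 q ≠ F1 q := by
  obtain ⟨a, b, c, e⟩ := q
  simp only [quads, mem_filter, mem_univ, true_and] at hq
  obtain ⟨hab, hac, hae, hbc, hbe, hce⟩ := hq
  exact Ne.symm (mm_ne hac hab hce)

/-- The index of proposals. -/
abbrev PropT (n : ℕ) := Σ _ : Finset (Fin n), Σ _ : Finset (Edge n), Finset (Edge n)

noncomputable def props (n : ℕ) : Finset (PropT n) :=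
  ((univ : Finset (Fin n)).powersetCard 4).sigma fun S => (pmSet S).sigma fun F => (pmSet S).erase F

theorem sum_props (W : Finset (Edge n) → Finset (Edge n) → ℝ) :
    ∑ x ∈ props n, W x.2.1 x.2.2
      = ∑ S ∈ (univ : Finset (Fin n)).powersetCard 4, ∑ F ∈ pmSet S, ∑ F' ∈ (pmSet S).erase F, W F F' := by
  unfold props
  rw [Finset.sum_sigma]
  refine sum_congr rfl fun S _ => ?_
  rw [Finset.sum_sigma]

/-- The map from quads to proposals. -/
noncomputable def θ (q : Fin n × Fin n × Fin n × Fin n) : PropT n := ⟨vs q, F1 q, F2 q⟩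

theorem θ_mem {q : Fin n × Fin n × Fin n × Fin n} (hq : q ∈ quads n) : θ q ∈ props n := by
  simp only [props, θ, mem_sigma, mem_powersetCard, subset_univ, true_and, mem_erase]
  exact ⟨vs_card hq, F1_mem hq, F_ne hq, F2_mem hq⟩

theorem fiber_card (x : PropT n) (hx : x ∈ props n) :
    ((quads n).filter fun q => θ q = x).card ≤ 4 := by
  have hc : x.1.card = 4 := by
    simp only [props, mem_sigma, mem_powersetCard, subset_univ, true_and] at hx
    exact hx.1
  rw [← hc]
  refine Finset.card_le_card_of_injOn (fun q => q.1) ?_ ?_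
  · intro q hq
    have hq' := (mem_filter.1 (mem_coe.1 hq))
    have : vs q = x.1 := by rw [← hq'.2]; rfl
    simp only [mem_coe]
    rw [← this]
    simp [vs]
  · rintro ⟨a, b, c, e⟩ hq ⟨a', b', c', e'⟩ hq' (hh : a = a')
    subst hh
    have h1 := mem_filter.1 (mem_coe.1 hq)
    have h2 := mem_filter.1 (mem_coe.1 hq')
    have h3 : θ (a, b, c, e) = θ (a, b', c', e') := h1.2.trans h2.2.symm
    simp only [θ, F1, F2, Sigma.mk.injEq, heq_eq_eq] at h3
    obtain ⟨-, h4, h5⟩ := h3
    have hq1 := h1.1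
    have hq2 := h2.1
    simp only [quads, mem_filter, mem_univ, true_and] at hq1 hq2
    obtain ⟨hab, hac, hae, hbc, hbe, hce⟩ := hq1
    obtain ⟨hab', hac', hae', hbc', hbe', hce'⟩ := hq2
    have hc' : c = c' := mm_left h4 hac hab' hae'
    have he' : e = e' := mm_left h5 hae hab' hac'
    subst hc' he'
    have hb' : b = b' := mm_right h4 hab hae hbe
    subst hb'
    rfl

/-- Quads cover proposals at most four times. -/
theorem sum_quads_le (W : Finset (Edge n) → Finset (Edge n) → ℝ) (hW : ∀ F F', 0 ≤ W F F') :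
    ∑ q ∈ quads n, W (F1 q) (F2 q)
      ≤ 4 * ∑ S ∈ (univ : Finset (Fin n)).powersetCard 4, ∑ F ∈ pmSet S, ∑ F' ∈ (pmSet S).erase F, W F F' := by
  rw [← sum_props, ← Finset.sum_fiberwise_of_maps_to (g := θ) (fun q hq => θ_mem hq), Finset.mul_sum]
  refine Finset.sum_le_sum fun x hx => ?_
  have h1 : ∑ q ∈ (quads n).filter (fun q => θ q = x), W (F1 q) (F2 q)
      = ∑ q ∈ (quads n).filter (fun q => θ q = x), W x.2.1 x.2.2 := by
    refine Finset.sum_congr rfl fun q hq => ?_
    rw [← (mem_filter.1 hq).2]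
    rfl
  rw [h1, Finset.sum_const, nsmul_eq_mul]
  have h2 : (((quads n).filter fun q => θ q = x).card : ℝ) ≤ 4 := by
    exact_mod_cast fiber_card x hx
  exact mul_le_mul_of_nonneg_right h2 (hW _ _)

/-- The involution of quads exchanging the matchings. -/
theorem sum_quads_swap (W : Finset (Edge n) → Finset (Edge n) → ℝ) :
    ∑ q ∈ quads n, W (F2 q) (F1 q) = ∑ q ∈ quads n, W (F1 q) (F2 q) := by
  refine Finset.sum_nbij' (fun q => (q.1, q.2.1, q.2.2.2, q.2.2.1)) (fun q => (q.1, q.2.1, q.2.2.2, q.2.2.1))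
    ?_ ?_ ?_ ?_ ?_
  · rintro ⟨a, b, c, e⟩ hq
    simp only [quads, mem_filter, mem_univ, true_and] at hq ⊢
    obtain ⟨hab, hac, hae, hbc, hbe, hce⟩ := hq
    exact ⟨hab, hae, hac, hbe, hbc, Ne.symm hce⟩
  · rintro ⟨a, b, c, e⟩ hq
    simp only [quads, mem_filter, mem_univ, true_and] at hq ⊢
    obtain ⟨hab, hac, hae, hbc, hbe, hce⟩ := hq
    exact ⟨hab, hae, hac, hbe, hbc, Ne.symm hce⟩
  · rintro ⟨a, b, c, e⟩ _; rfl
  · rintro ⟨a, b, c, e⟩ _; rfl
  · rintro ⟨a, b, c, e⟩ _; rfl

/-- A flip is a switch. -/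
theorem flip_eq_switch {G : Finset (Edge n)} {q : Fin n × Fin n × Fin n × Fin n} (hq : q ∈ quads n)
    (hY : Ysplit q.1 q.2.1 q.2.2.1 q.2.2.2 G) :
    flipG q.1 q.2.1 q.2.2.1 q.2.2.2 G = switchResult G (F1 q) (F2 q)
      ∨ flipG q.1 q.2.1 q.2.2.1 q.2.2.2 G = switchResult G (F2 q) (F1 q) := by
  obtain ⟨a, b, c, e⟩ := q
  simp only [quads, mem_filter, mem_univ, true_and] at hq
  obtain ⟨hab, hac, hae, hbc, hbe, hce⟩ := hq
  have key : ∀ {p q r t u v w z : Fin n} (hpq : p ≠ q) (hrt : r ≠ t) (huv : u ≠ v) (hwz : w ≠ z),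
      adj G p q → adj G r t → ¬ adj G u v → ¬ adj G w z →
      mm p q r t ⊆ G ∧ Disjoint (mm u v w z) G := by
    intro p q r t u v w z hpq hrt huv hwz h1 h2 h3 h4
    constructor
    · intro ε hε
      rcases mem_mm.1 hε with h | h
      · exact (mem_iff_adj h).2 h1
      · exact (mem_iff_adj h).2 h2
    · rw [Finset.disjoint_left]
      intro ε hε hG
      rcases mem_mm.1 hε with h | h
      · exact h3 ((mem_iff_adj h).1 hG)
      · exact h4 ((mem_iff_adj h).1 hG)
  rcases hY with ⟨h1, h2, h3, h4⟩ | ⟨h1, h2, h3, h4⟩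
  · left
    have hk := key hac hbe hae hbc h1 h2 h3 h4
    show _ = switchResult G (mm a c b e) (mm a e b c)
    unfold switchResult
    rw [if_pos hk]
    ext ε
    have hsub : ε ∈ mm a c b e → ε ∈ G := fun h => hk.1 h
    have hdis : ε ∈ mm a e b c → ε ∉ G := fun h => Finset.disjoint_left.1 hk.2 h
    simp only [mem_mm] at hsub hdis
    simp only [flipG, mem_filter, mem_univ, true_and, mem_union, mem_sdiff, mem_mm]
    tauto
  · right
    have hk := key hae hbc hac hbe h1 h2 h3 h4
    show _ = switchResult G (mm a e b c) (mm a c b e)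
    unfold switchResult
    rw [if_pos hk]
    ext ε
    have hsub : ε ∈ mm a e b c → ε ∈ G := fun h => hk.1 h
    have hdis : ε ∈ mm a c b e → ε ∉ G := fun h => Finset.disjoint_left.1 hk.2 h
    simp only [mem_mm] at hsub hdis
    simp only [flipG, mem_filter, mem_univ, true_and, mem_union, mem_sdiff, mem_mm]
    tauto

/-- Sums over proposals as sums over `proposalCount`. -/
theorem sum_prop_eq {d : Fin n → ℕ} {G : Finset (Edge n)} (hG : G ∈ realizations d)
    (φ : Finset (Edge n) → ℝ) :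
    ∑ S ∈ (univ : Finset (Fin n)).powersetCard 4, ∑ F ∈ pmSet S, ∑ F' ∈ (pmSet S).erase F,
        φ (switchResult G F F')
      = ∑ G' ∈ realizations d, (proposalCount G G' : ℝ) * φ G' := by
  have h0 : ∑ G' ∈ realizations d, (proposalCount G G' : ℝ) * φ G'
      = ∑ G', (proposalCount G G' : ℝ) * φ G' := by
    refine Finset.sum_subset (subset_univ _) fun G' _ hG' => ?_
    have : proposalCount G G' = 0 := by
      by_contra hcon
      exact hG' (mem_realizations_of_proposalCount hcon hG)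
    simp [this]
  rw [h0]
  symm
  unfold proposalCount
  push_cast
  simp only [Finset.sum_mul]
  rw [Finset.sum_comm]
  refine sum_congr rfl fun S _ => ?_
  rw [Finset.sum_comm]
  refine sum_congr rfl fun F _ => ?_
  rw [Finset.sum_comm]
  refine sum_congr rfl fun F' _ => ?_
  simp

/-- The Dirichlet form of the kernel. -/
theorem kernel_form (hn : 4 ≤ n) (d : Fin n → ℕ) (f : Finset (Edge n) → ℝ) :
    12 * (n.choose 4 : ℝ) * ∑ G ∈ realizations d,
        f G * (f G - ∑ G' ∈ realizations d, kernel n G G' * f G')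
      = (1 / 2) * ∑ G ∈ realizations d, ∑ G' ∈ realizations d,
          (proposalCount G G' : ℝ) * (f G - f G') ^ 2 := by
  have hC := choose_four_pos hn (n := n)
  set C : ℝ := (n.choose 4 : ℝ) with hCdef
  have row : ∀ G ∈ realizations d, ∑ G' ∈ realizations d, (proposalCount G G' : ℝ) = 6 * C := by
    intro G hG
    have h1 := sum_prop_eq hG (fun _ => 1)
    have h2 : ∑ G', (proposalCount G G' : ℝ) = 6 * C := by
      have := sum_proposalCount G
      rw [← Nat.cast_sum, this]
      push_cast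
      rfl
    rw [← h2]
    refine Finset.sum_subset (subset_univ _) fun G' _ hG' => ?_
    have : proposalCount G G' = 0 := by
      by_contra hcon
      exact hG' (mem_realizations_of_proposalCount hcon hG)
    simp [this]
  have step : ∀ G ∈ realizations d, 12 * C * (f G - ∑ G' ∈ realizations d, kernel n G G' * f G')
      = ∑ G' ∈ realizations d, (proposalCount G G' : ℝ) * (f G - f G') := by
    intro G hG
    have e1 : ∑ G' ∈ realizations d, kernel n G G' * f G'
        = (1 / 2) * f G + (∑ G' ∈ realizations d, (proposalCount G G' : ℝ) * f G') / (12 * C) := by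
      unfold kernel
      simp only [add_mul, Finset.sum_add_distrib, ite_mul, zero_mul]
      rw [Finset.sum_ite_eq, if_pos hG, Finset.sum_div]
      congr 1
      refine Finset.sum_congr rfl fun G' _ => ?_
      rw [div_mul_eq_mul_div]
    have e2 : ∑ G' ∈ realizations d, (proposalCount G G' : ℝ) * (f G - f G')
        = f G * (6 * C) - ∑ G' ∈ realizations d, (proposalCount G G' : ℝ) * f G' := by
      rw [← row G hG, Finset.mul_sum, ← Finset.sum_sub_distrib]
      refine Finset.sum_congr rfl fun G' _ => ?_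
      ring
    rw [e1, e2]
    field_simp
    ring
  have hA : 12 * C * ∑ G ∈ realizations d, f G * (f G - ∑ G' ∈ realizations d, kernel n G G' * f G')
      = ∑ G ∈ realizations d, ∑ G' ∈ realizations d, (proposalCount G G' : ℝ) * (f G * (f G - f G')) := by
    rw [Finset.mul_sum]
    refine Finset.sum_congr rfl fun G hG => ?_
    have := step G hG
    calc 12 * C * (f G * (f G - ∑ G' ∈ realizations d, kernel n G G' * f G'))
        = f G * (12 * C * (f G - ∑ G' ∈ realizations d, kernel n G G' * f G')) := by ring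
      _ = f G * ∑ G' ∈ realizations d, (proposalCount G G' : ℝ) * (f G - f G') := by rw [this]
      _ = _ := by
        rw [Finset.mul_sum]
        refine Finset.sum_congr rfl fun G' _ => ?_
        ring
  have hB : ∑ G ∈ realizations d, ∑ G' ∈ realizations d, (proposalCount G G' : ℝ) * (f G' * (f G' - f G))
      = ∑ G ∈ realizations d, ∑ G' ∈ realizations d, (proposalCount G G' : ℝ) * (f G * (f G - f G')) := by
    rw [Finset.sum_comm]
    refine Finset.sum_congr rfl fun G _ => Finset.sum_congr rfl fun G' _ => ?_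
    rw [proposalCount_comm]
  have hS : ∑ G ∈ realizations d, ∑ G' ∈ realizations d, (proposalCount G G' : ℝ) * (f G - f G') ^ 2
      = ∑ G ∈ realizations d, ∑ G' ∈ realizations d, (proposalCount G G' : ℝ) * (f G * (f G - f G'))
        + ∑ G ∈ realizations d, ∑ G' ∈ realizations d, (proposalCount G G' : ℝ) * (f G' * (f G' - f G)) := by
    rw [← Finset.sum_add_distrib]
    refine Finset.sum_congr rfl fun G _ => ?_
    rw [← Finset.sum_add_distrib]
    refine Finset.sum_congr rfl fun G' _ => ?_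
    ring
  rw [hA, hS, hB]
  ring

end KernelAux

open KernelAux in
/-- Kernel comparison. -/
theorem fl_le_kernel (hn : 4 ≤ n) (d : Fin n → ℕ) (f : Finset (Edge n) → ℝ) :
    (1 / 8 : ℝ) * ∑ t ∈ quads n, Fl d t.1 t.2.1 t.2.2.1 t.2.2.2 f
      ≤ 12 * (n.choose 4 : ℝ) * ∑ G ∈ realizations d,
          f G * (f G - ∑ G' ∈ realizations d, kernel n G G' * f G') := by
  rw [kernel_form hn d f]
  -- energy of a switch
  set D : Finset (Edge n) → Finset (Edge n) → Finset (Edge n) → ℝ :=
    fun G F F' => (f G - f (switchResult G F F')) ^ 2 with hD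
  have hDnn : ∀ G F F', 0 ≤ D G F F' := fun _ _ _ => sq_nonneg _
  have hFl : ∀ q ∈ quads n, Fl d q.1 q.2.1 q.2.2.1 q.2.2.2 f
      ≤ (1 / 2) * ∑ G ∈ realizations d, (D G (F1 q) (F2 q) + D G (F2 q) (F1 q)) := by
    intro q hq
    unfold Fl
    refine mul_le_mul_of_nonneg_left ?_ (by norm_num)
    rw [Finset.sum_filter]
    refine Finset.sum_le_sum fun G _ => ?_
    split_ifs with hY
    · rcases flip_eq_switch hq hY with h | h
      · rw [h]
        have := hDnn G (F2 q) (F1 q)
        simp only [hD] at this ⊢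
        linarith
      · rw [h]
        have := hDnn G (F1 q) (F2 q)
        simp only [hD] at this ⊢
        linarith
    · exact add_nonneg (hDnn _ _ _) (hDnn _ _ _)
  have hsum : ∀ G ∈ realizations d, ∑ q ∈ quads n, (D G (F1 q) (F2 q) + D G (F2 q) (F1 q))
      ≤ 8 * ∑ G' ∈ realizations d, (proposalCount G G' : ℝ) * (f G - f G') ^ 2 := by
    intro G hG
    rw [Finset.sum_add_distrib, sum_quads_swap (D G)]
    have h1 := sum_quads_le (D G) (hDnn G)
    have h2 := sum_prop_eq hG (fun G' => (f G - f G') ^ 2)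
    have h3 : ∑ S ∈ (univ : Finset (Fin n)).powersetCard 4, ∑ F ∈ pmSet S, ∑ F' ∈ (pmSet S).erase F, D G F F'
        = ∑ G' ∈ realizations d, (proposalCount G G' : ℝ) * (f G - f G') ^ 2 := h2
    rw [h3] at h1
    linarith
  calc (1 / 8 : ℝ) * ∑ t ∈ quads n, Fl d t.1 t.2.1 t.2.2.1 t.2.2.2 f
      ≤ (1 / 8 : ℝ) * ∑ q ∈ quads n,
          (1 / 2) * ∑ G ∈ realizations d, (D G (F1 q) (F2 q) + D G (F2 q) (F1 q)) :=
        mul_le_mul_of_nonneg_left (Finset.sum_le_sum hFl) (by norm_num)
    _ = (1 / 16 : ℝ) * ∑ G ∈ realizations d, ∑ q ∈ quads n,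
          (D G (F1 q) (F2 q) + D G (F2 q) (F1 q)) := by
        rw [← Finset.mul_sum, Finset.sum_comm]
        ring
    _ ≤ (1 / 16 : ℝ) * ∑ G ∈ realizations d,
          8 * ∑ G' ∈ realizations d, (proposalCount G G' : ℝ) * (f G - f G') ^ 2 :=
        mul_le_mul_of_nonneg_left (Finset.sum_le_sum hsum) (by norm_num)
    _ = _ := by
        rw [← Finset.mul_sum]
        ring

end Crest.Agent.Switch
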