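/-
S0453 C2: spectral lemmas, finite-set form.
-/
import Mathlib

set_option autoImplicit false

namespace Crest.Agent.Switch

open Finset
open scoped Classical InnerProductSpace

section Abstract

variable {E : Type*} [NormedAddCommGroup E] [InnerProductSpace ℝ E] [FiniteDimensional ℝ E]

/-- Eigen-expansion of a symmetric operator along a vector. -/
theorem eig_expansion (T : E →ₗ[ℝ] E) (hT : T.IsSymmetric) (x : E) :
    ∃ (m : ℕ) (b : Fin m → E) (lam : Fin m → ℝ) (c : Fin m → ℝ),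
      (∀ i, b i ≠ 0) ∧ (∀ i, T (b i) = lam i • b i) ∧ (∀ i, c i = ⟪b i, x⟫_ℝ) ∧
      ⟪x, x⟫_ℝ = ∑ i, c i ^ 2 ∧ ⟪x, T x⟫_ℝ = ∑ i, lam i * c i ^ 2 ∧
      ⟪T x, T x⟫_ℝ = ∑ i, lam i ^ 2 * c i ^ 2 := by
  have hb : ∀ i, T (hT.eigenvectorBasis rfl i) = hT.eigenvalues rfl i • hT.eigenvectorBasis rfl i := by
    intro i
    simpa using hT.apply_eigenvectorBasis rfl i
  have h1 : ∀ i, ⟪hT.eigenvectorBasis rfl i, T x⟫_ℝ
      = hT.eigenvalues rfl i * ⟪hT.eigenvectorBasis rfl i, x⟫_ℝ := by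
    intro i
    rw [← hT _ x, hb i, real_inner_smul_left]
  refine ⟨_, hT.eigenvectorBasis rfl, hT.eigenvalues rfl,
    fun i => ⟪hT.eigenvectorBasis rfl i, x⟫_ℝ, ?_, hb, fun _ => rfl, ?_, ?_, ?_⟩
  · intro i
    exact (hT.eigenvectorBasis rfl).orthonormal.ne_zero i
  · rw [← (hT.eigenvectorBasis rfl).sum_inner_mul_inner x x]
    refine Finset.sum_congr rfl fun i _ => ?_
    rw [real_inner_comm, sq]
  · rw [← (hT.eigenvectorBasis rfl).sum_inner_mul_inner x (T x)]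
    refine Finset.sum_congr rfl fun i _ => ?_
    rw [h1, real_inner_comm]
    ring
  · rw [← (hT.eigenvectorBasis rfl).sum_inner_mul_inner (T x) (T x)]
    refine Finset.sum_congr rfl fun i _ => ?_
    rw [real_inner_comm (hT.eigenvectorBasis rfl i) (T x), h1]
    ring

end Abstract

section Finset
variable {α : Type*}

/-- Extension by zero. -/
noncomputable def extZ (Ω : Finset α) (v : ↥Ω → ℝ) : α → ℝ :=
  fun G => if h : G ∈ Ω then v ⟨G, h⟩ else 0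

/-- The operator on the Euclidean space of `Ω`. -/
noncomputable def opE (Ω : Finset α) (T : (α → ℝ) → (α → ℝ))
    (hadd : ∀ f g, ∀ G ∈ Ω, T (f + g) G = T f G + T g G)
    (hsmul : ∀ (c : ℝ) f, ∀ G ∈ Ω, T (c • f) G = c * T f G) :
    EuclideanSpace ℝ ↥Ω →ₗ[ℝ] EuclideanSpace ℝ ↥Ω where
  toFun x := WithLp.toLp 2 (fun i : ↥Ω => T (extZ Ω x.ofLp) i.1)
  map_add' x y := by
    ext i
    have h1 : extZ Ω (x + y).ofLp = extZ Ω x.ofLp + extZ Ω y.ofLp := by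
      funext G
      by_cases h : G ∈ Ω <;> simp [extZ, h]
    simp only [h1, PiLp.add_apply]
    exact hadd _ _ _ i.2
  map_smul' c x := by
    ext i
    have h1 : extZ Ω (c • x).ofLp = c • extZ Ω x.ofLp := by
      funext G
      by_cases h : G ∈ Ω <;> simp [extZ, h]
    simp only [h1, PiLp.smul_apply, RingHom.id_apply, smul_eq_mul]
    exact hsmul _ _ _ i.2

/-- Restriction of a function to `Ω` as a vector. -/
noncomputable def resE (Ω : Finset α) (f : α → ℝ) : EuclideanSpace ℝ ↥Ω :=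
  WithLp.toLp 2 (fun i : ↥Ω => f i.1)

theorem extZ_resE (Ω : Finset α) (f : α → ℝ) {G : α} (hG : G ∈ Ω) :
    extZ Ω (resE Ω f).ofLp G = f G := by
  simp [extZ, resE, hG]

theorem inner_resE (Ω : Finset α) (x y : EuclideanSpace ℝ ↥Ω) :
    ⟪x, y⟫_ℝ = ∑ G ∈ Ω, extZ Ω x.ofLp G * extZ Ω y.ofLp G := by
  rw [PiLp.inner_apply, ← Finset.sum_coe_sort Ω]
  refine Finset.sum_congr rfl fun i _ => ?_
  simp [extZ, mul_comm]

variable (Ω : Finset α) (T : (α → ℝ) → (α → ℝ))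
    (hadd : ∀ f g, ∀ G ∈ Ω, T (f + g) G = T f G + T g G)
    (hsmul : ∀ (c : ℝ) f, ∀ G ∈ Ω, T (c • f) G = c * T f G)
    (hloc : ∀ f g, (∀ G ∈ Ω, f G = g G) → ∀ G ∈ Ω, T f G = T g G)

omit hloc in
theorem extZ_opE (x : EuclideanSpace ℝ ↥Ω) {G : α} (hG : G ∈ Ω) :
    extZ Ω (opE Ω T hadd hsmul x).ofLp G = T (extZ Ω x.ofLp) G := by
  simp [extZ, hG, opE]

omit hloc in
theorem opE_symm (hsym : ∀ f g, ∑ G ∈ Ω, f G * T g G = ∑ G ∈ Ω, T f G * g G) :
    (opE Ω T hadd hsmul).IsSymmetric := by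
  intro x y
  rw [inner_resE, inner_resE]
  have h1 : ∀ G ∈ Ω, extZ Ω (opE Ω T hadd hsmul x).ofLp G * extZ Ω y.ofLp G
      = T (extZ Ω x.ofLp) G * extZ Ω y.ofLp G := fun G hG => by
    rw [extZ_opE Ω T hadd hsmul x hG]
  have h2 : ∀ G ∈ Ω, extZ Ω x.ofLp G * extZ Ω (opE Ω T hadd hsmul y).ofLp G
      = extZ Ω x.ofLp G * T (extZ Ω y.ofLp) G := fun G hG => by
    rw [extZ_opE Ω T hadd hsmul y hG]
  rw [Finset.sum_congr rfl h1, Finset.sum_congr rfl h2, hsym]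

include hadd hsmul hloc in
/-- Any eigenvector consideration. -/
theorem spectral_expansion (hsym : ∀ f g, ∑ G ∈ Ω, f G * T g G = ∑ G ∈ Ω, T f G * g G) (f : α → ℝ) :
    ∃ (m : ℕ) (b : Fin m → (α → ℝ)) (lam : Fin m → ℝ) (c : Fin m → ℝ),
      (∀ i, ∃ G ∈ Ω, b i G ≠ 0) ∧ (∀ i, ∀ G ∈ Ω, T (b i) G = lam i * b i G) ∧
      (∀ i, c i = ∑ G ∈ Ω, b i G * f G) ∧
      ∑ G ∈ Ω, f G ^ 2 = ∑ i, c i ^ 2 ∧
      ∑ G ∈ Ω, f G * T f G = ∑ i, lam i * c i ^ 2 ∧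
      ∑ G ∈ Ω, (T f G) ^ 2 = ∑ i, lam i ^ 2 * c i ^ 2 := by
  have hS := opE_symm Ω T hadd hsmul hsym
  set x := resE Ω f with hx
  obtain ⟨m, b, lam, c, hb, hTb, hc, h1, h2, h3⟩ := eig_expansion _ hS x
  have hT : ∀ G ∈ Ω, T (extZ Ω x.ofLp) G = T f G := fun G hG =>
    hloc _ _ (fun H hH => extZ_resE Ω f hH) G hG
  refine ⟨m, fun i => extZ Ω (b i).ofLp, lam, c, ?_, ?_, ?_, ?_, ?_, ?_⟩
  · intro i
    obtain ⟨j, hj⟩ : ∃ j, (b i).ofLp j ≠ 0 := by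
      by_contra hcon
      simp only [not_exists, not_not] at hcon
      apply hb i
      ext j
      exact hcon j
    exact ⟨j.1, j.2, by simpa [extZ, j.2] using hj⟩
  · intro i G hG
    have := extZ_opE Ω T hadd hsmul (b i) hG
    rw [← this, hTb i]
    simp [extZ, hG]
  · intro i
    rw [hc i, inner_resE]
    refine Finset.sum_congr rfl fun G hG => ?_
    rw [hx, extZ_resE Ω f hG]
  · rw [← h1, inner_resE]
    refine Finset.sum_congr rfl fun G hG => ?_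
    rw [hx, extZ_resE Ω f hG, sq]
  · rw [← h2, inner_resE]
    refine Finset.sum_congr rfl fun G hG => ?_
    rw [extZ_opE Ω T hadd hsmul x hG, hT G hG, hx, extZ_resE Ω f hG]
  · rw [← h3, inner_resE]
    refine Finset.sum_congr rfl fun G hG => ?_
    rw [extZ_opE Ω T hadd hsmul x hG, hT G hG, sq]

include hadd hsmul hloc in
/-- (s2) -/
theorem spectral_no_gap
    (hsym : ∀ f g, ∑ G ∈ Ω, f G * T g G = ∑ G ∈ Ω, T f G * g G)
    (hev : ∀ (v : α → ℝ) (μ : ℝ), (∃ G ∈ Ω, v G ≠ 0) → (∀ G ∈ Ω, T v G = μ * v G) → μ ≤ 0 ∨ 1 ≤ μ)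
    (f : α → ℝ) :
    ∑ G ∈ Ω, f G * T f G ≤ ∑ G ∈ Ω, (T f G) ^ 2 := by
  obtain ⟨m, b, lam, c, hb, hTb, -, -, h2, h3⟩ := spectral_expansion Ω T hadd hsmul hloc hsym f
  rw [h2, h3]
  refine Finset.sum_le_sum fun i _ => ?_
  have h5 : lam i ≤ lam i ^ 2 := by
    rcases hev _ _ (hb i) (hTb i) with h | h <;> nlinarith
  exact mul_le_mul_of_nonneg_right h5 (sq_nonneg _)

include hadd hsmul hloc in
/-- (s1) -/
theorem spectral_poincare
    (hsym : ∀ f g, ∑ G ∈ Ω, f G * T g G = ∑ G ∈ Ω, T f G * g G)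
    (hconst : ∀ G ∈ Ω, T (fun _ => 1) G = 0)
    (hpsd : ∀ f, 0 ≤ ∑ G ∈ Ω, f G * T f G)
    (hkey : ∀ f, ∑ G ∈ Ω, f G * T f G ≤ ∑ G ∈ Ω, (T f G) ^ 2)
    (hker : ∀ f, (∀ G ∈ Ω, T f G = 0) → ∀ G ∈ Ω, ∀ H ∈ Ω, f G = f H)
    (f : α → ℝ) :
    (Ω.card : ℝ) * ∑ G ∈ Ω, f G ^ 2 - (∑ G ∈ Ω, f G) ^ 2 ≤ (Ω.card : ℝ) * ∑ G ∈ Ω, f G * T f G := by
  rcases Ω.eq_empty_or_nonempty with hE | hNE
  · subst hE; simp
  have hcard : (0 : ℝ) < (Ω.card : ℝ) := by exact_mod_cast hNE.card_pos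
  set mu : ℝ := (∑ G ∈ Ω, f G) / (Ω.card : ℝ) with hmu
  set u : α → ℝ := f + (-mu) • (fun _ => (1 : ℝ)) with hu
  have huG : ∀ G, u G = f G - mu := fun G => by simp [hu]; ring
  have hTu : ∀ G ∈ Ω, T u G = T f G := by
    intro G hG
    rw [hu, hadd _ _ G hG, hsmul _ _ G hG, hconst G hG]
    ring
  have hsumu : ∑ G ∈ Ω, u G = 0 := by
    simp only [huG, Finset.sum_sub_distrib, Finset.sum_const, nsmul_eq_mul]
    rw [hmu]
    field_simp
    ring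
  obtain ⟨m, b, lam, c, hb, hTb, hc, h1, h2, -⟩ := spectral_expansion Ω T hadd hsmul hloc hsym u
  have key : ∑ G ∈ Ω, u G ^ 2 ≤ ∑ G ∈ Ω, u G * T u G := by
    rw [h1, h2]
    refine Finset.sum_le_sum fun i _ => ?_
    have hl1 := hkey (b i)
    have hl2 := hpsd (b i)
    have hnorm : 0 < ∑ G ∈ Ω, b i G ^ 2 := by
      obtain ⟨G, hG, hne⟩ := hb i
      exact Finset.sum_pos' (fun _ _ => sq_nonneg _) ⟨G, hG, by positivity⟩
    have e1 : ∑ G ∈ Ω, b i G * T (b i) G = lam i * ∑ G ∈ Ω, b i G ^ 2 := by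
      rw [Finset.mul_sum]
      refine Finset.sum_congr rfl fun G hG => ?_
      rw [hTb i G hG]; ring
    have e2 : ∑ G ∈ Ω, (T (b i) G) ^ 2 = lam i ^ 2 * ∑ G ∈ Ω, b i G ^ 2 := by
      rw [Finset.mul_sum]
      refine Finset.sum_congr rfl fun G hG => ?_
      rw [hTb i G hG]; ring
    rw [e1] at hl1 hl2
    rw [e2] at hl1
    have hl0 : 0 ≤ lam i := by
      by_contra hcon
      push Not at hcon
      have := mul_neg_of_neg_of_pos hcon hnorm
      linarith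
    have hl3 : lam i ≤ lam i ^ 2 := le_of_mul_le_mul_right (by linarith) hnorm
    by_cases hz : lam i = 0
    · -- kernel vector: constant
      have hcz : c i = 0 := by
        rw [hc i]
        have hk : ∀ G ∈ Ω, T (b i) G = 0 := fun G hG => by rw [hTb i G hG, hz, zero_mul]
        have hk2 := hker (b i) hk
        obtain ⟨G0, hG0, -⟩ := hb i
        have : ∀ G ∈ Ω, b i G * u G = b i G0 * u G := fun G hG => by rw [hk2 G hG G0 hG0]
        rw [Finset.sum_congr rfl this, ← Finset.mul_sum, hsumu, mul_zero]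
      rw [hcz]; simp
    · have : 1 ≤ lam i := by
        have hpos : 0 < lam i := lt_of_le_of_ne hl0 (Ne.symm hz)
        nlinarith
      nlinarith [sq_nonneg (c i)]
  have e3 : ∑ G ∈ Ω, u G * T u G = ∑ G ∈ Ω, f G * T f G := by
    have h4 : ∑ G ∈ Ω, u G * T u G = ∑ G ∈ Ω, u G * T f G :=
      Finset.sum_congr rfl fun G hG => by rw [hTu G hG]
    rw [h4]
    have h5 : ∑ G ∈ Ω, T f G = 0 := by
      have h50 := hsym (fun _ => (1 : ℝ)) f
      simp only [one_mul] at h50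
      rw [h50]
      exact Finset.sum_eq_zero fun G hG => by rw [hconst G hG, zero_mul]
    have h6 : ∀ G, u G * T f G = f G * T f G - mu * T f G := fun G => by
      rw [huG]; ring
    simp only [h6, Finset.sum_sub_distrib, ← Finset.mul_sum]
    rw [h5]; ring
  have e4 : (Ω.card : ℝ) * ∑ G ∈ Ω, u G ^ 2
      = (Ω.card : ℝ) * ∑ G ∈ Ω, f G ^ 2 - (∑ G ∈ Ω, f G) ^ 2 := by
    have : ∑ G ∈ Ω, u G ^ 2 = ∑ G ∈ Ω, f G ^ 2 - 2 * mu * ∑ G ∈ Ω, f G + (Ω.card : ℝ) * mu ^ 2 := by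
      have h7 : ∀ G, u G ^ 2 = f G ^ 2 - 2 * mu * f G + mu ^ 2 := fun G => by rw [huG]; ring
      simp only [h7, Finset.sum_add_distrib, Finset.sum_sub_distrib, ← Finset.mul_sum,
        Finset.sum_const, nsmul_eq_mul]
    rw [this, hmu]
    field_simp
    ring
  rw [← e4, ← e3]
  exact mul_le_mul_of_nonneg_left key hcard.le

end Finset

end Crest.Agent.Switch
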