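/-
S0453 C4 core: the explicit sum-of-squares inequality on a cross-shaped index set.
-/
import Mathlib

set_option autoImplicit false

namespace Crest.Agent.Switch.SplitSOS

open Finset

variable {β γ : Type*}

/-- `|S| * (Σ_S g / |S|) = Σ_S g`. -/
theorem card_mul_mean (S : Finset β) (g : β → ℝ) :
    (S.card : ℝ) * ((∑ x ∈ S, g x) / (S.card : ℝ)) = ∑ x ∈ S, g x := by
  rcases S.eq_empty_or_nonempty with rfl | hS
  · simp
  · have : (S.card : ℝ) ≠ 0 := by exact_mod_cast hS.card_pos.ne'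
    field_simp

/-- `Σ_S (g - mean g) = 0`. -/
theorem sum_sub_mean (S : Finset β) (g : β → ℝ) :
    ∑ x ∈ S, (g x - (∑ y ∈ S, g y) / (S.card : ℝ)) = 0 := by
  rw [Finset.sum_sub_distrib, Finset.sum_const, nsmul_eq_mul, card_mul_mean, sub_self]

/-- ANOVA: `Σ (x - rowmean)(x - y(q)) ≥ |P| Σ_q (colmean - grand)(colmean - y q)`. -/
theorem anova_ge (P : Finset β) (Q : Finset γ) (x : β → γ → ℝ) (y : γ → ℝ) :
    (P.card : ℝ) * ∑ q ∈ Q, ((∑ p ∈ P, x p q) / (P.card : ℝ)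
        - (∑ q' ∈ Q, (∑ p ∈ P, x p q') / (P.card : ℝ)) / (Q.card : ℝ))
        * ((∑ p ∈ P, x p q) / (P.card : ℝ) - y q)
      ≤ ∑ p ∈ P, ∑ q ∈ Q, (x p q - (∑ q' ∈ Q, x p q') / (Q.card : ℝ)) * (x p q - y q) := by
  set R : β → ℝ := fun p => (∑ q' ∈ Q, x p q') / (Q.card : ℝ) with hR
  set S : γ → ℝ := fun q => (∑ p ∈ P, x p q) / (P.card : ℝ) with hS
  set g : ℝ := (∑ q' ∈ Q, S q') / (Q.card : ℝ) with hg
  set c : β → γ → ℝ := fun p q => x p q - R p - S q + g with hc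
  have hSg : ∑ q ∈ Q, (S q - g) = 0 := sum_sub_mean Q S
  have hRg : ∑ p ∈ P, (R p - g) = 0 := by
    -- grand mean is also the mean of row means
    have : g = (∑ p ∈ P, R p) / (P.card : ℝ) := by
      simp only [hg, hS, hR, ← Finset.sum_div, div_div]
      rw [Finset.sum_comm, mul_comm]
    rw [this]
    exact sum_sub_mean P R
  have hq : ∀ p ∈ P, ∑ q ∈ Q, c p q = 0 := by
    intro p _
    have h1 : ∑ q ∈ Q, (x p q - R p) = 0 := sum_sub_mean Q (x p)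
    have : ∀ q, c p q = (x p q - R p) - (S q - g) := fun q => by simp only [hc]; ring
    simp only [this, Finset.sum_sub_distrib] at *
    linarith
  have hp : ∀ q ∈ Q, ∑ p ∈ P, c p q = 0 := by
    intro q _
    have h1 : ∑ p ∈ P, (x p q - S q) = 0 := sum_sub_mean P (fun p => x p q)
    have : ∀ p, c p q = (x p q - S q) - (R p - g) := fun p => by simp only [hc]; ring
    simp only [this, Finset.sum_sub_distrib] at *
    linarith
  have expand : ∀ p q, (x p q - R p) * (x p q - y q)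
      = c p q ^ 2 + c p q * (R p - g) + c p q * (S q - y q) + (S q - g) * c p q
        + (S q - g) * (R p - g) + (S q - g) * (S q - y q) := by
    intro p q
    simp only [hc]
    ring
  have t1 : ∑ p ∈ P, ∑ q ∈ Q, c p q * (R p - g) = 0 := by
    refine Finset.sum_eq_zero fun p hpP => ?_
    rw [← Finset.sum_mul, hq p hpP, zero_mul]
  have t2 : ∑ p ∈ P, ∑ q ∈ Q, c p q * (S q - y q) = 0 := by
    rw [Finset.sum_comm]
    refine Finset.sum_eq_zero fun q hqQ => ?_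
    rw [← Finset.sum_mul, hp q hqQ, zero_mul]
  have t3 : ∑ p ∈ P, ∑ q ∈ Q, (S q - g) * c p q = 0 := by
    rw [Finset.sum_comm]
    refine Finset.sum_eq_zero fun q hqQ => ?_
    rw [← Finset.mul_sum, hp q hqQ, mul_zero]
  have t4 : ∑ p ∈ P, ∑ q ∈ Q, (S q - g) * (R p - g) = 0 := by
    refine Finset.sum_eq_zero fun p _ => ?_
    rw [← Finset.sum_mul, hSg, zero_mul]
  have t5 : ∑ p ∈ P, ∑ q ∈ Q, (S q - g) * (S q - y q)
      = (P.card : ℝ) * ∑ q ∈ Q, (S q - g) * (S q - y q) := by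
    rw [Finset.sum_const, nsmul_eq_mul]
  have t6 : 0 ≤ ∑ p ∈ P, ∑ q ∈ Q, c p q ^ 2 :=
    Finset.sum_nonneg fun _ _ => Finset.sum_nonneg fun _ _ => sq_nonneg _
  have main : ∑ p ∈ P, ∑ q ∈ Q, (x p q - R p) * (x p q - y q)
      = ∑ p ∈ P, ∑ q ∈ Q, c p q ^ 2 + ∑ p ∈ P, ∑ q ∈ Q, c p q * (R p - g)
        + ∑ p ∈ P, ∑ q ∈ Q, c p q * (S q - y q) + ∑ p ∈ P, ∑ q ∈ Q, (S q - g) * c p q
        + ∑ p ∈ P, ∑ q ∈ Q, (S q - g) * (R p - g) + ∑ p ∈ P, ∑ q ∈ Q, (S q - g) * (S q - y q) := by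
    simp only [expand, Finset.sum_add_distrib]
  rw [main, t1, t2, t3, t4, t5]
  linarith

/-- Half of the core inequality. `Qs` is the column set, `P` the double row set, `P0` the single one. -/
theorem half (P P0 : Finset β) (Q : Finset γ) (h t : β → γ → ℝ) :
    0 ≤ 2 * (P.card : ℝ) * ∑ C ∈ Q, ((∑ A ∈ P, h A C) / (P.card : ℝ)
          - (2 * ∑ A ∈ P, h A C + ∑ A ∈ P0, t A C) / (2 * (P.card : ℝ) + (P0.card : ℝ)))
          * ((∑ A ∈ P, h A C) / (P.card : ℝ)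
            - (∑ C' ∈ Q, (∑ A ∈ P, h A C') / (P.card : ℝ)) / (Q.card : ℝ))
      + ∑ A ∈ P0, ∑ C ∈ Q, (t A C - (∑ C' ∈ Q, t A C') / (Q.card : ℝ))
          * (t A C - (2 * ∑ A ∈ P, h A C + ∑ A ∈ P0, t A C) / (2 * (P.card : ℝ) + (P0.card : ℝ))) := by
  set p : ℝ := (P.card : ℝ) with hp
  set p0 : ℝ := (P0.card : ℝ) with hp0
  set M : γ → ℝ := fun C => (2 * ∑ A ∈ P, h A C + ∑ A ∈ P0, t A C) / (2 * p + p0) with hM
  set hC : γ → ℝ := fun C => (∑ A ∈ P, h A C) / p with hhC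
  set tC : γ → ℝ := fun C => (∑ A ∈ P0, t A C) / p0 with htC
  have hA := anova_ge P0 Q t M
  simp only [← hp0, ← htC] at hA
  set hb : ℝ := (∑ C' ∈ Q, hC C') / (Q.card : ℝ) with hhb
  set tb : ℝ := (∑ C' ∈ Q, tC C') / (Q.card : ℝ) with htb
  have hnn : 0 ≤ p := by positivity
  have hnn0 : 0 ≤ p0 := by positivity
  -- lower bound to be shown nonnegative
  suffices hsuff : 0 ≤ 2 * p * ∑ C ∈ Q, (hC C - M C) * (hC C - hb)
      + p0 * ∑ C ∈ Q, (tC C - tb) * (tC C - M C) by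
    have := add_le_add_left hA (2 * p * ∑ C ∈ Q, (hC C - M C) * (hC C - hb))
    linarith
  rcases hnn.eq_or_lt with hp_zero | hp_pos
  · -- no double rows
    have hPempty : P = ∅ := by
      have : (P.card : ℝ) = 0 := hp_zero.symm
      exact Finset.card_eq_zero.1 (by exact_mod_cast this)
    have hMt : ∀ C, M C = tC C := by
      intro C
      simp [hM, htC, hPempty, hp, hp0]
    simp [hMt, ← hp_zero]
  rcases hnn0.eq_or_lt with hp0_zero | hp0_pos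
  · have hP0empty : P0 = ∅ := by
      have : (P0.card : ℝ) = 0 := hp0_zero.symm
      exact Finset.card_eq_zero.1 (by exact_mod_cast this)
    have hMh : ∀ C, M C = hC C := by
      intro C
      simp only [hM, hhC, hP0empty, hp0, Finset.sum_empty, Finset.card_empty, Nat.cast_zero, add_zero]
      field_simp
    simp [hMh, ← hp0_zero]
  -- main case
  have hden : 0 < 2 * p + p0 := by positivity
  have e1 : ∀ C, hC C - M C = p0 / (2 * p + p0) * (hC C - tC C) := by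
    intro C
    simp only [hM, hhC, htC]
    field_simp
    ring
  have e2 : ∀ C, tC C - M C = - (2 * p) / (2 * p + p0) * (hC C - tC C) := by
    intro C
    simp only [hM, hhC, htC]
    field_simp
    ring
  set δ : γ → ℝ := fun C => hC C - tC C with hδ
  set δb : ℝ := hb - tb with hδb
  have hδb' : δb = (∑ C ∈ Q, δ C) / (Q.card : ℝ) := by
    simp only [hδb, hhb, htb, hδ, Finset.sum_sub_distrib, sub_div]
  have hsum0 : ∑ C ∈ Q, (δ C - δb) = 0 := by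
    rw [hδb']
    exact sum_sub_mean Q δ
  have key : ∑ C ∈ Q, δ C * (δ C - δb) = ∑ C ∈ Q, (δ C - δb) ^ 2 := by
    have : ∀ C, δ C * (δ C - δb) = (δ C - δb) ^ 2 + δb * (δ C - δb) := fun C => by ring
    simp only [this, Finset.sum_add_distrib, ← Finset.mul_sum, hsum0, mul_zero, add_zero]
  have hexpr : 2 * p * ∑ C ∈ Q, (hC C - M C) * (hC C - hb)
      + p0 * ∑ C ∈ Q, (tC C - tb) * (tC C - M C)
      = (2 * p * p0 / (2 * p + p0)) * ∑ C ∈ Q, δ C * (δ C - δb) := by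
    simp only [e1, e2, Finset.mul_sum, ← Finset.sum_add_distrib]
    refine Finset.sum_congr rfl fun C _ => ?_
    simp only [hδ, hδb]
    field_simp
    ring
  rw [hexpr, key]
  have : 0 ≤ ∑ C ∈ Q, (δ C - δb) ^ 2 := Finset.sum_nonneg fun _ _ => sq_nonneg _
  positivity

/-- The core inequality. -/
theorem sos_main (P P0 : Finset β) (Q Q0 : Finset γ) (h s t : β → γ → ℝ) :
    2 * ∑ A ∈ P, ∑ C ∈ Q,
        ((∑ A' ∈ P, h A' C) / (P.card : ℝ)
          - (2 * ∑ A' ∈ P, h A' C + ∑ A' ∈ P0, t A' C) / (2 * (P.card : ℝ) + (P0.card : ℝ)))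
        * ((∑ C' ∈ Q, h A C') / (Q.card : ℝ)
          - (2 * ∑ C' ∈ Q, h A C' + ∑ C' ∈ Q0, s A C') / (2 * (Q.card : ℝ) + (Q0.card : ℝ)))
    ≤ 2 * ∑ A ∈ P, ∑ C ∈ Q,
          (h A C - (2 * ∑ A' ∈ P, h A' C + ∑ A' ∈ P0, t A' C) / (2 * (P.card : ℝ) + (P0.card : ℝ)))
          * (h A C - (2 * ∑ C' ∈ Q, h A C' + ∑ C' ∈ Q0, s A C') / (2 * (Q.card : ℝ) + (Q0.card : ℝ)))
      + ∑ A ∈ P, ∑ C ∈ Q0,
          (s A C - (∑ A' ∈ P, s A' C) / (P.card : ℝ))
          * (s A C - (2 * ∑ C' ∈ Q, h A C' + ∑ C' ∈ Q0, s A C') / (2 * (Q.card : ℝ) + (Q0.card : ℝ)))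
      + ∑ A ∈ P0, ∑ C ∈ Q,
          (t A C - (2 * ∑ A' ∈ P, h A' C + ∑ A' ∈ P0, t A' C) / (2 * (P.card : ℝ) + (P0.card : ℝ)))
          * (t A C - (∑ C' ∈ Q, t A C') / (Q.card : ℝ)) := by
  set p : ℝ := (P.card : ℝ) with hp
  set q : ℝ := (Q.card : ℝ) with hq
  set M : γ → ℝ := fun C => (2 * ∑ A' ∈ P, h A' C + ∑ A' ∈ P0, t A' C) / (2 * p + (P0.card : ℝ)) with hM
  set M' : β → ℝ := fun A => (2 * ∑ C' ∈ Q, h A C' + ∑ C' ∈ Q0, s A C') / (2 * q + (Q0.card : ℝ)) with hM'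
  set hC : γ → ℝ := fun C => (∑ A' ∈ P, h A' C) / p with hhC
  set hA : β → ℝ := fun A => (∑ C' ∈ Q, h A C') / q with hhA
  -- half lemmas
  have hbb : (∑ A ∈ P, hA A) / p = (∑ C ∈ Q, hC C) / q := by
    simp only [hhA, hhC, ← Finset.sum_div, div_div]
    rw [Finset.sum_comm, mul_comm]
  set hb : ℝ := (∑ C ∈ Q, hC C) / q with hhb
  have h1 : 0 ≤ 2 * p * ∑ C ∈ Q, (hC C - M C) * (hC C - hb)
      + ∑ A ∈ P0, ∑ C ∈ Q, (t A C - (∑ C' ∈ Q, t A C') / q) * (t A C - M C) := half P P0 Q h t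
  have h2 : 0 ≤ 2 * q * ∑ A ∈ P, (hA A - M' A) * (hA A - hb)
      + ∑ C ∈ Q0, ∑ A ∈ P, (s A C - (∑ A' ∈ P, s A' C) / p) * (s A C - M' A) := by
    have := half Q Q0 P (fun C A => h A C) (fun C A => s A C)
    rw [show ((∑ C' ∈ P, (∑ A ∈ Q, h C' A) / (Q.card : ℝ)) / (P.card : ℝ)) = hb from hbb] at this
    exact this
  have hAsum : ∑ A ∈ P, hA A = p * hb := by
    rw [← hbb]
    exact (card_mul_mean P hA).symm
  have hCsum : ∑ C ∈ Q, hC C = q * hb := (card_mul_mean Q hC).symm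
  have hanova : 0 ≤ ∑ A ∈ P, ∑ C ∈ Q, (h A C - hA A) * (h A C - hC C) := by
    have := anova_ge P Q h hC
    have hz : ∀ C, (hC C - (∑ q' ∈ Q, hC q') / q) * (hC C - hC C) = 0 := fun C => by
      rw [sub_self, mul_zero]
    have e : (P.card : ℝ) * ∑ q_1 ∈ Q, ((∑ p ∈ P, h p q_1) / (P.card : ℝ)
        - (∑ q' ∈ Q, (∑ p ∈ P, h p q') / (P.card : ℝ)) / (Q.card : ℝ))
        * ((∑ p ∈ P, h p q_1) / (P.card : ℝ) - hC q_1) = 0 := by
      refine mul_eq_zero_of_right _ (Finset.sum_eq_zero fun C _ => ?_)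
      exact hz C
    rw [e] at this
    exact this
  have expand : ∀ A C, (h A C - M C) * (h A C - M' A)
      = (h A C - hA A) * (h A C - hC C) + (hC C - M C) * (h A C - hA A)
        + (hA A - M' A) * (h A C - hC C) + (hC C - M C) * (hA A - M' A) := by
    intro A C; ring
  have c1 : ∑ A ∈ P, ∑ C ∈ Q, (hC C - M C) * (h A C - hA A)
      = p * ∑ C ∈ Q, (hC C - M C) * (hC C - hb) := by
    rw [Finset.sum_comm, Finset.mul_sum]
    refine Finset.sum_congr rfl fun C _ => ?_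
    rw [← Finset.mul_sum, Finset.sum_sub_distrib, hAsum]
    have : ∑ A ∈ P, h A C = p * hC C := (card_mul_mean P (fun A => h A C)).symm
    rw [this]
    ring
  have c2 : ∑ A ∈ P, ∑ C ∈ Q, (hA A - M' A) * (h A C - hC C)
      = q * ∑ A ∈ P, (hA A - M' A) * (hA A - hb) := by
    rw [Finset.mul_sum]
    refine Finset.sum_congr rfl fun A _ => ?_
    rw [← Finset.mul_sum, Finset.sum_sub_distrib, hCsum]
    have : ∑ C ∈ Q, h A C = q * hA A := (card_mul_mean Q (fun C => h A C)).symm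
    rw [this]
    ring
  have main : ∑ A ∈ P, ∑ C ∈ Q, (h A C - M C) * (h A C - M' A)
      = ∑ A ∈ P, ∑ C ∈ Q, (h A C - hA A) * (h A C - hC C)
        + ∑ A ∈ P, ∑ C ∈ Q, (hC C - M C) * (h A C - hA A)
        + ∑ A ∈ P, ∑ C ∈ Q, (hA A - M' A) * (h A C - hC C)
        + ∑ A ∈ P, ∑ C ∈ Q, (hC C - M C) * (hA A - M' A) := by
    simp only [expand, Finset.sum_add_distrib]
  have hs : ∑ A ∈ P, ∑ C ∈ Q0, (s A C - (∑ A' ∈ P, s A' C) / p) * (s A C - M' A)
      = ∑ C ∈ Q0, ∑ A ∈ P, (s A C - (∑ A' ∈ P, s A' C) / p) * (s A C - M' A) :=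
    Finset.sum_comm
  have ht : ∑ A ∈ P0, ∑ C ∈ Q, (t A C - M C) * (t A C - (∑ C' ∈ Q, t A C') / q)
      = ∑ A ∈ P0, ∑ C ∈ Q, (t A C - (∑ C' ∈ Q, t A C') / q) * (t A C - M C) :=
    Finset.sum_congr rfl fun _ _ => Finset.sum_congr rfl fun _ _ => mul_comm _ _
  rw [main, c1, c2, hs, ht]
  linarith [h1, h2, hanova]

end Crest.Agent.Switch.SplitSOS
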