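/-
S0453 C4: `meanOn`, `CrossShape`, the reduction of a cross-shaped class to explicit double sums, and
`split_abstract` (from `SplitSOS.sos_main`).
-/
import Mathlib
import Crest.Agent.Lib.Switch.SplitSOS

set_option autoImplicit false

namespace Crest.Agent.Switch

open Finset
open scoped Classical

section SplitAbs
variable {α β γ : Type*}

/-- Mean of `f` on a finset. -/
noncomputable def meanOn (S : Finset α) (f : α → ℝ) : ℝ := (∑ x ∈ S, f x) / (S.card : ℝ)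

/-- Cross-shaped class: `K` is parametrized by `g⁺ A C` (`A∈A1∪A0`, `C∈C1∪C0`, not both "0") and `g⁻ A C` on `A1×C1`. -/
structure CrossShape (K : Finset α) (aa : α → β) (cc : α → γ) (Y : α → Prop) (fl : α → α)
    (A1 A0 : Finset β) (C1 C0 : Finset γ) (gp gm : β → γ → α) : Prop where
  hA : Disjoint A1 A0
  hC : Disjoint C1 C0
  h11 : ∀ A ∈ A1, ∀ C ∈ C1, aa (gp A C) = A ∧ cc (gp A C) = C ∧ aa (gm A C) = A ∧ cc (gm A C) = C ∧
    gp A C ≠ gm A C ∧ fl (gp A C) = gm A C ∧ fl (gm A C) = gp A C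
  h10 : ∀ A ∈ A1, ∀ C ∈ C0, aa (gp A C) = A ∧ cc (gp A C) = C
  h01 : ∀ A ∈ A0, ∀ C ∈ C1, aa (gp A C) = A ∧ cc (gp A C) = C
  /-- `K` is exactly the image -/
  mem_K : ∀ x, x ∈ K ↔ (∃ A ∈ A1, ∃ C ∈ C1, x = gp A C ∨ x = gm A C) ∨
      (∃ A ∈ A1, ∃ C ∈ C0, x = gp A C) ∨ (∃ A ∈ A0, ∃ C ∈ C1, x = gp A C)
  /-- `Y` on `K` is the double part -/
  Y_iff : ∀ x ∈ K, Y x ↔ aa x ∈ A1 ∧ cc x ∈ C1

end SplitAbs

section SplitAbsReduction
variable {α β γ : Type*}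
variable {K : Finset α} {aa : α → β} {cc : α → γ} {Y : α → Prop} {fl : α → α}
    {A1 A0 : Finset β} {C1 C0 : Finset γ} {gp gm : β → γ → α}

namespace CrossShape

/-- The class sum is the sum over its parametrization. -/
theorem sum_K (h : CrossShape K aa cc Y fl A1 A0 C1 C0 gp gm) (F : α → ℝ) :
    ∑ x ∈ K, F x = ∑ A ∈ A1, ∑ C ∈ C1, (F (gp A C) + F (gm A C)) + ∑ A ∈ A1, ∑ C ∈ C0, F (gp A C)
      + ∑ A ∈ A0, ∑ C ∈ C1, F (gp A C) := by
  have hK : K = (A1 ×ˢ C1).image (fun p => gp p.1 p.2) ∪ (A1 ×ˢ C1).image (fun p => gm p.1 p.2)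
      ∪ (A1 ×ˢ C0).image (fun p => gp p.1 p.2) ∪ (A0 ×ˢ C1).image (fun p => gp p.1 p.2) := by
    ext x
    simp only [h.mem_K, mem_union, mem_image, mem_product, Prod.exists]
    constructor
    · rintro (⟨A, hA, C, hC, rfl | rfl⟩ | ⟨A, hA, C, hC, rfl⟩ | ⟨A, hA, C, hC, rfl⟩)
      · exact Or.inl (Or.inl (Or.inl ⟨A, C, ⟨hA, hC⟩, rfl⟩))
      · exact Or.inl (Or.inl (Or.inr ⟨A, C, ⟨hA, hC⟩, rfl⟩))
      · exact Or.inl (Or.inr ⟨A, C, ⟨hA, hC⟩, rfl⟩)
      · exact Or.inr ⟨A, C, ⟨hA, hC⟩, rfl⟩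
    · rintro (((⟨A, C, ⟨hA, hC⟩, rfl⟩ | ⟨A, C, ⟨hA, hC⟩, rfl⟩) | ⟨A, C, ⟨hA, hC⟩, rfl⟩) | ⟨A, C, ⟨hA, hC⟩, rfl⟩)
      · exact Or.inl ⟨A, hA, C, hC, Or.inl rfl⟩
      · exact Or.inl ⟨A, hA, C, hC, Or.inr rfl⟩
      · exact Or.inr (Or.inl ⟨A, hA, C, hC, rfl⟩)
      · exact Or.inr (Or.inr ⟨A, hA, C, hC, rfl⟩)
  have hAd : ∀ A, A ∈ A1 → A ∈ A0 → False := fun A h1 h0 => Finset.disjoint_left.1 h.hA h1 h0
  have hCd : ∀ C, C ∈ C1 → C ∈ C0 → False := fun C h1 h0 => Finset.disjoint_left.1 h.hC h1 h0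
  have d1 : Disjoint ((A1 ×ˢ C1).image (fun p => gp p.1 p.2)) ((A1 ×ˢ C1).image (fun p => gm p.1 p.2)) := by
    rw [Finset.disjoint_left]
    intro x hx hx'
    obtain ⟨⟨A, C⟩, hp, rfl⟩ := mem_image.1 hx
    obtain ⟨⟨A', C'⟩, hp', e⟩ := mem_image.1 hx'
    obtain ⟨hA, hC⟩ := mem_product.1 hp
    obtain ⟨hA', hC'⟩ := mem_product.1 hp'
    simp only at hA hC hA' hC' e
    obtain ⟨a1, c1, a2, c2, ne, -, -⟩ := h.h11 A hA C hC
    obtain ⟨a1', c1', a2', c2', ne', -, -⟩ := h.h11 A' hA' C' hC'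
    have eA : A' = A := by rw [← a2', e, a1]
    have eC : C' = C := by rw [← c2', e, c1]
    subst eA eC
    exact ne e.symm
  have d2 : Disjoint ((A1 ×ˢ C1).image (fun p => gp p.1 p.2) ∪ (A1 ×ˢ C1).image (fun p => gm p.1 p.2))
      ((A1 ×ˢ C0).image (fun p => gp p.1 p.2)) := by
    rw [Finset.disjoint_left]
    intro x hx hx'
    obtain ⟨⟨A', C'⟩, hp', rfl⟩ := mem_image.1 hx'
    obtain ⟨hA', hC'⟩ := mem_product.1 hp'
    simp only at hA' hC'
    have c3 := (h.h10 A' hA' C' hC').2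
    rcases mem_union.1 hx with hx | hx
    · obtain ⟨⟨A, C⟩, hp, e⟩ := mem_image.1 hx
      obtain ⟨hA, hC⟩ := mem_product.1 hp
      simp only at hA hC e
      obtain ⟨a1, c1, a2, c2, -, -, -⟩ := h.h11 A hA C hC
      have eC : C = C' := by rw [← c1, e, c3]
      subst eC
      exact hCd _ hC hC'
    · obtain ⟨⟨A, C⟩, hp, e⟩ := mem_image.1 hx
      obtain ⟨hA, hC⟩ := mem_product.1 hp
      simp only at hA hC e
      obtain ⟨a1, c1, a2, c2, -, -, -⟩ := h.h11 A hA C hC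
      have eC : C = C' := by rw [← c2, e, c3]
      subst eC
      exact hCd _ hC hC'
  have d3 : Disjoint ((A1 ×ˢ C1).image (fun p => gp p.1 p.2) ∪ (A1 ×ˢ C1).image (fun p => gm p.1 p.2)
      ∪ (A1 ×ˢ C0).image (fun p => gp p.1 p.2)) ((A0 ×ˢ C1).image (fun p => gp p.1 p.2)) := by
    rw [Finset.disjoint_left]
    intro x hx hx'
    obtain ⟨⟨A', C'⟩, hp', rfl⟩ := mem_image.1 hx'
    obtain ⟨hA', hC'⟩ := mem_product.1 hp'
    simp only at hA' hC'
    have c3 := (h.h01 A' hA' C' hC').1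
    have c4 := (h.h01 A' hA' C' hC').2
    rcases mem_union.1 hx with hx | hx
    · rcases mem_union.1 hx with hx | hx
      · obtain ⟨⟨A, C⟩, hp, e⟩ := mem_image.1 hx
        obtain ⟨hA, hC⟩ := mem_product.1 hp
        simp only at hA hC e
        obtain ⟨a1, c1, a2, c2, -, -, -⟩ := h.h11 A hA C hC
        have eA : A = A' := by rw [← a1, e, c3]
        subst eA
        exact hAd _ hA hA'
      · obtain ⟨⟨A, C⟩, hp, e⟩ := mem_image.1 hx
        obtain ⟨hA, hC⟩ := mem_product.1 hp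
        simp only at hA hC e
        obtain ⟨a1, c1, a2, c2, -, -, -⟩ := h.h11 A hA C hC
        have eA : A = A' := by rw [← a2, e, c3]
        subst eA
        exact hAd _ hA hA'
    · obtain ⟨⟨A, C⟩, hp, e⟩ := mem_image.1 hx
      obtain ⟨hA, hC⟩ := mem_product.1 hp
      simp only at hA hC e
      obtain ⟨a1, c1⟩ := h.h10 A hA C hC
      have eA : A = A' := by rw [← a1, e, c3]
      subst eA
      exact hAd _ hA hA'
  have i1 : Set.InjOn (fun p : β × γ => gp p.1 p.2) (A1 ×ˢ C1 : Finset (β × γ)) := by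
    rintro ⟨A, C⟩ hp ⟨A', C'⟩ hp' e
    obtain ⟨hA, hC⟩ := mem_product.1 hp
    obtain ⟨hA', hC'⟩ := mem_product.1 hp'
    simp only at hA hC hA' hC' e
    obtain ⟨a1, c1, -⟩ := h.h11 A hA C hC
    obtain ⟨a1', c1', -⟩ := h.h11 A' hA' C' hC'
    rw [Prod.mk.injEq]
    exact ⟨by rw [← a1, e, a1'], by rw [← c1, e, c1']⟩
  have i2 : Set.InjOn (fun p : β × γ => gm p.1 p.2) (A1 ×ˢ C1 : Finset (β × γ)) := by
    rintro ⟨A, C⟩ hp ⟨A', C'⟩ hp' e
    obtain ⟨hA, hC⟩ := mem_product.1 hp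
    obtain ⟨hA', hC'⟩ := mem_product.1 hp'
    simp only at hA hC hA' hC' e
    obtain ⟨-, -, a1, c1, -⟩ := h.h11 A hA C hC
    obtain ⟨-, -, a1', c1', -⟩ := h.h11 A' hA' C' hC'
    rw [Prod.mk.injEq]
    exact ⟨by rw [← a1, e, a1'], by rw [← c1, e, c1']⟩
  have i3 : Set.InjOn (fun p : β × γ => gp p.1 p.2) (A1 ×ˢ C0 : Finset (β × γ)) := by
    rintro ⟨A, C⟩ hp ⟨A', C'⟩ hp' e
    obtain ⟨hA, hC⟩ := mem_product.1 hp
    obtain ⟨hA', hC'⟩ := mem_product.1 hp'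
    simp only at hA hC hA' hC' e
    obtain ⟨a1, c1⟩ := h.h10 A hA C hC
    obtain ⟨a1', c1'⟩ := h.h10 A' hA' C' hC'
    rw [Prod.mk.injEq]
    exact ⟨by rw [← a1, e, a1'], by rw [← c1, e, c1']⟩
  have i4 : Set.InjOn (fun p : β × γ => gp p.1 p.2) (A0 ×ˢ C1 : Finset (β × γ)) := by
    rintro ⟨A, C⟩ hp ⟨A', C'⟩ hp' e
    obtain ⟨hA, hC⟩ := mem_product.1 hp
    obtain ⟨hA', hC'⟩ := mem_product.1 hp'
    simp only at hA hC hA' hC' e
    obtain ⟨a1, c1⟩ := h.h01 A hA C hC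
    obtain ⟨a1', c1'⟩ := h.h01 A' hA' C' hC'
    rw [Prod.mk.injEq]
    exact ⟨by rw [← a1, e, a1'], by rw [← c1, e, c1']⟩
  rw [hK, Finset.sum_union d3, Finset.sum_union d2, Finset.sum_union d1, Finset.sum_image i1,
    Finset.sum_image i2, Finset.sum_image i3, Finset.sum_image i4, Finset.sum_product,
    Finset.sum_product, Finset.sum_product, Finset.sum_product]
  simp only [Finset.sum_add_distrib]

/-- Swap the roles of the two coordinates. -/
theorem swap (h : CrossShape K aa cc Y fl A1 A0 C1 C0 gp gm) :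
    CrossShape K cc aa Y fl C1 C0 A1 A0 (fun C A => gp A C) (fun C A => gm A C) where
  hA := h.hC
  hC := h.hA
  h11 := fun C hC A hA => by
    obtain ⟨a, b, c, d, e, f, g⟩ := h.h11 A hA C hC
    exact ⟨b, a, d, c, e, f, g⟩
  h10 := fun C hC A hA => by
    obtain ⟨a, b⟩ := h.h01 A hA C hC
    exact ⟨b, a⟩
  h01 := fun C hC A hA => by
    obtain ⟨a, b⟩ := h.h10 A hA C hC
    exact ⟨b, a⟩
  mem_K := fun x => by
    rw [h.mem_K]
    constructor
    · rintro (⟨A, hA, C, hC, e⟩ | ⟨A, hA, C, hC, e⟩ | ⟨A, hA, C, hC, e⟩)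
      · exact Or.inl ⟨C, hC, A, hA, e⟩
      · exact Or.inr (Or.inr ⟨C, hC, A, hA, e⟩)
      · exact Or.inr (Or.inl ⟨C, hC, A, hA, e⟩)
    · rintro (⟨C, hC, A, hA, e⟩ | ⟨C, hC, A, hA, e⟩ | ⟨C, hC, A, hA, e⟩)
      · exact Or.inl ⟨A, hA, C, hC, e⟩
      · exact Or.inr (Or.inr ⟨A, hA, C, hC, e⟩)
      · exact Or.inr (Or.inl ⟨A, hA, C, hC, e⟩)
  Y_iff := fun x hx => by
    rw [h.Y_iff x hx, and_comm]

/-- Fibre sum of `cc` over a double column. -/
theorem fib_cc1 (h : CrossShape K aa cc Y fl A1 A0 C1 C0 gp gm) (F : α → ℝ) {C : γ} (hC : C ∈ C1) :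
    ∑ x ∈ K.filter (fun y => cc y = C), F x
      = ∑ A ∈ A1, (F (gp A C) + F (gm A C)) + ∑ A ∈ A0, F (gp A C) := by
  have hCd : C ∉ C0 := fun h0 => Finset.disjoint_left.1 h.hC hC h0
  rw [Finset.sum_filter, h.sum_K]
  have t1 : ∑ A ∈ A1, ∑ C' ∈ C1, ((if cc (gp A C') = C then F (gp A C') else 0)
      + (if cc (gm A C') = C then F (gm A C') else 0)) = ∑ A ∈ A1, (F (gp A C) + F (gm A C)) := by
    refine Finset.sum_congr rfl fun A hA => ?_
    have : ∀ C' ∈ C1, ((if cc (gp A C') = C then F (gp A C') else 0)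
      + (if cc (gm A C') = C then F (gm A C') else 0))
        = if C' = C then F (gp A C') + F (gm A C') else 0 := by
      intro C' hC'
      obtain ⟨-, c1, -, c2, -⟩ := h.h11 A hA C' hC'
      rw [c1, c2]
      by_cases hh : C' = C <;> simp [hh]
    rw [Finset.sum_congr rfl this, Finset.sum_ite_eq', if_pos hC]
  have t2 : ∑ A ∈ A1, ∑ C' ∈ C0, (if cc (gp A C') = C then F (gp A C') else 0) = 0 := by
    refine Finset.sum_eq_zero fun A hA => Finset.sum_eq_zero fun C' hC' => ?_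
    rw [(h.h10 A hA C' hC').2, if_neg]
    rintro rfl
    exact hCd hC'
  have t3 : ∑ A ∈ A0, ∑ C' ∈ C1, (if cc (gp A C') = C then F (gp A C') else 0)
      = ∑ A ∈ A0, F (gp A C) := by
    refine Finset.sum_congr rfl fun A hA => ?_
    have : ∀ C' ∈ C1, (if cc (gp A C') = C then F (gp A C') else 0)
        = if C' = C then F (gp A C') else 0 := by
      intro C' hC'
      rw [(h.h01 A hA C' hC').2]
    rw [Finset.sum_congr rfl this, Finset.sum_ite_eq', if_pos hC]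
  rw [t1, t2, t3, add_zero]

/-- Fibre sum of `cc` over a simple column. -/
theorem fib_cc0 (h : CrossShape K aa cc Y fl A1 A0 C1 C0 gp gm) (F : α → ℝ) {C : γ} (hC : C ∈ C0) :
    ∑ x ∈ K.filter (fun y => cc y = C), F x = ∑ A ∈ A1, F (gp A C) := by
  have hCd : C ∉ C1 := fun h1 => Finset.disjoint_left.1 h.hC h1 hC
  rw [Finset.sum_filter, h.sum_K]
  have t1 : ∑ A ∈ A1, ∑ C' ∈ C1, ((if cc (gp A C') = C then F (gp A C') else 0)
      + (if cc (gm A C') = C then F (gm A C') else 0)) = 0 := by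
    refine Finset.sum_eq_zero fun A hA => Finset.sum_eq_zero fun C' hC' => ?_
    obtain ⟨-, c1, -, c2, -⟩ := h.h11 A hA C' hC'
    rw [c1, c2, if_neg, if_neg, add_zero]
    all_goals
      rintro rfl
      exact hCd hC'
  have t2 : ∑ A ∈ A1, ∑ C' ∈ C0, (if cc (gp A C') = C then F (gp A C') else 0)
      = ∑ A ∈ A1, F (gp A C) := by
    refine Finset.sum_congr rfl fun A hA => ?_
    have : ∀ C' ∈ C0, (if cc (gp A C') = C then F (gp A C') else 0)
        = if C' = C then F (gp A C') else 0 := by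
      intro C' hC'
      rw [(h.h10 A hA C' hC').2]
    rw [Finset.sum_congr rfl this, Finset.sum_ite_eq', if_pos hC]
  have t3 : ∑ A ∈ A0, ∑ C' ∈ C1, (if cc (gp A C') = C then F (gp A C') else 0) = 0 := by
    refine Finset.sum_eq_zero fun A hA => Finset.sum_eq_zero fun C' hC' => ?_
    rw [(h.h01 A hA C' hC').2, if_neg]
    rintro rfl
    exact hCd hC'
  rw [t1, t2, t3, zero_add, add_zero]

/-- Membership in `Y` through the parametrization. -/
theorem Y_gp11 (h : CrossShape K aa cc Y fl A1 A0 C1 C0 gp gm) {A : β} {C : γ} (hA : A ∈ A1)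
    (hC : C ∈ C1) : gp A C ∈ K ∧ Y (gp A C) := by
  have hm : gp A C ∈ K := (h.mem_K _).2 (Or.inl ⟨A, hA, C, hC, Or.inl rfl⟩)
  obtain ⟨a1, c1, -⟩ := h.h11 A hA C hC
  exact ⟨hm, (h.Y_iff _ hm).2 (by rw [a1, c1]; exact ⟨hA, hC⟩)⟩

theorem Y_gm11 (h : CrossShape K aa cc Y fl A1 A0 C1 C0 gp gm) {A : β} {C : γ} (hA : A ∈ A1)
    (hC : C ∈ C1) : gm A C ∈ K ∧ Y (gm A C) := by
  have hm : gm A C ∈ K := (h.mem_K _).2 (Or.inl ⟨A, hA, C, hC, Or.inr rfl⟩)
  obtain ⟨-, -, a1, c1, -⟩ := h.h11 A hA C hC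
  exact ⟨hm, (h.Y_iff _ hm).2 (by rw [a1, c1]; exact ⟨hA, hC⟩)⟩

theorem notY_gp10 (h : CrossShape K aa cc Y fl A1 A0 C1 C0 gp gm) {A : β} {C : γ} (hA : A ∈ A1)
    (hC : C ∈ C0) : ¬ Y (gp A C) := by
  have hm : gp A C ∈ K := (h.mem_K _).2 (Or.inr (Or.inl ⟨A, hA, C, hC, rfl⟩))
  obtain ⟨a1, c1⟩ := h.h10 A hA C hC
  rw [h.Y_iff _ hm, a1, c1]
  exact fun h' => Finset.disjoint_left.1 h.hC h'.2 hC

theorem notY_gp01 (h : CrossShape K aa cc Y fl A1 A0 C1 C0 gp gm) {A : β} {C : γ} (hA : A ∈ A0)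
    (hC : C ∈ C1) : ¬ Y (gp A C) := by
  have hm : gp A C ∈ K := (h.mem_K _).2 (Or.inr (Or.inr ⟨A, hA, C, hC, rfl⟩))
  obtain ⟨a1, c1⟩ := h.h01 A hA C hC
  rw [h.Y_iff _ hm, a1, c1]
  exact fun h' => Finset.disjoint_left.1 h.hA h'.1 hA

/-- Sum over the double part. -/
theorem sum_Y (h : CrossShape K aa cc Y fl A1 A0 C1 C0 gp gm) (F : α → ℝ) :
    ∑ x ∈ K.filter Y, F x = ∑ A ∈ A1, ∑ C ∈ C1, (F (gp A C) + F (gm A C)) := by
  rw [Finset.sum_filter, h.sum_K]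
  have t1 : ∑ A ∈ A1, ∑ C ∈ C1, ((if Y (gp A C) then F (gp A C) else 0)
      + (if Y (gm A C) then F (gm A C) else 0))
      = ∑ A ∈ A1, ∑ C ∈ C1, (F (gp A C) + F (gm A C)) := by
    refine Finset.sum_congr rfl fun A hA => Finset.sum_congr rfl fun C hC => ?_
    rw [if_pos (h.Y_gp11 hA hC).2, if_pos (h.Y_gm11 hA hC).2]
  have t2 : ∑ A ∈ A1, ∑ C ∈ C0, (if Y (gp A C) then F (gp A C) else 0) = 0 := by
    refine Finset.sum_eq_zero fun A hA => Finset.sum_eq_zero fun C hC => ?_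
    rw [if_neg (h.notY_gp10 hA hC)]
  have t3 : ∑ A ∈ A0, ∑ C ∈ C1, (if Y (gp A C) then F (gp A C) else 0) = 0 := by
    refine Finset.sum_eq_zero fun A hA => Finset.sum_eq_zero fun C hC => ?_
    rw [if_neg (h.notY_gp01 hA hC)]
  rw [t1, t2, t3, add_zero, add_zero]

/-- Fibre of `cc` inside the double part. -/
theorem yfib_cc1 (h : CrossShape K aa cc Y fl A1 A0 C1 C0 gp gm) (F : α → ℝ) {C : γ} (hC : C ∈ C1) :
    ∑ x ∈ (K.filter Y).filter (fun y => cc y = C), F x = ∑ A ∈ A1, (F (gp A C) + F (gm A C)) := by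
  rw [Finset.sum_filter, h.sum_Y]
  refine Finset.sum_congr rfl fun A hA => ?_
  have : ∀ C' ∈ C1, ((if cc (gp A C') = C then F (gp A C') else 0)
      + (if cc (gm A C') = C then F (gm A C') else 0))
        = if C' = C then F (gp A C') + F (gm A C') else 0 := by
    intro C' hC'
    obtain ⟨-, c1, -, c2, -⟩ := h.h11 A hA C' hC'
    rw [c1, c2]
    by_cases hh : C' = C <;> simp [hh]
  rw [Finset.sum_congr rfl this, Finset.sum_ite_eq', if_pos hC]

end CrossShape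

end SplitAbsReduction

section SplitAbsMain
variable {α β γ : Type*}
variable {K : Finset α} {aa : α → β} {cc : α → γ} {Y : α → Prop} {fl : α → α}
    {A1 A0 : Finset β} {C1 C0 : Finset γ} {gp gm : β → γ → α}

/-- Conclusion of Part A on one class. -/
theorem split_abstract
    (h : CrossShape K aa cc Y fl A1 A0 C1 C0 gp gm) (f : α → ℝ) :
    (1 / 2) * (∑ x ∈ K.filter Y, (f x - f (fl x)) ^ 2)
      - (∑ x ∈ K.filter Y,
          (meanOn ((K.filter Y).filter fun y => cc y = cc x) f - meanOn (K.filter fun y => cc y = cc x) f) ^ 2)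
      - (∑ x ∈ K.filter Y,
          (meanOn ((K.filter Y).filter fun y => aa y = aa x) f - meanOn (K.filter fun y => aa y = aa x) f) ^ 2)
    ≤ 2 * ∑ x ∈ K, (f x - meanOn (K.filter fun y => cc y = cc x) f)
                    * (f x - meanOn (K.filter fun y => aa y = aa x) f) := by
  set hh : β → γ → ℝ := fun A C => (f (gp A C) + f (gm A C)) / 2 with hhdef
  set s : β → γ → ℝ := fun A C => f (gp A C) with sdef
  have key := SplitSOS.sos_main A1 A0 C1 C0 hh s s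
  set p : ℝ := (A1.card : ℝ) with hp
  set p0 : ℝ := (A0.card : ℝ) with hp0
  set q : ℝ := (C1.card : ℝ) with hq
  set q0 : ℝ := (C0.card : ℝ) with hq0
  -- cards
  have cardsum : ∀ S : Finset α, (S.card : ℝ) = ∑ x ∈ S, (1 : ℝ) := by
    intro S; simp
  have sumA1 : ∀ (C : γ), ∑ A ∈ A1, (f (gp A C) + f (gm A C)) = 2 * ∑ A ∈ A1, hh A C := by
    intro C
    rw [Finset.mul_sum]
    refine Finset.sum_congr rfl fun A _ => ?_
    simp only [hhdef]; ring
  have sumC1 : ∀ (A : β), ∑ C ∈ C1, (f (gp A C) + f (gm A C)) = 2 * ∑ C ∈ C1, hh A C := by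
    intro A
    rw [Finset.mul_sum]
    refine Finset.sum_congr rfl fun C _ => ?_
    simp only [hhdef]; ring
  have ones : ∀ (T : Finset β), ∑ _A ∈ T, ((1 : ℝ) + 1) = 2 * (T.card : ℝ) := by
    intro T; simp; ring
  have ones' : ∀ (T : Finset γ), ∑ _C ∈ T, ((1 : ℝ) + 1) = 2 * (T.card : ℝ) := by
    intro T; simp; ring
  have mC1 : ∀ C ∈ C1, meanOn (K.filter fun y => cc y = C) f
      = (2 * ∑ A' ∈ A1, hh A' C + ∑ A' ∈ A0, s A' C) / (2 * p + p0) := by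
    intro C hC
    unfold meanOn
    rw [cardsum, h.fib_cc1 f hC, h.fib_cc1 (fun _ => 1) hC, sumA1, ones]
    simp [hp, hp0, sdef]
  have mC0 : ∀ C ∈ C0, meanOn (K.filter fun y => cc y = C) f
      = (∑ A' ∈ A1, s A' C) / p := by
    intro C hC
    unfold meanOn
    rw [cardsum, h.fib_cc0 f hC, h.fib_cc0 (fun _ => 1) hC]
    simp [hp, sdef]
  have mA1 : ∀ A ∈ A1, meanOn (K.filter fun y => aa y = A) f
      = (2 * ∑ C' ∈ C1, hh A C' + ∑ C' ∈ C0, s A C') / (2 * q + q0) := by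
    intro A hA
    unfold meanOn
    rw [cardsum, h.swap.fib_cc1 f hA, h.swap.fib_cc1 (fun _ => 1) hA, sumC1, ones']
    simp [hq, hq0, sdef]
  have mA0 : ∀ A ∈ A0, meanOn (K.filter fun y => aa y = A) f
      = (∑ C' ∈ C1, s A C') / q := by
    intro A hA
    unfold meanOn
    rw [cardsum, h.swap.fib_cc0 f hA, h.swap.fib_cc0 (fun _ => 1) hA]
    simp [hq, sdef]
  have yC : ∀ C ∈ C1, meanOn ((K.filter Y).filter fun y => cc y = C) f
      = (∑ A' ∈ A1, hh A' C) / p := by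
    intro C hC
    unfold meanOn
    rw [cardsum, h.yfib_cc1 f hC, h.yfib_cc1 (fun _ => 1) hC, sumA1, ones]
    rw [mul_div_mul_left _ _ (two_ne_zero)]
  have yA : ∀ A ∈ A1, meanOn ((K.filter Y).filter fun y => aa y = A) f
      = (∑ C' ∈ C1, hh A C') / q := by
    intro A hA
    unfold meanOn
    rw [cardsum, h.swap.yfib_cc1 f hA, h.swap.yfib_cc1 (fun _ => 1) hA, sumC1, ones']
    rw [mul_div_mul_left _ _ (two_ne_zero)]
  -- abbreviations of the four values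
  set MC : γ → ℝ := fun C => (2 * ∑ A' ∈ A1, hh A' C + ∑ A' ∈ A0, s A' C) / (2 * p + p0) with hMC
  set MA : β → ℝ := fun A => (2 * ∑ C' ∈ C1, hh A C' + ∑ C' ∈ C0, s A C') / (2 * q + q0) with hMA
  set phi1 : γ → ℝ := fun C => (∑ A' ∈ A1, hh A' C) / p - MC C with hphi1
  set phi2 : β → ℝ := fun A => (∑ C' ∈ C1, hh A C') / q - MA A with hphi2
  -- first sum
  have e1 : ∑ x ∈ K.filter Y, (f x - f (fl x)) ^ 2
      = ∑ A ∈ A1, ∑ C ∈ C1, (2 * (f (gp A C) - f (gm A C)) ^ 2) := by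
    rw [h.sum_Y]
    refine Finset.sum_congr rfl fun A hA => Finset.sum_congr rfl fun C hC => ?_
    obtain ⟨-, -, -, -, -, f1, f2⟩ := h.h11 A hA C hC
    rw [f1, f2]
    ring
  have e2 : ∑ x ∈ K.filter Y,
      (meanOn ((K.filter Y).filter fun y => cc y = cc x) f - meanOn (K.filter fun y => cc y = cc x) f) ^ 2
      = ∑ A ∈ A1, ∑ C ∈ C1, (2 * phi1 C ^ 2) := by
    rw [h.sum_Y]
    refine Finset.sum_congr rfl fun A hA => Finset.sum_congr rfl fun C hC => ?_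
    obtain ⟨a1, c1, a2, c2, -⟩ := h.h11 A hA C hC
    simp only [c1, c2]
    rw [yC C hC, mC1 C hC]
    simp only [hphi1, hMC]
    ring
  have e3 : ∑ x ∈ K.filter Y,
      (meanOn ((K.filter Y).filter fun y => aa y = aa x) f - meanOn (K.filter fun y => aa y = aa x) f) ^ 2
      = ∑ A ∈ A1, ∑ C ∈ C1, (2 * phi2 A ^ 2) := by
    rw [h.sum_Y]
    refine Finset.sum_congr rfl fun A hA => Finset.sum_congr rfl fun C hC => ?_
    obtain ⟨a1, c1, a2, c2, -⟩ := h.h11 A hA C hC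
    simp only [a1, a2]
    rw [yA A hA, mA1 A hA]
    simp only [hphi2, hMA]
    ring
  have e4 : ∑ x ∈ K, (f x - meanOn (K.filter fun y => cc y = cc x) f)
                    * (f x - meanOn (K.filter fun y => aa y = aa x) f)
      = ∑ A ∈ A1, ∑ C ∈ C1, (2 * ((hh A C - MC C) * (hh A C - MA A))
          + (1 / 2) * (f (gp A C) - f (gm A C)) ^ 2)
        + ∑ A ∈ A1, ∑ C ∈ C0, (s A C - (∑ A' ∈ A1, s A' C) / p) * (s A C - MA A)
        + ∑ A ∈ A0, ∑ C ∈ C1, (s A C - MC C) * (s A C - (∑ C' ∈ C1, s A C') / q) := by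
    rw [h.sum_K]
    have t1 : ∀ A ∈ A1, ∀ C ∈ C1,
        (f (gp A C) - meanOn (K.filter fun y => cc y = cc (gp A C)) f)
            * (f (gp A C) - meanOn (K.filter fun y => aa y = aa (gp A C)) f)
          + (f (gm A C) - meanOn (K.filter fun y => cc y = cc (gm A C)) f)
            * (f (gm A C) - meanOn (K.filter fun y => aa y = aa (gm A C)) f)
        = 2 * ((hh A C - MC C) * (hh A C - MA A)) + (1 / 2) * (f (gp A C) - f (gm A C)) ^ 2 := by
      intro A hA C hC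
      obtain ⟨a1, c1, a2, c2, -⟩ := h.h11 A hA C hC
      simp only [a1, a2, c1, c2]
      rw [mC1 C hC, mA1 A hA]
      simp only [hhdef]
      ring
    have t2 : ∀ A ∈ A1, ∀ C ∈ C0,
        (f (gp A C) - meanOn (K.filter fun y => cc y = cc (gp A C)) f)
            * (f (gp A C) - meanOn (K.filter fun y => aa y = aa (gp A C)) f)
        = (s A C - (∑ A' ∈ A1, s A' C) / p) * (s A C - MA A) := by
      intro A hA C hC
      obtain ⟨a1, c1⟩ := h.h10 A hA C hC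
      simp only [a1, c1]
      rw [mC0 C hC, mA1 A hA]
    have t3 : ∀ A ∈ A0, ∀ C ∈ C1,
        (f (gp A C) - meanOn (K.filter fun y => cc y = cc (gp A C)) f)
            * (f (gp A C) - meanOn (K.filter fun y => aa y = aa (gp A C)) f)
        = (s A C - MC C) * (s A C - (∑ C' ∈ C1, s A C') / q) := by
      intro A hA C hC
      obtain ⟨a1, c1⟩ := h.h01 A hA C hC
      simp only [a1, c1]
      rw [mC1 C hC, mA0 A hA]
    rw [Finset.sum_congr rfl fun A hA => Finset.sum_congr rfl fun C hC => t1 A hA C hC,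
      Finset.sum_congr rfl fun A hA => Finset.sum_congr rfl fun C hC => t2 A hA C hC,
      Finset.sum_congr rfl fun A hA => Finset.sum_congr rfl fun C hC => t3 A hA C hC]
  rw [e1, e2, e3, e4]
  -- now pure algebra with `key`
  set X : ℝ := ∑ A ∈ A1, ∑ C ∈ C1, (f (gp A C) - f (gm A C)) ^ 2 with hX
  have x1 : ∑ A ∈ A1, ∑ C ∈ C1, (2 * (f (gp A C) - f (gm A C)) ^ 2) = 2 * X := by
    simp only [hX, Finset.mul_sum]
  have x2 : ∑ A ∈ A1, ∑ C ∈ C1, (2 * ((hh A C - MC C) * (hh A C - MA A))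
          + (1 / 2) * (f (gp A C) - f (gm A C)) ^ 2)
      = 2 * ∑ A ∈ A1, ∑ C ∈ C1, ((hh A C - MC C) * (hh A C - MA A)) + (1 / 2) * X := by
    simp only [hX, Finset.mul_sum, Finset.sum_add_distrib]
  have x3 : ∑ A ∈ A1, ∑ C ∈ C1, (2 * phi1 C ^ 2) + ∑ A ∈ A1, ∑ C ∈ C1, (2 * phi2 A ^ 2)
      + 4 * ∑ A ∈ A1, ∑ C ∈ C1, (phi1 C * phi2 A)
      = 2 * ∑ A ∈ A1, ∑ C ∈ C1, (phi1 C + phi2 A) ^ 2 := by
    simp only [Finset.mul_sum, ← Finset.sum_add_distrib]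
    refine Finset.sum_congr rfl fun A _ => Finset.sum_congr rfl fun C _ => ?_
    ring
  have x4 : 0 ≤ ∑ A ∈ A1, ∑ C ∈ C1, (phi1 C + phi2 A) ^ 2 :=
    Finset.sum_nonneg fun A _ => Finset.sum_nonneg fun C _ => sq_nonneg _
  rw [x1, x2]
  have key' : 2 * ∑ A ∈ A1, ∑ C ∈ C1, (phi1 C * phi2 A)
      ≤ 2 * ∑ A ∈ A1, ∑ C ∈ C1, ((hh A C - MC C) * (hh A C - MA A))
        + ∑ A ∈ A1, ∑ C ∈ C0, (s A C - (∑ A' ∈ A1, s A' C) / p) * (s A C - MA A)
        + ∑ A ∈ A0, ∑ C ∈ C1, (s A C - MC C) * (s A C - (∑ C' ∈ C1, s A C') / q) := key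
  nlinarith [key', x3, x4]

end SplitAbsMain

end Crest.Agent.Switch
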