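/-
S0453 C5a: definitions for the graph side of Part A (split lemma).
-/
import Crest.Agent.Lib.Switch.Basic

set_option autoImplicit false

namespace Crest.Agent.Switch.Split

open Finset Crest.SwitchChain
open scoped Classical

variable {n : ℕ} (a b c e : Fin n)

/-- `w` avoids the four vertices. -/
def off (w : Fin n) : Prop := w ≠ a ∧ w ≠ b ∧ w ≠ c ∧ w ≠ e

/-- Neighbours of `x` among the `off` vertices. -/
noncomputable def nbr (G : Finset (Edge n)) (x : Fin n) : Finset (Fin n) :=
  univ.filter fun w => off a b c e w ∧ adj G x w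

/-- The `A` coordinate of `G`. -/
noncomputable def aa (G : Finset (Edge n)) : Finset (Fin n) × Finset (Fin n) :=
  (nbr a b c e G a, nbr a b c e G b)

/-- The `C` coordinate of `G`. -/
noncomputable def cc (G : Finset (Edge n)) : Finset (Fin n) × Finset (Fin n) :=
  (nbr a b c e G c, nbr a b c e G e)

/-- The `A`-profile. -/
noncomputable def prof (G : Finset (Edge n)) (w : Fin n) : ℕ :=
  (if adj G a w then 1 else 0) + (if adj G b w then 1 else 0)

/-- The class relation: same `R` slots and same `A`-profile. -/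
def Kc (G H : Finset (Edge n)) : Prop :=
  (adj G a b ↔ adj H a b) ∧ (adj G c e ↔ adj H c e) ∧
    (∀ u v, off a b c e u → off a b c e v → (adj G u v ↔ adj H u v)) ∧
    ∀ w, off a b c e w → prof a b G w = prof a b H w

variable {a b c e}

theorem Kc_refl (G : Finset (Edge n)) : Kc a b c e G G :=
  ⟨Iff.rfl, Iff.rfl, fun _ _ _ _ => Iff.rfl, fun _ _ => rfl⟩

theorem Kc_symm {G H : Finset (Edge n)} (h : Kc a b c e G H) : Kc a b c e H G :=
  ⟨h.1.symm, h.2.1.symm, fun u v hu hv => (h.2.2.1 u v hu hv).symm, fun w hw => (h.2.2.2 w hw).symm⟩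

theorem Kc_trans {G H K : Finset (Edge n)} (h : Kc a b c e G H) (h' : Kc a b c e H K) :
    Kc a b c e G K :=
  ⟨h.1.trans h'.1, h.2.1.trans h'.2.1, fun u v hu hv => (h.2.2.1 u v hu hv).trans (h'.2.2.1 u v hu hv),
    fun w hw => (h.2.2.2 w hw).trans (h'.2.2.2 w hw)⟩

end Crest.Agent.Switch.Split
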