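/-
S0453 C5a: on a class of `Kc`, the `(a,b)`-blocks are the fibres of `cc`, the `(c,e)`-blocks are the
fibres of `aa`.
-/
import Crest.Agent.Lib.Switch.SplitDefs

set_option autoImplicit false
set_option linter.unusedSectionVars false
set_option linter.unusedSimpArgs false
set_option linter.unusedVariables false

namespace Crest.Agent.Switch.Split

open Finset Crest.SwitchChain
open scoped Classical

variable {n : ℕ} {a b c e : Fin n}

theorem ysplit_comm (G : Finset (Edge n)) : Ysplit c e a b G ↔ Ysplit a b c e G := by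
  unfold Ysplit
  rw [adj_comm G c a, adj_comm G e b, adj_comm G c b, adj_comm G e a]
  constructor
  · rintro (⟨h1, h2, h3, h4⟩ | ⟨h1, h2, h3, h4⟩)
    · exact Or.inl ⟨h1, h2, h4, h3⟩
    · exact Or.inr ⟨h2, h1, h3, h4⟩
  · rintro (⟨h1, h2, h3, h4⟩ | ⟨h1, h2, h3, h4⟩)
    · exact Or.inl ⟨h1, h2, h4, h3⟩
    · exact Or.inr ⟨h2, h1, h3, h4⟩

theorem vertex_cases (u : Fin n) : off a b c e u ∨ u = a ∨ u = b ∨ u = c ∨ u = e := by
  unfold off
  by_cases h1 : u = a
  · exact Or.inr (Or.inl h1)
  by_cases h2 : u = b
  · exact Or.inr (Or.inr (Or.inl h2))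
  by_cases h3 : u = c
  · exact Or.inr (Or.inr (Or.inr (Or.inl h3)))
  by_cases h4 : u = e
  · exact Or.inr (Or.inr (Or.inr (Or.inr h4)))
  exact Or.inl ⟨h1, h2, h3, h4⟩

/-- Degree of an outside vertex. -/
theorem deg_off_split (hab : a ≠ b) (hac : a ≠ c) (hae : a ≠ e) (hbc : b ≠ c) (hbe : b ≠ e)
    (hce : c ≠ e) (G : Finset (Edge n)) {w : Fin n} (hw : off a b c e w) :
    deg G w = prof a b G w + (if adj G c w then 1 else 0) + (if adj G e w then 1 else 0)
      + (univ.filter fun u => off a b c e u ∧ adj G w u).card := by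
  rw [deg_eq_card]
  have h1 : (univ.filter fun u => adj G w u)
      = (({a, b, c, e} : Finset (Fin n)).filter fun u => adj G w u)
        ∪ (univ.filter fun u => off a b c e u ∧ adj G w u) := by
    ext u
    simp only [mem_filter, mem_univ, true_and, mem_union, mem_insert, mem_singleton]
    constructor
    · intro h
      rcases vertex_cases (a := a) (b := b) (c := c) (e := e) u with hu | hu
      · exact Or.inr ⟨hu, h⟩
      · exact Or.inl ⟨hu, h⟩
    · rintro (h | h)
      · exact h.2
      · exact h.2
  have h2 : Disjoint (({a, b, c, e} : Finset (Fin n)).filter fun u => adj G w u)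
      (univ.filter fun u => off a b c e u ∧ adj G w u) := by
    rw [Finset.disjoint_left]
    intro u hu hu'
    obtain ⟨hu1, -⟩ := mem_filter.1 hu
    obtain ⟨-, ⟨h3, h4, h5, h6⟩, -⟩ := mem_filter.1 hu'
    simp only [mem_insert, mem_singleton] at hu1
    rcases hu1 with rfl | rfl | rfl | rfl <;> simp_all
  rw [h1, card_union_of_disjoint h2, Finset.card_filter, Finset.sum_insert, Finset.sum_insert,
    Finset.sum_insert, Finset.sum_singleton]
  · simp only [prof, adj_comm G w]
    ring
  · simpa using hce
  · simpa using ⟨hbc, hbe⟩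
  · simpa using ⟨hab, hac, hae⟩

theorem mem_nbr {G : Finset (Edge n)} {x w : Fin n} :
    w ∈ nbr a b c e G x ↔ off a b c e w ∧ adj G x w := by
  simp [nbr]

theorem ne_of_off {w : Fin n} (h : off a b c e w) : w ≠ a ∧ w ≠ b ∧ w ≠ c ∧ w ≠ e := h

/-- The `(a,b)`-block of `H` inside the class. -/
theorem blk_ab (hab : a ≠ b) (hac : a ≠ c) (hae : a ≠ e) (hbc : b ≠ c) (hbe : b ≠ e)
    (hce : c ≠ e) {d : Fin n → ℕ} {G0 H : Finset (Edge n)} (hH : H ∈ realizations d)
    (hK : Kc a b c e G0 H) :
    blk d a b H = ((realizations d).filter (Kc a b c e G0)).filter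
      (fun y => cc a b c e y = cc a b c e H) := by
  ext H'
  simp only [blk, mem_filter]
  constructor
  · rintro ⟨h1, h2, h3⟩
    have hoff : ∀ u v, off a b c e u → off a b c e v → (adj H u v ↔ adj H' u v) := fun u v hu hv =>
      h3 u v hu.1 hu.2.1 hv.1 hv.2.1
    have hcw : ∀ w, off a b c e w → (adj H c w ↔ adj H' c w) := fun w hw =>
      h3 c w hac.symm hbc.symm hw.1 hw.2.1
    have hew : ∀ w, off a b c e w → (adj H e w ↔ adj H' e w) := fun w hw =>
      h3 e w hae.symm hbe.symm hw.1 hw.2.1
    have hk2 : Kc a b c e H H' := by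
      refine ⟨h2, h3 c e hac.symm hbc.symm hae.symm hbe.symm, hoff, ?_⟩
      intro w hw
      have e1 := deg_off_split hab hac hae hbc hbe hce H hw
      have e2 := deg_off_split hab hac hae hbc hbe hce H' hw
      rw [mem_realizations.1 hH] at e1
      rw [mem_realizations.1 h1] at e2
      have e3 : (univ.filter fun u => off a b c e u ∧ adj H w u)
          = (univ.filter fun u => off a b c e u ∧ adj H' w u) := by
        ext u
        simp only [mem_filter, mem_univ, true_and]
        exact and_congr_right fun hu => hoff w u hw hu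
      rw [e3] at e1
      simp only [hcw w hw, hew w hw] at e1
      omega
    refine ⟨⟨h1, Kc_trans hK hk2⟩, ?_⟩
    simp only [cc, Prod.mk.injEq]
    constructor
    · ext w
      simp only [mem_nbr]
      exact and_congr_right fun hw => (hcw w hw).symm
    · ext w
      simp only [mem_nbr]
      exact and_congr_right fun hw => (hew w hw).symm
  · rintro ⟨⟨h1, h2⟩, h3⟩
    have hk2 : Kc a b c e H H' := Kc_trans (Kc_symm hK) h2
    simp only [cc, Prod.mk.injEq] at h3
    have hcw : ∀ w, off a b c e w → (adj H c w ↔ adj H' c w) := by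
      intro w hw
      have := congrArg (fun S => w ∈ S) h3.1
      simp only [mem_nbr, eq_iff_iff] at this
      simpa [hw] using this.symm
    have hew : ∀ w, off a b c e w → (adj H e w ↔ adj H' e w) := by
      intro w hw
      have := congrArg (fun S => w ∈ S) h3.2
      simp only [mem_nbr, eq_iff_iff] at this
      simpa [hw] using this.symm
    refine ⟨h1, hk2.1, ?_⟩
    intro u v hu1 hu2 hv1 hv2
    have cases_u : off a b c e u ∨ u = c ∨ u = e := by
      rcases vertex_cases (a := a) (b := b) (c := c) (e := e) u with h | h | h | h | h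
      · exact Or.inl h
      · exact absurd h hu1
      · exact absurd h hu2
      · exact Or.inr (Or.inl h)
      · exact Or.inr (Or.inr h)
    have cases_v : off a b c e v ∨ v = c ∨ v = e := by
      rcases vertex_cases (a := a) (b := b) (c := c) (e := e) v with h | h | h | h | h
      · exact Or.inl h
      · exact absurd h hv1
      · exact absurd h hv2
      · exact Or.inr (Or.inl h)
      · exact Or.inr (Or.inr h)
    rcases cases_u with hu | rfl | rfl <;> rcases cases_v with hv | rfl | rfl
    · exact hk2.2.2.1 u v hu hv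
    · rw [adj_comm H, adj_comm H']; exact hcw u hu
    · rw [adj_comm H, adj_comm H']; exact hew u hu
    · exact hcw v hv
    · simp [not_adj_self]
    · exact hk2.2.1
    · exact hew v hv
    · rw [adj_comm H, adj_comm H']; exact hk2.2.1
    · simp [not_adj_self]

/-- The `(c,e)`-block of `H` inside the class. -/
theorem blk_ce (hab : a ≠ b) (hac : a ≠ c) (hae : a ≠ e) (hbc : b ≠ c) (hbe : b ≠ e)
    (hce : c ≠ e) {d : Fin n → ℕ} {G0 H : Finset (Edge n)} (hH : H ∈ realizations d)
    (hK : Kc a b c e G0 H) :
    blk d c e H = ((realizations d).filter (Kc a b c e G0)).filter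
      (fun y => aa a b c e y = aa a b c e H) := by
  ext H'
  simp only [blk, mem_filter]
  constructor
  · rintro ⟨h1, h2, h3⟩
    have hoff : ∀ u v, off a b c e u → off a b c e v → (adj H u v ↔ adj H' u v) := fun u v hu hv =>
      h3 u v hu.2.2.1 hu.2.2.2 hv.2.2.1 hv.2.2.2
    have haw : ∀ w, off a b c e w → (adj H a w ↔ adj H' a w) := fun w hw =>
      h3 a w hac hae hw.2.2.1 hw.2.2.2
    have hbw : ∀ w, off a b c e w → (adj H b w ↔ adj H' b w) := fun w hw =>
      h3 b w hbc hbe hw.2.2.1 hw.2.2.2
    have hk2 : Kc a b c e H H' := by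
      refine ⟨h3 a b hac hae hbc hbe, h2, hoff, ?_⟩
      intro w hw
      simp only [prof, haw w hw, hbw w hw]
    refine ⟨⟨h1, Kc_trans hK hk2⟩, ?_⟩
    simp only [aa, Prod.mk.injEq]
    constructor
    · ext w
      simp only [mem_nbr]
      exact and_congr_right fun hw => (haw w hw).symm
    · ext w
      simp only [mem_nbr]
      exact and_congr_right fun hw => (hbw w hw).symm
  · rintro ⟨⟨h1, h2⟩, h3⟩
    have hk2 : Kc a b c e H H' := Kc_trans (Kc_symm hK) h2
    simp only [aa, Prod.mk.injEq] at h3
    have haw : ∀ w, off a b c e w → (adj H a w ↔ adj H' a w) := by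
      intro w hw
      have := congrArg (fun S => w ∈ S) h3.1
      simp only [mem_nbr, eq_iff_iff] at this
      simpa [hw] using this.symm
    have hbw : ∀ w, off a b c e w → (adj H b w ↔ adj H' b w) := by
      intro w hw
      have := congrArg (fun S => w ∈ S) h3.2
      simp only [mem_nbr, eq_iff_iff] at this
      simpa [hw] using this.symm
    refine ⟨h1, hk2.2.1, ?_⟩
    intro u v hu1 hu2 hv1 hv2
    have cases_u : off a b c e u ∨ u = a ∨ u = b := by
      rcases vertex_cases (a := a) (b := b) (c := c) (e := e) u with h | h | h | h | h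
      · exact Or.inl h
      · exact Or.inr (Or.inl h)
      · exact Or.inr (Or.inr h)
      · exact absurd h hu1
      · exact absurd h hu2
    have cases_v : off a b c e v ∨ v = a ∨ v = b := by
      rcases vertex_cases (a := a) (b := b) (c := c) (e := e) v with h | h | h | h | h
      · exact Or.inl h
      · exact Or.inr (Or.inl h)
      · exact Or.inr (Or.inr h)
      · exact absurd h hv1
      · exact absurd h hv2
    rcases cases_u with hu | rfl | rfl <;> rcases cases_v with hv | rfl | rfl
    · exact hk2.2.2.1 u v hu hv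
    · rw [adj_comm H, adj_comm H']; exact haw u hu
    · rw [adj_comm H, adj_comm H']; exact hbw u hu
    · exact haw v hv
    · simp [not_adj_self]
    · exact hk2.1
    · exact hbw v hv
    · rw [adj_comm H, adj_comm H']; exact hk2.1
    · simp [not_adj_self]

end Crest.Agent.Switch.Split
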