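/-
S0453 C5a: the classes of Part A are cross-shaped.
-/
import Crest.Agent.Lib.Switch.SplitDefs
import Crest.Agent.Lib.Switch.SplitAbs
import Crest.Agent.Lib.Switch.Connect

set_option autoImplicit false
set_option linter.unusedSectionVars false
set_option linter.unusedSimpArgs false
set_option linter.unusedVariables false

namespace Crest.Agent.Switch.Split

open Finset Crest.SwitchChain
open scoped Classical

variable {n : ℕ} {a b c e : Fin n}

/-- Indicator. -/
noncomputable def i (p : Prop) : ℕ := if p then 1 else 0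

theorem i_eq (p : Prop) : i p = (decide p).toNat := by
  by_cases h : p <;> simp [i, h]

theorem i_congr {p q : Prop} (h : p ↔ q) : i p = i q := by
  simp [i, h]

theorem i_false {p : Prop} (h : ¬ p) : i p = 0 := by simp [i, h]

/-! ### 2×2 binary matrices -/

theorem glue_bool : ∀ p q r s p' q' r' s' : Bool,
    p.toNat + q.toNat + r.toNat + s.toNat = p'.toNat + q'.toNat + r'.toNat + s'.toNat →
    ¬ (p.toNat + q.toNat + r.toNat + s.toNat = 2 ∧ ¬ (p.toNat + q.toNat = 1 ∧ r.toNat + s.toNat = 1) ∧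
        ¬ (p'.toNat + r'.toNat = 1 ∧ q'.toNat + s'.toNat = 1)) →
    ∃ y1 y2 y3 y4 : Bool, y1.toNat + y2.toNat = p.toNat + q.toNat ∧ y3.toNat + y4.toNat = r.toNat + s.toNat ∧
      y1.toNat + y3.toNat = p'.toNat + r'.toNat ∧ y2.toNat + y4.toNat = q'.toNat + s'.toNat := by
  decide

theorem uniq_bool : ∀ p q r s p' q' r' s' : Bool,
    p.toNat + q.toNat = p'.toNat + q'.toNat → r.toNat + s.toNat = r'.toNat + s'.toNat →
    p.toNat + r.toNat = p'.toNat + r'.toNat → q.toNat + s.toNat = q'.toNat + s'.toNat →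
    (p = p' ∧ q = q' ∧ r = r' ∧ s = s') ∨
      ((p.toNat + q.toNat = 1 ∧ r.toNat + s.toNat = 1 ∧ p.toNat + r.toNat = 1 ∧ q.toNat + s.toNat = 1) ∧
        p' = !p ∧ q' = !q ∧ r' = !r ∧ s' = !s) := by
  decide

theorem two_bool : ∀ p q r s : Bool, p.toNat + q.toNat + r.toNat + s.toNat = 2 →
    (p.toNat + q.toNat = 1 ∧ r.toNat + s.toNat = 1) ∨ (p.toNat + r.toNat = 1 ∧ q.toNat + s.toNat = 1) := by
  decide

theorem y_bool : ∀ p q r s : Bool,
    (((p = true ∧ s = true ∧ q = false ∧ r = false) ∨ (q = true ∧ r = true ∧ p = false ∧ s = false)) ↔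
      ((p.toNat + q.toNat = 1 ∧ r.toNat + s.toNat = 1) ∧ (p.toNat + r.toNat = 1 ∧ q.toNat + s.toNat = 1))) := by
  decide

theorem glue_prop (p q r s p' q' r' s' : Prop)
    (h1 : i p + i q + i r + i s = i p' + i q' + i r' + i s')
    (h2 : ¬ (i p + i q + i r + i s = 2 ∧ ¬ (i p + i q = 1 ∧ i r + i s = 1) ∧
        ¬ (i p' + i r' = 1 ∧ i q' + i s' = 1))) :
    ∃ y1 y2 y3 y4 : Prop, i y1 + i y2 = i p + i q ∧ i y3 + i y4 = i r + i s ∧
      i y1 + i y3 = i p' + i r' ∧ i y2 + i y4 = i q' + i s' := by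
  simp only [i_eq] at h1 h2
  obtain ⟨y1, y2, y3, y4, h⟩ := glue_bool _ _ _ _ _ _ _ _ h1 h2
  refine ⟨y1 = true, y2 = true, y3 = true, y4 = true, ?_⟩
  simpa only [i_eq, decide_eq_true_eq, Bool.decide_eq_true] using h

theorem uniq_prop (p q r s p' q' r' s' : Prop)
    (h1 : i p + i q = i p' + i q') (h2 : i r + i s = i r' + i s')
    (h3 : i p + i r = i p' + i r') (h4 : i q + i s = i q' + i s') :
    ((p ↔ p') ∧ (q ↔ q') ∧ (r ↔ r') ∧ (s ↔ s')) ∨
      ((i p + i q = 1 ∧ i r + i s = 1 ∧ i p + i r = 1 ∧ i q + i s = 1) ∧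
        (p' ↔ ¬ p) ∧ (q' ↔ ¬ q) ∧ (r' ↔ ¬ r) ∧ (s' ↔ ¬ s)) := by
  simp only [i_eq] at h1 h2 h3 h4 ⊢
  rcases uniq_bool _ _ _ _ _ _ _ _ h1 h2 h3 h4 with h | h
  · left
    simpa only [decide_eq_decide] using h
  · right
    refine ⟨h.1, ?_⟩
    obtain ⟨-, h5, h6, h7, h8⟩ := h
    refine ⟨?_, ?_, ?_, ?_⟩
    · by_cases hp : p <;> by_cases hp' : p' <;> simp_all
    · by_cases hp : q <;> by_cases hp' : q' <;> simp_all
    · by_cases hp : r <;> by_cases hp' : r' <;> simp_all
    · by_cases hp : s <;> by_cases hp' : s' <;> simp_all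

theorem two_prop (p q r s : Prop) (h : i p + i q + i r + i s = 2) :
    (i p + i q = 1 ∧ i r + i s = 1) ∨ (i p + i r = 1 ∧ i q + i s = 1) := by
  simp only [i_eq] at h ⊢
  exact two_bool _ _ _ _ h

theorem y_prop (p q r s : Prop) :
    ((p ∧ s ∧ ¬ q ∧ ¬ r) ∨ (q ∧ r ∧ ¬ p ∧ ¬ s)) ↔
      ((i p + i q = 1 ∧ i r + i s = 1) ∧ (i p + i r = 1 ∧ i q + i s = 1)) := by
  simp only [i_eq]
  rw [← y_bool]
  by_cases h1 : p <;> by_cases h2 : q <;> by_cases h3 : r <;> by_cases h4 : s <;> simp [h1, h2, h3, h4]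

/-! ### Vertices and degrees -/

theorem vertex_cases_shape (w : Fin n) : off a b c e w ∨ w = a ∨ w = b ∨ w = c ∨ w = e := by
  by_cases h1 : w = a
  · exact Or.inr (Or.inl h1)
  by_cases h2 : w = b
  · exact Or.inr (Or.inr (Or.inl h2))
  by_cases h3 : w = c
  · exact Or.inr (Or.inr (Or.inr (Or.inl h3)))
  by_cases h4 : w = e
  · exact Or.inr (Or.inr (Or.inr (Or.inr h4)))
  exact Or.inl ⟨h1, h2, h3, h4⟩

section distinct

variable (hab : a ≠ b) (hac : a ≠ c) (hae : a ≠ e) (hbc : b ≠ c) (hbe : b ≠ e) (hce : c ≠ e)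
include hab hac hae hbc hbe hce

theorem sum_split (g : Fin n → ℕ) :
    ∑ u, g u = ∑ u ∈ univ.filter (off a b c e), g u + (g a + g b + g c + g e) := by
  rw [← Finset.sum_filter_add_sum_filter_not univ (off a b c e)]
  congr 1
  have : (univ.filter fun u => ¬ off a b c e u) = {a, b, c, e} := by
    ext u
    simp only [mem_filter, mem_univ, true_and, mem_insert, mem_singleton, off]
    tauto
  rw [this, Finset.sum_insert, Finset.sum_insert, Finset.sum_insert, Finset.sum_singleton]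
  · ring
  · simpa using hce
  · simp [hbc, hbe]
  · simp [hab, hac, hae]

/-- Degree decomposition. -/
theorem deg_split (G : Finset (Edge n)) (x : Fin n) :
    deg G x = (univ.filter fun u => off a b c e u ∧ adj G x u).card
      + (i (adj G x a) + i (adj G x b) + i (adj G x c) + i (adj G x e)) := by
  rw [deg_eq_card, Finset.card_filter, sum_split hab hac hae hbc hbe hce]
  congr 1
  rw [← Finset.card_filter, filter_filter]

theorem deg_a (G : Finset (Edge n)) :
    deg G a = (nbr a b c e G a).card + i (adj G a b) + i (adj G a c) + i (adj G a e) := by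
  rw [deg_split hab hac hae hbc hbe hce G a, i_false (not_adj_self G a)]
  simp only [nbr]
  ring

theorem deg_b (G : Finset (Edge n)) :
    deg G b = (nbr a b c e G b).card + i (adj G a b) + i (adj G b c) + i (adj G b e) := by
  rw [deg_split hab hac hae hbc hbe hce G b, i_false (not_adj_self G b), i_congr (adj_comm G b a)]
  simp only [nbr]
  ring

theorem deg_c (G : Finset (Edge n)) :
    deg G c = (nbr a b c e G c).card + i (adj G c e) + i (adj G a c) + i (adj G b c) := by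
  rw [deg_split hab hac hae hbc hbe hce G c, i_false (not_adj_self G c), i_congr (adj_comm G c a),
    i_congr (adj_comm G c b)]
  simp only [nbr]
  ring

theorem deg_e (G : Finset (Edge n)) :
    deg G e = (nbr a b c e G e).card + i (adj G c e) + i (adj G a e) + i (adj G b e) := by
  rw [deg_split hab hac hae hbc hbe hce G e, i_false (not_adj_self G e), i_congr (adj_comm G e a),
    i_congr (adj_comm G e b), i_congr (adj_comm G e c)]
  simp only [nbr]
  ring

/-- Sum of the two `A` rows through the profile. -/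
theorem card_nbr_add (G : Finset (Edge n)) :
    (nbr a b c e G a).card + (nbr a b c e G b).card = ∑ w ∈ univ.filter (off a b c e), prof a b G w := by
  have h : ∀ x, (nbr a b c e G x).card = ∑ w ∈ univ.filter (off a b c e), i (adj G x w) := by
    intro x
    have : nbr a b c e G x = (univ.filter (off a b c e)).filter fun w => adj G x w := by
      simp [nbr, filter_filter]
    rw [this, Finset.card_filter]
    rfl
  rw [h, h, ← Finset.sum_add_distrib]
  rfl

end distinct


/-! ### The glued graph -/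

variable (a b c e) in
/-- Slots of type `C`. -/
def isCs (u v : Fin n) : Prop :=
  ((u = c ∨ u = e) ∧ off a b c e v) ∨ ((v = c ∨ v = e) ∧ off a b c e u)

variable (a b c e) in
/-- Slots of type `X`. -/
def isXs (u v : Fin n) : Prop :=
  s(u, v) = s(a, c) ∨ s(u, v) = s(a, e) ∨ s(u, v) = s(b, c) ∨ s(u, v) = s(b, e)

variable (a b c e) in
/-- The prescribed `X` part. -/
def Xval (y1 y2 y3 y4 : Prop) (u v : Fin n) : Prop :=
  (s(u, v) = s(a, c) ∧ y1) ∨ (s(u, v) = s(a, e) ∧ y2) ∨ (s(u, v) = s(b, c) ∧ y3) ∨ (s(u, v) = s(b, e) ∧ y4)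

variable (a b c e) in
/-- The relation of the glued graph. -/
def grel (G1 G2 : Finset (Edge n)) (y1 y2 y3 y4 : Prop) (u v : Fin n) : Prop :=
  (isCs a b c e u v ∧ adj G2 u v) ∨ (¬ isCs a b c e u v ∧ ¬ isXs a b c e u v ∧ adj G1 u v) ∨
    Xval a b c e y1 y2 y3 y4 u v

theorem isCs_comm (u v : Fin n) : isCs a b c e u v ↔ isCs a b c e v u := by
  unfold isCs; tauto

theorem isXs_comm (u v : Fin n) : isXs a b c e u v ↔ isXs a b c e v u := by
  unfold isXs; rw [Sym2.eq_swap]

theorem Xval_comm (y1 y2 y3 y4 : Prop) (u v : Fin n) :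
    Xval a b c e y1 y2 y3 y4 u v ↔ Xval a b c e y1 y2 y3 y4 v u := by
  unfold Xval; rw [Sym2.eq_swap]

theorem grel_comm (G1 G2 : Finset (Edge n)) (y1 y2 y3 y4 : Prop) (u v : Fin n) :
    grel a b c e G1 G2 y1 y2 y3 y4 u v ↔ grel a b c e G1 G2 y1 y2 y3 y4 v u := by
  unfold grel
  rw [isCs_comm u v, isXs_comm u v, Xval_comm y1 y2 y3 y4 u v, adj_comm G2 u v, adj_comm G1 u v]

variable (a b c e) in
/-- The glued graph. -/
noncomputable def glueG (G1 G2 : Finset (Edge n)) (y1 y2 y3 y4 : Prop) : Finset (Edge n) :=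
  ofRel (grel a b c e G1 G2 y1 y2 y3 y4)

theorem adj_glue {G1 G2 : Finset (Edge n)} {y1 y2 y3 y4 : Prop} {u v : Fin n} (h : u ≠ v) :
    adj (glueG a b c e G1 G2 y1 y2 y3 y4) u v ↔ grel a b c e G1 G2 y1 y2 y3 y4 u v :=
  adj_ofRel (grel_comm G1 G2 y1 y2 y3 y4) h

section distinct2

variable (hab : a ≠ b) (hac : a ≠ c) (hae : a ≠ e) (hbc : b ≠ c) (hbe : b ≠ e) (hce : c ≠ e)
include hab hac hae hbc hbe hce

theorem Xval_not_of_off {y1 y2 y3 y4 : Prop} {u v : Fin n} (hv : off a b c e v) :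
    ¬ isXs a b c e u v := by
  obtain ⟨h1, h2, h3, h4⟩ := hv
  simp only [isXs, Sym2.eq_iff]
  rintro (⟨-, h⟩ | ⟨-, h⟩ | ⟨-, h⟩ | ⟨-, h⟩ | ⟨-, h⟩ | ⟨-, h⟩ | ⟨-, h⟩ | ⟨-, h⟩) <;> simp_all

theorem Xval_imp {y1 y2 y3 y4 : Prop} {u v : Fin n} (h : Xval a b c e y1 y2 y3 y4 u v) :
    isXs a b c e u v := by
  rcases h with ⟨h, -⟩ | ⟨h, -⟩ | ⟨h, -⟩ | ⟨h, -⟩
  · exact Or.inl h
  · exact Or.inr (Or.inl h)
  · exact Or.inr (Or.inr (Or.inl h))
  · exact Or.inr (Or.inr (Or.inr h))

theorem glue_rest {G1 G2 : Finset (Edge n)} {y1 y2 y3 y4 : Prop} {u v : Fin n} (huv : u ≠ v)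
    (h1 : ¬ isCs a b c e u v) (h2 : ¬ isXs a b c e u v) :
    adj (glueG a b c e G1 G2 y1 y2 y3 y4) u v ↔ adj G1 u v := by
  rw [adj_glue huv]
  unfold grel
  constructor
  · rintro (⟨h, -⟩ | ⟨-, -, h⟩ | h)
    · exact absurd h h1
    · exact h
    · exact absurd (Xval_imp hab hac hae hbc hbe hce h) h2
  · intro h
    exact Or.inr (Or.inl ⟨h1, h2, h⟩)

theorem glue_C {G1 G2 : Finset (Edge n)} {y1 y2 y3 y4 : Prop} {u v : Fin n} (huv : u ≠ v)
    (h1 : isCs a b c e u v) (h2 : ¬ isXs a b c e u v) :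
    adj (glueG a b c e G1 G2 y1 y2 y3 y4) u v ↔ adj G2 u v := by
  rw [adj_glue huv]
  unfold grel
  constructor
  · rintro (⟨-, h⟩ | ⟨h, -, -⟩ | h)
    · exact h
    · exact absurd h1 h
    · exact absurd (Xval_imp hab hac hae hbc hbe hce h) h2
  · intro h
    exact Or.inl ⟨h1, h⟩

theorem glue_off {G1 G2 : Finset (Edge n)} {y1 y2 y3 y4 : Prop} {u v : Fin n}
    (hu : off a b c e u) (hv : off a b c e v) :
    adj (glueG a b c e G1 G2 y1 y2 y3 y4) u v ↔ adj G1 u v := by
  by_cases huv : u = v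
  · subst huv; simp [not_adj_self]
  refine glue_rest hab hac hae hbc hbe hce huv ?_ (Xval_not_of_off hab hac hae hbc hbe hce (y1 := y1) (y2 := y2) (y3 := y3) (y4 := y4) hv)
  obtain ⟨h1, h2, h3, h4⟩ := hu
  obtain ⟨h5, h6, h7, h8⟩ := hv
  simp [isCs, *]

theorem glue_a {G1 G2 : Finset (Edge n)} {y1 y2 y3 y4 : Prop} {w : Fin n} (hw : off a b c e w) :
    adj (glueG a b c e G1 G2 y1 y2 y3 y4) a w ↔ adj G1 a w := by
  refine glue_rest hab hac hae hbc hbe hce hw.1.symm ?_ (Xval_not_of_off hab hac hae hbc hbe hce (y1 := y1) (y2 := y2) (y3 := y3) (y4 := y4) hw)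
  obtain ⟨h1, h2, h3, h4⟩ := hw
  simp [isCs, off, *]

theorem glue_b {G1 G2 : Finset (Edge n)} {y1 y2 y3 y4 : Prop} {w : Fin n} (hw : off a b c e w) :
    adj (glueG a b c e G1 G2 y1 y2 y3 y4) b w ↔ adj G1 b w := by
  refine glue_rest hab hac hae hbc hbe hce hw.2.1.symm ?_ (Xval_not_of_off hab hac hae hbc hbe hce (y1 := y1) (y2 := y2) (y3 := y3) (y4 := y4) hw)
  obtain ⟨h1, h2, h3, h4⟩ := hw
  simp [isCs, off, *]

theorem glue_c {G1 G2 : Finset (Edge n)} {y1 y2 y3 y4 : Prop} {w : Fin n} (hw : off a b c e w) :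
    adj (glueG a b c e G1 G2 y1 y2 y3 y4) c w ↔ adj G2 c w := by
  refine glue_C hab hac hae hbc hbe hce hw.2.2.1.symm ?_ (Xval_not_of_off hab hac hae hbc hbe hce (y1 := y1) (y2 := y2) (y3 := y3) (y4 := y4) hw)
  exact Or.inl ⟨Or.inl rfl, hw⟩

theorem glue_e {G1 G2 : Finset (Edge n)} {y1 y2 y3 y4 : Prop} {w : Fin n} (hw : off a b c e w) :
    adj (glueG a b c e G1 G2 y1 y2 y3 y4) e w ↔ adj G2 e w := by
  refine glue_C hab hac hae hbc hbe hce hw.2.2.2.symm ?_ (Xval_not_of_off hab hac hae hbc hbe hce (y1 := y1) (y2 := y2) (y3 := y3) (y4 := y4) hw)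
  exact Or.inl ⟨Or.inr rfl, hw⟩

theorem glue_ab {G1 G2 : Finset (Edge n)} {y1 y2 y3 y4 : Prop} :
    adj (glueG a b c e G1 G2 y1 y2 y3 y4) a b ↔ adj G1 a b := by
  refine glue_rest hab hac hae hbc hbe hce hab ?_ ?_
  · simp [isCs, off, hab, hac, hae, hbc, hbe, hce]
  · simp [isXs, Sym2.eq_iff, hab, hac, hae, hbc, hbe, hce, hab.symm, hac.symm, hae.symm, hbc.symm, hbe.symm, hce.symm]

theorem glue_ce {G1 G2 : Finset (Edge n)} {y1 y2 y3 y4 : Prop} :
    adj (glueG a b c e G1 G2 y1 y2 y3 y4) c e ↔ adj G1 c e := by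
  refine glue_rest hab hac hae hbc hbe hce hce ?_ ?_
  · simp [isCs, off, hab, hac, hae, hbc, hbe, hce]
  · simp [isXs, Sym2.eq_iff, hab, hac, hae, hbc, hbe, hce, hab.symm, hac.symm, hae.symm, hbc.symm, hbe.symm, hce.symm]

theorem glue_X1 {G1 G2 : Finset (Edge n)} {y1 y2 y3 y4 : Prop} :
    adj (glueG a b c e G1 G2 y1 y2 y3 y4) a c ↔ y1 := by
  rw [adj_glue hac]
  simp [grel, isCs, isXs, Xval, off, Sym2.eq_iff, hab, hac, hae, hbc, hbe, hce, hab.symm, hac.symm, hae.symm, hbc.symm, hbe.symm, hce.symm]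

theorem glue_X2 {G1 G2 : Finset (Edge n)} {y1 y2 y3 y4 : Prop} :
    adj (glueG a b c e G1 G2 y1 y2 y3 y4) a e ↔ y2 := by
  rw [adj_glue hae]
  simp [grel, isCs, isXs, Xval, off, Sym2.eq_iff, hab, hac, hae, hbc, hbe, hce, hab.symm, hac.symm, hae.symm, hbc.symm, hbe.symm, hce.symm]

theorem glue_X3 {G1 G2 : Finset (Edge n)} {y1 y2 y3 y4 : Prop} :
    adj (glueG a b c e G1 G2 y1 y2 y3 y4) b c ↔ y3 := by
  rw [adj_glue hbc]
  simp [grel, isCs, isXs, Xval, off, Sym2.eq_iff, hab, hac, hae, hbc, hbe, hce, hab.symm, hac.symm, hae.symm, hbc.symm, hbe.symm, hce.symm]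

theorem glue_X4 {G1 G2 : Finset (Edge n)} {y1 y2 y3 y4 : Prop} :
    adj (glueG a b c e G1 G2 y1 y2 y3 y4) b e ↔ y4 := by
  rw [adj_glue hbe]
  simp [grel, isCs, isXs, Xval, off, Sym2.eq_iff, hab, hac, hae, hbc, hbe, hce, hab.symm, hac.symm, hae.symm, hbc.symm, hbe.symm, hce.symm]

theorem nbr_glue_a {G1 G2 : Finset (Edge n)} {y1 y2 y3 y4 : Prop} :
    nbr a b c e (glueG a b c e G1 G2 y1 y2 y3 y4) a = nbr a b c e G1 a := by
  ext w
  simp only [nbr, mem_filter, mem_univ, true_and]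
  exact and_congr_right fun hw => glue_a hab hac hae hbc hbe hce hw

theorem nbr_glue_b {G1 G2 : Finset (Edge n)} {y1 y2 y3 y4 : Prop} :
    nbr a b c e (glueG a b c e G1 G2 y1 y2 y3 y4) b = nbr a b c e G1 b := by
  ext w
  simp only [nbr, mem_filter, mem_univ, true_and]
  exact and_congr_right fun hw => glue_b hab hac hae hbc hbe hce hw

theorem nbr_glue_c {G1 G2 : Finset (Edge n)} {y1 y2 y3 y4 : Prop} :
    nbr a b c e (glueG a b c e G1 G2 y1 y2 y3 y4) c = nbr a b c e G2 c := by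
  ext w
  simp only [nbr, mem_filter, mem_univ, true_and]
  exact and_congr_right fun hw => glue_c hab hac hae hbc hbe hce hw

theorem nbr_glue_e {G1 G2 : Finset (Edge n)} {y1 y2 y3 y4 : Prop} :
    nbr a b c e (glueG a b c e G1 G2 y1 y2 y3 y4) e = nbr a b c e G2 e := by
  ext w
  simp only [nbr, mem_filter, mem_univ, true_and]
  exact and_congr_right fun hw => glue_e hab hac hae hbc hbe hce hw

/-- The glued graph is a realization. -/
theorem glue_mem {d : Fin n → ℕ} {G1 G2 : Finset (Edge n)} {y1 y2 y3 y4 : Prop}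
    (h1 : G1 ∈ realizations d) (h2 : G2 ∈ realizations d) (hK : Kc a b c e G1 G2)
    (r1 : i y1 + i y2 = i (adj G1 a c) + i (adj G1 a e))
    (r2 : i y3 + i y4 = i (adj G1 b c) + i (adj G1 b e))
    (c1 : i y1 + i y3 = i (adj G2 a c) + i (adj G2 b c))
    (c2 : i y2 + i y4 = i (adj G2 a e) + i (adj G2 b e)) :
    glueG a b c e G1 G2 y1 y2 y3 y4 ∈ realizations d := by
  set H := glueG a b c e G1 G2 y1 y2 y3 y4 with hH
  have d1 := mem_realizations.1 h1
  have d2 := mem_realizations.1 h2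
  have hX1 : adj H a c ↔ y1 := glue_X1 hab hac hae hbc hbe hce
  have hX2 : adj H a e ↔ y2 := glue_X2 hab hac hae hbc hbe hce
  have hX3 : adj H b c ↔ y3 := glue_X3 hab hac hae hbc hbe hce
  have hX4 : adj H b e ↔ y4 := glue_X4 hab hac hae hbc hbe hce
  have hAB : adj H a b ↔ adj G1 a b := glue_ab hab hac hae hbc hbe hce
  have hCE : adj H c e ↔ adj G1 c e := glue_ce hab hac hae hbc hbe hce
  rw [mem_realizations]
  intro v
  rcases vertex_cases_shape (a := a) (b := b) (c := c) (e := e) v with hv | rfl | rfl | rfl | rfl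
  · rw [deg_split hab hac hae hbc hbe hce H v, ← d2 v, deg_split hab hac hae hbc hbe hce G2 v]
    have h3 : (univ.filter fun u => off a b c e u ∧ adj H v u)
        = (univ.filter fun u => off a b c e u ∧ adj G2 v u) := by
      ext u
      simp only [mem_filter, mem_univ, true_and]
      refine and_congr_right fun hu => ?_
      exact (glue_off hab hac hae hbc hbe hce hv hu).trans (hK.2.2.1 v u hv hu)
    rw [h3]
    have p := hK.2.2.2 v hv
    simp only [prof] at p
    have e1 : i (adj H v a) = i (adj G1 a v) :=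
      i_congr ((adj_comm _ _ _).trans (glue_a hab hac hae hbc hbe hce hv))
    have e2 : i (adj H v b) = i (adj G1 b v) :=
      i_congr ((adj_comm _ _ _).trans (glue_b hab hac hae hbc hbe hce hv))
    have e3 : i (adj H v c) = i (adj G2 v c) :=
      i_congr ((adj_comm _ _ _).trans ((glue_c hab hac hae hbc hbe hce hv).trans (adj_comm _ _ _)))
    have e4 : i (adj H v e) = i (adj G2 v e) :=
      i_congr ((adj_comm _ _ _).trans ((glue_e hab hac hae hbc hbe hce hv).trans (adj_comm _ _ _)))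
    have e5 : i (adj G2 v a) = i (adj G2 a v) := i_congr (adj_comm _ _ _)
    have e6 : i (adj G2 v b) = i (adj G2 b v) := i_congr (adj_comm _ _ _)
    rw [e1, e2, e3, e4, e5, e6]
    change (if adj G1 a v then 1 else 0) + (if adj G1 b v then 1 else 0)
      = (if adj G2 a v then 1 else 0) + (if adj G2 b v then 1 else 0) at p
    simp only [i] at *
    omega
  · rw [deg_a hab hac hae hbc hbe hce H, nbr_glue_a hab hac hae hbc hbe hce, ← d1,
      deg_a hab hac hae hbc hbe hce G1, i_congr hAB, i_congr hX1, i_congr hX2]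
    omega
  · rw [deg_b hab hac hae hbc hbe hce H, nbr_glue_b hab hac hae hbc hbe hce, ← d1,
      deg_b hab hac hae hbc hbe hce G1, i_congr hAB, i_congr hX3, i_congr hX4]
    omega
  · rw [deg_c hab hac hae hbc hbe hce H, nbr_glue_c hab hac hae hbc hbe hce, ← d2,
      deg_c hab hac hae hbc hbe hce G2, i_congr (hCE.trans hK.2.1), i_congr hX1, i_congr hX3]
    omega
  · rw [deg_e hab hac hae hbc hbe hce H, nbr_glue_e hab hac hae hbc hbe hce, ← d2,
      deg_e hab hac hae hbc hbe hce G2, i_congr (hCE.trans hK.2.1), i_congr hX2, i_congr hX4]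
    omega

theorem Kc_glue {G1 G2 : Finset (Edge n)} {y1 y2 y3 y4 : Prop} :
    Kc a b c e G1 (glueG a b c e G1 G2 y1 y2 y3 y4) := by
  refine ⟨(glue_ab hab hac hae hbc hbe hce).symm, (glue_ce hab hac hae hbc hbe hce).symm,
    fun u v hu hv => (glue_off hab hac hae hbc hbe hce hu hv).symm, fun w hw => ?_⟩
  unfold prof
  rw [if_congr (glue_a hab hac hae hbc hbe hce hw) rfl rfl,
    if_congr (glue_b hab hac hae hbc hbe hce hw) rfl rfl]

theorem aa_glue {G1 G2 : Finset (Edge n)} {y1 y2 y3 y4 : Prop} :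
    aa a b c e (glueG a b c e G1 G2 y1 y2 y3 y4) = aa a b c e G1 := by
  unfold aa
  rw [nbr_glue_a hab hac hae hbc hbe hce, nbr_glue_b hab hac hae hbc hbe hce]

theorem cc_glue {G1 G2 : Finset (Edge n)} {y1 y2 y3 y4 : Prop} :
    cc a b c e (glueG a b c e G1 G2 y1 y2 y3 y4) = cc a b c e G2 := by
  unfold cc
  rw [nbr_glue_c hab hac hae hbc hbe hce, nbr_glue_e hab hac hae hbc hbe hce]

end distinct2


/-! ### Rows, columns and the class -/

variable (a b c e) in
/-- The sum of all `X` slots. -/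
noncomputable def sig (G : Finset (Edge n)) : ℕ :=
  i (adj G a c) + i (adj G a e) + i (adj G b c) + i (adj G b e)

variable (a b c e) in
/-- Both rows of the `X` matrix have sum one. -/
def rowsOne (G : Finset (Edge n)) : Prop :=
  i (adj G a c) + i (adj G a e) = 1 ∧ i (adj G b c) + i (adj G b e) = 1

variable (a b c e) in
/-- Both columns of the `X` matrix have sum one. -/
def colsOne (G : Finset (Edge n)) : Prop :=
  i (adj G a c) + i (adj G b c) = 1 ∧ i (adj G a e) + i (adj G b e) = 1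

section distinct3

variable (hab : a ≠ b) (hac : a ≠ c) (hae : a ≠ e) (hbc : b ≠ c) (hbe : b ≠ e) (hce : c ≠ e)
include hab hac hae hbc hbe hce

theorem row_eq {d : Fin n → ℕ} {G H : Finset (Edge n)} (hG : G ∈ realizations d)
    (hH : H ∈ realizations d) (hK : Kc a b c e G H) (hA : aa a b c e G = aa a b c e H) :
    i (adj G a c) + i (adj G a e) = i (adj H a c) + i (adj H a e) ∧
      i (adj G b c) + i (adj G b e) = i (adj H b c) + i (adj H b e) := by
  have h1 := deg_a hab hac hae hbc hbe hce G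
  have h2 := deg_a hab hac hae hbc hbe hce H
  have h3 := deg_b hab hac hae hbc hbe hce G
  have h4 := deg_b hab hac hae hbc hbe hce H
  rw [mem_realizations.1 hG] at h1 h3
  rw [mem_realizations.1 hH] at h2 h4
  have e1 : nbr a b c e G a = nbr a b c e H a := congrArg Prod.fst hA
  have e2 : nbr a b c e G b = nbr a b c e H b := congrArg Prod.snd hA
  rw [e1, i_congr hK.1] at h1
  rw [e2, i_congr hK.1] at h3
  omega

theorem col_eq {d : Fin n → ℕ} {G H : Finset (Edge n)} (hG : G ∈ realizations d)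
    (hH : H ∈ realizations d) (hK : Kc a b c e G H) (hC : cc a b c e G = cc a b c e H) :
    i (adj G a c) + i (adj G b c) = i (adj H a c) + i (adj H b c) ∧
      i (adj G a e) + i (adj G b e) = i (adj H a e) + i (adj H b e) := by
  have h1 := deg_c hab hac hae hbc hbe hce G
  have h2 := deg_c hab hac hae hbc hbe hce H
  have h3 := deg_e hab hac hae hbc hbe hce G
  have h4 := deg_e hab hac hae hbc hbe hce H
  rw [mem_realizations.1 hG] at h1 h3
  rw [mem_realizations.1 hH] at h2 h4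
  have e1 : nbr a b c e G c = nbr a b c e H c := congrArg Prod.fst hC
  have e2 : nbr a b c e G e = nbr a b c e H e := congrArg Prod.snd hC
  rw [e1, i_congr hK.2.1] at h1
  rw [e2, i_congr hK.2.1] at h3
  omega

theorem sig_eq {d : Fin n → ℕ} {G H : Finset (Edge n)} (hG : G ∈ realizations d)
    (hH : H ∈ realizations d) (hK : Kc a b c e G H) : sig a b c e G = sig a b c e H := by
  have h1 := deg_a hab hac hae hbc hbe hce G
  have h2 := deg_a hab hac hae hbc hbe hce H
  have h3 := deg_b hab hac hae hbc hbe hce G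
  have h4 := deg_b hab hac hae hbc hbe hce H
  rw [mem_realizations.1 hG] at h1 h3
  rw [mem_realizations.1 hH] at h2 h4
  have e1 := card_nbr_add hab hac hae hbc hbe hce G
  have e2 := card_nbr_add hab hac hae hbc hbe hce H
  have e3 : ∑ w ∈ univ.filter (off a b c e), prof a b G w = ∑ w ∈ univ.filter (off a b c e), prof a b H w :=
    Finset.sum_congr rfl fun w hw => hK.2.2.2 w (mem_filter.1 hw).2
  rw [i_congr hK.1] at h1 h3
  unfold sig
  omega

/-- Extensionality on a class. -/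
theorem ext_class {G H : Finset (Edge n)} (hK : Kc a b c e G H) (hA : aa a b c e G = aa a b c e H)
    (hC : cc a b c e G = cc a b c e H) (x1 : adj G a c ↔ adj H a c) (x2 : adj G a e ↔ adj H a e)
    (x3 : adj G b c ↔ adj H b c) (x4 : adj G b e ↔ adj H b e) : G = H := by
  have hn : ∀ (x w : Fin n), off a b c e w → nbr a b c e G x = nbr a b c e H x →
      (adj G x w ↔ adj H x w) := by
    intro x w hw h
    have := Finset.ext_iff.1 h w
    simpa [nbr, hw] using this
  have ea : ∀ w, off a b c e w → (adj G a w ↔ adj H a w) := fun w hw => hn a w hw (congrArg Prod.fst hA)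
  have eb : ∀ w, off a b c e w → (adj G b w ↔ adj H b w) := fun w hw => hn b w hw (congrArg Prod.snd hA)
  have ec : ∀ w, off a b c e w → (adj G c w ↔ adj H c w) := fun w hw => hn c w hw (congrArg Prod.fst hC)
  have ee : ∀ w, off a b c e w → (adj G e w ↔ adj H e w) := fun w hw => hn e w hw (congrArg Prod.snd hC)
  have key : ∀ u v, off a b c e u ∨ u = a ∨ u = b →
      (off a b c e v ∨ v = c ∨ v = e ∨ v = a ∨ v = b) → (adj G u v ↔ adj H u v) := by
    intro u v hu hv
    rcases hu with hu | rfl | rfl <;> rcases hv with hv | rfl | rfl | rfl | rfl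
    · exact hK.2.2.1 _ _ hu hv
    · rw [adj_comm G, adj_comm H]; exact ec _ hu
    · rw [adj_comm G, adj_comm H]; exact ee _ hu
    · rw [adj_comm G, adj_comm H]; exact ea _ hu
    · rw [adj_comm G, adj_comm H]; exact eb _ hu
    · exact ea _ hv
    · exact x1
    · exact x2
    · simp [not_adj_self]
    · exact hK.1
    · exact eb _ hv
    · exact x3
    · exact x4
    · rw [adj_comm G, adj_comm H]; exact hK.1
    · simp [not_adj_self]
  apply graph_ext
  intro u v
  have hvc := vertex_cases_shape (a := a) (b := b) (c := c) (e := e) v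
  have hvc' : off a b c e v ∨ v = c ∨ v = e ∨ v = a ∨ v = b := by tauto
  rcases vertex_cases_shape (a := a) (b := b) (c := c) (e := e) u with hu | rfl | rfl | rfl | rfl
  · exact key _ _ (Or.inl hu) hvc'
  · exact key _ _ (Or.inr (Or.inl rfl)) hvc'
  · exact key _ _ (Or.inr (Or.inr rfl)) hvc'
  · rcases hvc with hv | rfl | rfl | rfl | rfl
    · exact ec _ hv
    · rw [adj_comm G, adj_comm H]; exact x1
    · rw [adj_comm G, adj_comm H]; exact x3
    · simp [not_adj_self]
    · exact hK.2.1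
  · rcases hvc with hv | rfl | rfl | rfl | rfl
    · exact ee _ hv
    · rw [adj_comm G, adj_comm H]; exact x2
    · rw [adj_comm G, adj_comm H]; exact x4
    · rw [adj_comm G, adj_comm H]; exact hK.2.1
    · simp [not_adj_self]

/-! ### The flip -/

theorem flip_other {G : Finset (Edge n)} {u v : Fin n} (h : ¬ isXs a b c e u v) :
    adj (flipG a b c e G) u v ↔ adj G u v := by
  by_cases huv : u = v
  · subst huv; simp [not_adj_self]
  rw [adj_flipG a b c e huv]
  unfold isXs at h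
  tauto

theorem flip_X {G : Finset (Edge n)} {u v : Fin n} (h : isXs a b c e u v) :
    adj (flipG a b c e G) u v ↔ ¬ adj G u v := by
  have huv : u ≠ v := by
    rintro rfl
    simp only [isXs, Sym2.eq_iff] at h
    rcases h with h | h | h | h <;> rcases h with ⟨rfl, h⟩ | ⟨rfl, h⟩ <;> simp_all
  rw [adj_flipG a b c e huv]
  unfold isXs at h
  tauto

theorem flip_flip (G : Finset (Edge n)) : flipG a b c e (flipG a b c e G) = G := by
  apply graph_ext
  intro u v
  by_cases h : isXs a b c e u v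
  · rw [flip_X hab hac hae hbc hbe hce h, flip_X hab hac hae hbc hbe hce h, not_not]
  · rw [flip_other hab hac hae hbc hbe hce h, flip_other hab hac hae hbc hbe hce h]

theorem isXs_ac : isXs a b c e a c := Or.inl rfl
theorem isXs_ae : isXs a b c e a e := Or.inr (Or.inl rfl)
theorem isXs_bc : isXs a b c e b c := Or.inr (Or.inr (Or.inl rfl))
theorem isXs_be : isXs a b c e b e := Or.inr (Or.inr (Or.inr rfl))

theorem notX_ab : ¬ isXs a b c e a b := by
  simp [isXs, Sym2.eq_iff, hab, hac, hae, hbc, hbe, hce, hab.symm, hac.symm, hae.symm, hbc.symm, hbe.symm, hce.symm]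

theorem notX_ce : ¬ isXs a b c e c e := by
  simp [isXs, Sym2.eq_iff, hab, hac, hae, hbc, hbe, hce, hab.symm, hac.symm, hae.symm, hbc.symm, hbe.symm, hce.symm]

theorem Kc_flip {G : Finset (Edge n)} : Kc a b c e G (flipG a b c e G) := by
  refine ⟨(flip_other hab hac hae hbc hbe hce (notX_ab hab hac hae hbc hbe hce)).symm,
    (flip_other hab hac hae hbc hbe hce (notX_ce hab hac hae hbc hbe hce)).symm,
    fun u v hu hv => (flip_other hab hac hae hbc hbe hce
      (Xval_not_of_off hab hac hae hbc hbe hce (y1 := True) (y2 := True) (y3 := True) (y4 := True) hv)).symm, fun w hw => ?_⟩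
  unfold prof
  rw [if_congr (flip_other hab hac hae hbc hbe hce (Xval_not_of_off hab hac hae hbc hbe hce (y1 := True) (y2 := True) (y3 := True) (y4 := True) hw)) rfl rfl,
    if_congr (flip_other hab hac hae hbc hbe hce (Xval_not_of_off hab hac hae hbc hbe hce (y1 := True) (y2 := True) (y3 := True) (y4 := True) hw)) rfl rfl]

theorem nbr_flip {G : Finset (Edge n)} (x : Fin n) :
    nbr a b c e (flipG a b c e G) x = nbr a b c e G x := by
  ext w
  simp only [nbr, mem_filter, mem_univ, true_and]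
  exact and_congr_right fun hw => flip_other hab hac hae hbc hbe hce
    (Xval_not_of_off hab hac hae hbc hbe hce (y1 := True) (y2 := True) (y3 := True) (y4 := True) hw)

theorem aa_flip {G : Finset (Edge n)} : aa a b c e (flipG a b c e G) = aa a b c e G := by
  unfold aa
  rw [nbr_flip hab hac hae hbc hbe hce, nbr_flip hab hac hae hbc hbe hce]

theorem cc_flip {G : Finset (Edge n)} : cc a b c e (flipG a b c e G) = cc a b c e G := by
  unfold cc
  rw [nbr_flip hab hac hae hbc hbe hce, nbr_flip hab hac hae hbc hbe hce]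

theorem ne_flip {G : Finset (Edge n)} : G ≠ flipG a b c e G := by
  intro h
  have h1 := flip_X (G := G) hab hac hae hbc hbe hce (isXs_ac (a := a) (b := b) (c := c) (e := e) hab hac hae hbc hbe hce)
  rw [← h] at h1
  tauto

theorem Y_iff_rc (G : Finset (Edge n)) :
    Ysplit a b c e G ↔ rowsOne a b c e G ∧ colsOne a b c e G := by
  unfold Ysplit rowsOne colsOne
  rw [← y_prop]

end distinct3


/-! ### The cross shape -/

theorem class_shape {d : Fin n → ℕ} (hab : a ≠ b) (hac : a ≠ c) (hae : a ≠ e) (hbc : b ≠ c)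
    (hbe : b ≠ e) (hce : c ≠ e) {G0 : Finset (Edge n)} (hG0 : G0 ∈ realizations d) :
    ∃ (A1 A0 : Finset (Finset (Fin n) × Finset (Fin n))) (C1 C0 : Finset (Finset (Fin n) × Finset (Fin n)))
      (gp gm : Finset (Fin n) × Finset (Fin n) → Finset (Fin n) × Finset (Fin n) → Finset (Edge n)),
      CrossShape ((realizations d).filter (Kc a b c e G0)) (aa a b c e) (cc a b c e) (Ysplit a b c e)
        (flipG a b c e) A1 A0 C1 C0 gp gm := by
  set K := (realizations d).filter (Kc a b c e G0) with hKdef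
  have memK : ∀ {x}, x ∈ K ↔ x ∈ realizations d ∧ Kc a b c e G0 x := by
    intro x; simp [hKdef]
  have Kcxy : ∀ {x y}, x ∈ K → y ∈ K → Kc a b c e x y := fun hx hy =>
    Kc_trans (Kc_symm (memK.1 hx).2) (memK.1 hy).2
  have sigK : ∀ {x y}, x ∈ K → y ∈ K → sig a b c e x = sig a b c e y := fun hx hy =>
    sig_eq hab hac hae hbc hbe hce (memK.1 hx).1 (memK.1 hy).1 (Kcxy hx hy)
  have rowsK : ∀ {x y}, x ∈ K → y ∈ K → aa a b c e x = aa a b c e y →
      (rowsOne a b c e x ↔ rowsOne a b c e y) := by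
    intro x y hx hy hA
    have h := row_eq hab hac hae hbc hbe hce (memK.1 hx).1 (memK.1 hy).1 (Kcxy hx hy) hA
    unfold rowsOne
    rw [h.1, h.2]
  have colsK : ∀ {x y}, x ∈ K → y ∈ K → cc a b c e x = cc a b c e y →
      (colsOne a b c e x ↔ colsOne a b c e y) := by
    intro x y hx hy hC
    have h := col_eq hab hac hae hbc hbe hce (memK.1 hx).1 (memK.1 hy).1 (Kcxy hx hy) hC
    unfold colsOne
    rw [h.1, h.2]
  -- gluing inside the class
  have glueK : ∀ {G1 G2}, G1 ∈ K → G2 ∈ K →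
      ¬ (sig a b c e G1 = 2 ∧ ¬ rowsOne a b c e G1 ∧ ¬ colsOne a b c e G2) →
      ∃ H ∈ K, aa a b c e H = aa a b c e G1 ∧ cc a b c e H = cc a b c e G2 := by
    intro G1 G2 h1 h2 hc
    have hs := sigK h1 h2
    obtain ⟨y1, y2, y3, y4, r1, r2, c1, c2⟩ := glue_prop (adj G1 a c) (adj G1 a e) (adj G1 b c) (adj G1 b e)
      (adj G2 a c) (adj G2 a e) (adj G2 b c) (adj G2 b e) hs hc
    refine ⟨glueG a b c e G1 G2 y1 y2 y3 y4, memK.2 ⟨?_, ?_⟩, aa_glue hab hac hae hbc hbe hce,
      cc_glue hab hac hae hbc hbe hce⟩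
    · exact glue_mem hab hac hae hbc hbe hce (memK.1 h1).1 (memK.1 h2).1 (Kcxy h1 h2) r1 r2 c1 c2
    · exact Kc_trans (memK.1 h1).2 (Kc_glue hab hac hae hbc hbe hce)
  let gp : Finset (Fin n) × Finset (Fin n) → Finset (Fin n) × Finset (Fin n) → Finset (Edge n) :=
    fun A C => Classical.epsilon fun H => H ∈ K ∧ aa a b c e H = A ∧ cc a b c e H = C
  have gp_spec : ∀ {A C}, (∃ H ∈ K, aa a b c e H = A ∧ cc a b c e H = C) →
      gp A C ∈ K ∧ aa a b c e (gp A C) = A ∧ cc a b c e (gp A C) = C := by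
    intro A C h
    obtain ⟨H, hH⟩ := h
    exact Classical.epsilon_spec (p := fun H => H ∈ K ∧ aa a b c e H = A ∧ cc a b c e H = C) ⟨H, hH⟩
  let A1 := (K.filter fun G => rowsOne a b c e G ∨ sig a b c e G ≠ 2).image (aa a b c e)
  let A0 := (K.filter fun G => ¬ rowsOne a b c e G ∧ sig a b c e G = 2).image (aa a b c e)
  let C1 := (K.filter fun G => colsOne a b c e G ∧ sig a b c e G = 2).image (cc a b c e)
  let C0 := (K.filter fun G => ¬ colsOne a b c e G ∨ sig a b c e G ≠ 2).image (cc a b c e)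
  have memA1 : ∀ {A}, A ∈ A1 ↔ ∃ G ∈ K, (rowsOne a b c e G ∨ sig a b c e G ≠ 2) ∧ aa a b c e G = A := by
    intro A; simp [A1, and_assoc]
  have memA0 : ∀ {A}, A ∈ A0 ↔ ∃ G ∈ K, (¬ rowsOne a b c e G ∧ sig a b c e G = 2) ∧ aa a b c e G = A := by
    intro A; simp [A0, and_assoc]
  have memC1 : ∀ {C}, C ∈ C1 ↔ ∃ G ∈ K, (colsOne a b c e G ∧ sig a b c e G = 2) ∧ cc a b c e G = C := by
    intro C; simp [C1, and_assoc]
  have memC0 : ∀ {C}, C ∈ C0 ↔ ∃ G ∈ K, (¬ colsOne a b c e G ∨ sig a b c e G ≠ 2) ∧ cc a b c e G = C := by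
    intro C; simp [C0, and_assoc]
  -- the three product cases
  have core11 : ∀ {A C}, A ∈ A1 → C ∈ C1 → gp A C ∈ K ∧ aa a b c e (gp A C) = A ∧ cc a b c e (gp A C) = C ∧
      Ysplit a b c e (gp A C) ∧ flipG a b c e (gp A C) ∈ K := by
    intro A C hA hC
    obtain ⟨G1, h1, h1a, rfl⟩ := memA1.1 hA
    obtain ⟨G2, h2, ⟨h2a, h2b⟩, rfl⟩ := memC1.1 hC
    have hs := sigK h1 h2
    have hr : rowsOne a b c e G1 := by
      rcases h1a with h | h
      · exact h
      · exact absurd (hs.trans h2b) h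
    obtain ⟨hg, hga, hgc⟩ := gp_spec (glueK h1 h2 (fun h => h.2.1 hr))
    have hY : Ysplit a b c e (gp (aa a b c e G1) (cc a b c e G2)) := by
      rw [Y_iff_rc hab hac hae hbc hbe hce]
      exact ⟨(rowsK hg h1 hga).2 hr, (colsK hg h2 hgc).2 h2a⟩
    refine ⟨hg, hga, hgc, hY, memK.2 ⟨flipG_mem d hab hac hae hbc hbe hce (memK.1 hg).1 hY, ?_⟩⟩
    exact Kc_trans (memK.1 hg).2 (Kc_flip hab hac hae hbc hbe hce)
  have core10 : ∀ {A C}, A ∈ A1 → C ∈ C0 → gp A C ∈ K ∧ aa a b c e (gp A C) = A ∧ cc a b c e (gp A C) = C := by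
    intro A C hA hC
    obtain ⟨G1, h1, h1a, rfl⟩ := memA1.1 hA
    obtain ⟨G2, h2, h2a, rfl⟩ := memC0.1 hC
    refine gp_spec (glueK h1 h2 ?_)
    rintro ⟨h3, h4, h5⟩
    rcases h1a with h | h
    · exact h4 h
    · exact h h3
  have core01 : ∀ {A C}, A ∈ A0 → C ∈ C1 → gp A C ∈ K ∧ aa a b c e (gp A C) = A ∧ cc a b c e (gp A C) = C := by
    intro A C hA hC
    obtain ⟨G1, h1, h1a, rfl⟩ := memA0.1 hA
    obtain ⟨G2, h2, ⟨h2a, h2b⟩, rfl⟩ := memC1.1 hC
    refine gp_spec (glueK h1 h2 ?_)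
    rintro ⟨h3, h4, h5⟩
    exact h5 h2a
  refine ⟨A1, A0, C1, C0, gp, fun A C => flipG a b c e (gp A C), ?_⟩
  refine ⟨?_, ?_, ?_, ?_, ?_, ?_, ?_⟩
  · -- hA
    rw [Finset.disjoint_left]
    intro A hA hA0
    obtain ⟨G1, h1, h1a, rfl⟩ := memA1.1 hA
    obtain ⟨G2, h2, ⟨h2a, h2b⟩, h2c⟩ := memA0.1 hA0
    rcases h1a with h | h
    · exact h2a ((rowsK h2 h1 h2c).2 h)
    · exact h ((sigK h1 h2).trans h2b)
  · -- hC
    rw [Finset.disjoint_left]
    intro C hC hC0
    obtain ⟨G1, h1, ⟨h1a, h1b⟩, rfl⟩ := memC1.1 hC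
    obtain ⟨G2, h2, h2a, h2c⟩ := memC0.1 hC0
    rcases h2a with h | h
    · exact h ((colsK h2 h1 h2c).2 h1a)
    · exact h ((sigK h2 h1).trans h1b)
  · -- h11
    intro A hA C hC
    obtain ⟨h1, h2, h3, h4, h5⟩ := core11 hA hC
    refine ⟨h2, h3, ?_, ?_, ne_flip hab hac hae hbc hbe hce, rfl, flip_flip hab hac hae hbc hbe hce _⟩
    · rw [aa_flip hab hac hae hbc hbe hce]; exact h2
    · rw [cc_flip hab hac hae hbc hbe hce]; exact h3
  · -- h10
    intro A hA C hC
    exact (core10 hA hC).2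
  · -- h01
    intro A hA C hC
    exact (core01 hA hC).2
  · -- mem_K
    intro x
    constructor
    · intro hx
      have hsx : ∃ H ∈ K, aa a b c e H = aa a b c e x ∧ cc a b c e H = cc a b c e x := ⟨x, hx, rfl, rfl⟩
      obtain ⟨hg, hga, hgc⟩ := gp_spec hsx
      set g := gp (aa a b c e x) (cc a b c e x) with hgdef
      have hr := row_eq hab hac hae hbc hbe hce (memK.1 hx).1 (memK.1 hg).1 (Kcxy hx hg) hga.symm
      have hc := col_eq hab hac hae hbc hbe hce (memK.1 hx).1 (memK.1 hg).1 (Kcxy hx hg) hgc.symm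
      have hu := uniq_prop _ _ _ _ _ _ _ _ hr.1 hr.2 hc.1 hc.2
      have eqg : ((adj x a c ↔ adj g a c) ∧ (adj x a e ↔ adj g a e) ∧ (adj x b c ↔ adj g b c) ∧
          (adj x b e ↔ adj g b e)) → x = g := fun h =>
        ext_class hab hac hae hbc hbe hce (Kcxy hx hg) hga.symm hgc.symm h.1 h.2.1 h.2.2.1 h.2.2.2
      have eqf : ((adj g a c ↔ ¬ adj x a c) ∧ (adj g a e ↔ ¬ adj x a e) ∧ (adj g b c ↔ ¬ adj x b c) ∧
          (adj g b e ↔ ¬ adj x b e)) → x = flipG a b c e g := by
        rintro ⟨h1, h2, h3, h4⟩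
        refine ext_class hab hac hae hbc hbe hce (Kc_trans (Kcxy hx hg) (Kc_flip hab hac hae hbc hbe hce)) ?_ ?_ ?_ ?_ ?_ ?_
        · rw [aa_flip hab hac hae hbc hbe hce]; exact hga.symm
        · rw [cc_flip hab hac hae hbc hbe hce]; exact hgc.symm
        · rw [flip_X hab hac hae hbc hbe hce (isXs_ac hab hac hae hbc hbe hce), h1, not_not]
        · rw [flip_X hab hac hae hbc hbe hce (isXs_ae hab hac hae hbc hbe hce), h2, not_not]
        · rw [flip_X hab hac hae hbc hbe hce (isXs_bc hab hac hae hbc hbe hce), h3, not_not]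
        · rw [flip_X hab hac hae hbc hbe hce (isXs_be hab hac hae hbc hbe hce), h4, not_not]
      by_cases hs : sig a b c e x = 2
      · by_cases hro : rowsOne a b c e x
        · by_cases hco : colsOne a b c e x
          · left
            refine ⟨_, memA1.2 ⟨x, hx, Or.inl hro, rfl⟩, _, memC1.2 ⟨x, hx, ⟨hco, hs⟩, rfl⟩, ?_⟩
            rcases hu with h | ⟨-, h⟩
            · exact Or.inl (eqg h)
            · exact Or.inr (eqf h)
          · right; left
            refine ⟨_, memA1.2 ⟨x, hx, Or.inl hro, rfl⟩, _, memC0.2 ⟨x, hx, Or.inl hco, rfl⟩, ?_⟩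
            rcases hu with h | ⟨h, -⟩
            · exact eqg h
            · exact absurd ⟨h.2.2.1, h.2.2.2⟩ hco
        · by_cases hco : colsOne a b c e x
          · right; right
            refine ⟨_, memA0.2 ⟨x, hx, ⟨hro, hs⟩, rfl⟩, _, memC1.2 ⟨x, hx, ⟨hco, hs⟩, rfl⟩, ?_⟩
            rcases hu with h | ⟨h, -⟩
            · exact eqg h
            · exact absurd ⟨h.1, h.2.1⟩ hro
          · exfalso
            rcases two_prop _ _ _ _ hs with h | h
            · exact hro h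
            · exact hco h
      · right; left
        refine ⟨_, memA1.2 ⟨x, hx, Or.inr hs, rfl⟩, _, memC0.2 ⟨x, hx, Or.inr hs, rfl⟩, ?_⟩
        rcases hu with h | ⟨h, -⟩
        · exact eqg h
        · exfalso
          apply hs
          unfold sig
          omega
    · rintro (⟨A, hA, C, hC, rfl | rfl⟩ | ⟨A, hA, C, hC, rfl⟩ | ⟨A, hA, C, hC, rfl⟩)
      · exact (core11 hA hC).1
      · exact (core11 hA hC).2.2.2.2
      · exact (core10 hA hC).1
      · exact (core01 hA hC).1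
  · -- Y_iff
    intro x hx
    rw [Y_iff_rc hab hac hae hbc hbe hce]
    constructor
    · rintro ⟨h1, h2⟩
      have hs : sig a b c e x = 2 := by
        have := h1.1
        have := h1.2
        unfold sig
        omega
      exact ⟨memA1.2 ⟨x, hx, Or.inl h1, rfl⟩, memC1.2 ⟨x, hx, ⟨h2, hs⟩, rfl⟩⟩
    · rintro ⟨h1, h2⟩
      obtain ⟨G1, h3, h4, h5⟩ := memA1.1 h1
      obtain ⟨G2, h6, ⟨h7, h8⟩, h9⟩ := memC1.1 h2
      refine ⟨?_, (colsK hx h6 h9.symm).2 h7⟩
      rcases h4 with h | h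
      · exact (rowsK hx h3 h5.symm).2 h
      · exact absurd ((sigK h3 h6).trans h8) h

end Crest.Agent.Switch.Split
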