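/-
S0453 C5a assembly: Part A on the graph side.  For distinct `a b c e`,
`Fl - Tt(ab;ce) - Tt(ce;ab) ≤ 2 ⟨Q_ab f, Q_ce f⟩`.

Sum over classes of `Kc`; on a class, the `(a,b)`-blocks are the fibres of `cc`, the `(c,e)`-blocks are the
fibres of `aa`, and `split_abstract` applies.
-/
import Crest.Agent.Lib.Switch.SplitBlk
import Crest.Agent.Lib.Switch.SplitAbs
import Crest.Agent.Lib.Switch.SplitShape

set_option autoImplicit false
set_option linter.unusedSectionVars false
set_option linter.unusedSimpArgs false
set_option linter.unusedVariables false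

namespace Crest.Agent.Switch.Split

open Finset Crest.SwitchChain
open scoped Classical

variable {n : ℕ} {a b c e : Fin n}

/-- The inequality on one class. -/
theorem class_ineq (hab : a ≠ b) (hac : a ≠ c) (hae : a ≠ e) (hbc : b ≠ c) (hbe : b ≠ e)
    (hce : c ≠ e) {d : Fin n → ℕ} {G0 : Finset (Edge n)} (hG0 : G0 ∈ realizations d)
    (f : Finset (Edge n) → ℝ) :
    (1 / 2) * (∑ H ∈ ((realizations d).filter (Kc a b c e G0)).filter (Ysplit a b c e),
        (f H - f (flipG a b c e H)) ^ 2)
      - (∑ H ∈ ((realizations d).filter (Kc a b c e G0)).filter (Ysplit a b c e),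
          (phi d a b c e f H) ^ 2)
      - (∑ H ∈ ((realizations d).filter (Kc a b c e G0)).filter (Ysplit a b c e),
          (phi d c e a b f H) ^ 2)
    ≤ 2 * ∑ H ∈ (realizations d).filter (Kc a b c e G0), Q d a b f H * Q d c e f H := by
  obtain ⟨A1, A0, C1, C0, gp, gm, hS⟩ := class_shape hab hac hae hbc hbe hce hG0
  have key := split_abstract hS f
  set K := (realizations d).filter (Kc a b c e G0) with hKdef
  have hmem : ∀ x ∈ K, x ∈ realizations d ∧ Kc a b c e G0 x := fun x hx => mem_filter.1 hx
  have e1 : ∀ x ∈ K, meanOn (K.filter fun y => cc a b c e y = cc a b c e x) f = avg d a b f x := by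
    intro x hx
    obtain ⟨h1, h2⟩ := hmem x hx
    unfold meanOn avg
    rw [blk_ab hab hac hae hbc hbe hce h1 h2]
  have e2 : ∀ x ∈ K, meanOn (K.filter fun y => aa a b c e y = aa a b c e x) f = avg d c e f x := by
    intro x hx
    obtain ⟨h1, h2⟩ := hmem x hx
    unfold meanOn avg
    rw [blk_ce hab hac hae hbc hbe hce h1 h2]
  have e3 : ∀ x ∈ K, meanOn ((K.filter (Ysplit a b c e)).filter
      fun y => cc a b c e y = cc a b c e x) f = sepMean d a b c e f x := by
    intro x hx
    obtain ⟨h1, h2⟩ := hmem x hx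
    unfold meanOn sepMean
    rw [blk_ab hab hac hae hbc hbe hce h1 h2, filter_comm]
  have e4 : ∀ x ∈ K, meanOn ((K.filter (Ysplit a b c e)).filter
      fun y => aa a b c e y = aa a b c e x) f = sepMean d c e a b f x := by
    intro x hx
    obtain ⟨h1, h2⟩ := hmem x hx
    have : (blk d c e x).filter (Ysplit c e a b)
        = (K.filter (Ysplit a b c e)).filter fun y => aa a b c e y = aa a b c e x := by
      rw [blk_ce hab hac hae hbc hbe hce h1 h2, filter_comm]
      ext y
      simp only [mem_filter, ysplit_comm, hKdef]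
    unfold meanOn sepMean
    rw [this]
  have s1 : ∑ x ∈ K.filter (Ysplit a b c e),
      (meanOn ((K.filter (Ysplit a b c e)).filter fun y => cc a b c e y = cc a b c e x) f
        - meanOn (K.filter fun y => cc a b c e y = cc a b c e x) f) ^ 2
      = ∑ H ∈ K.filter (Ysplit a b c e), (phi d a b c e f H) ^ 2 := by
    refine Finset.sum_congr rfl fun x hx => ?_
    have hx' := (mem_filter.1 hx).1
    rw [e3 x hx', e1 x hx']
    rfl
  have s2 : ∑ x ∈ K.filter (Ysplit a b c e),
      (meanOn ((K.filter (Ysplit a b c e)).filter fun y => aa a b c e y = aa a b c e x) f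
        - meanOn (K.filter fun y => aa a b c e y = aa a b c e x) f) ^ 2
      = ∑ H ∈ K.filter (Ysplit a b c e), (phi d c e a b f H) ^ 2 := by
    refine Finset.sum_congr rfl fun x hx => ?_
    have hx' := (mem_filter.1 hx).1
    rw [e4 x hx', e2 x hx']
    rfl
  have s3 : ∑ x ∈ K, (f x - meanOn (K.filter fun y => cc a b c e y = cc a b c e x) f)
      * (f x - meanOn (K.filter fun y => aa a b c e y = aa a b c e x) f)
      = ∑ H ∈ K, Q d a b f H * Q d c e f H := by
    refine Finset.sum_congr rfl fun x hx => ?_
    rw [e1 x hx, e2 x hx]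
    rfl
  have key' : (1 / 2) * (∑ x ∈ K.filter (Ysplit a b c e), (f x - f (flipG a b c e x)) ^ 2)
      - (∑ x ∈ K.filter (Ysplit a b c e),
          (meanOn ((K.filter (Ysplit a b c e)).filter fun y => cc a b c e y = cc a b c e x) f
            - meanOn (K.filter fun y => cc a b c e y = cc a b c e x) f) ^ 2)
      - (∑ x ∈ K.filter (Ysplit a b c e),
          (meanOn ((K.filter (Ysplit a b c e)).filter fun y => aa a b c e y = aa a b c e x) f
            - meanOn (K.filter fun y => aa a b c e y = aa a b c e x) f) ^ 2)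
    ≤ 2 * ∑ x ∈ K, (f x - meanOn (K.filter fun y => cc a b c e y = cc a b c e x) f)
                    * (f x - meanOn (K.filter fun y => aa a b c e y = aa a b c e x) f) := by
    convert key
  rw [s1, s2, s3] at key'
  exact key'

end Crest.Agent.Switch.Split

namespace Crest.Agent.Switch

open Finset Crest.SwitchChain Split
open scoped Classical

variable {n : ℕ}

/-- **Part A.** -/
theorem split_ineq (d : Fin n → ℕ) {a b c e : Fin n} (hab : a ≠ b) (hac : a ≠ c) (hae : a ≠ e)
    (hbc : b ≠ c) (hbe : b ≠ e) (hce : c ≠ e) (f : Finset (Edge n) → ℝ) :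
    Fl d a b c e f - Tt d a b c e f - Tt d c e a b f
      ≤ 2 * ∑ G ∈ realizations d, Q d a b f G * Q d c e f G := by
  set E : Finset (Edge n) → ℝ := fun H =>
    2 * (Q d a b f H * Q d c e f H)
      - ((1 / 2) * (if Ysplit a b c e H then (f H - f (flipG a b c e H)) ^ 2 else 0)
        - (if Ysplit a b c e H then (phi d a b c e f H) ^ 2 else 0)
        - (if Ysplit a b c e H then (phi d c e a b f H) ^ 2 else 0)) with hE
  have h1 : 0 ≤ ∑ G ∈ realizations d, E G := by
    rw [sum_eq_sum_gavg (Ω := realizations d) (r := Kc a b c e) Kc_refl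
      (fun _ _ h => Kc_symm h) (fun _ _ _ h h' => Kc_trans h h')]
    refine Finset.sum_nonneg fun G hG => ?_
    unfold gavg gblk
    refine div_nonneg ?_ (Nat.cast_nonneg _)
    have := class_ineq hab hac hae hbc hbe hce hG f
    simp only [hE, Finset.sum_sub_distrib, ← Finset.mul_sum]
    simp only [Finset.sum_filter] at this ⊢
    linarith
  have h2 : Tt d c e a b f = ∑ G ∈ (realizations d).filter (Ysplit a b c e), (phi d c e a b f G) ^ 2 := by
    unfold Tt
    congr 1
    ext y
    simp only [mem_filter, ysplit_comm]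
  rw [h2]
  unfold Fl Tt
  simp only [hE, Finset.sum_sub_distrib, ← Finset.mul_sum] at h1
  simp only [Finset.sum_filter]
  linarith

end Crest.Agent.Switch
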