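/-
S0453 component C9b: total variation from the Poincaré inequality.
-/
import Crest.Agent.Lib.Switch.Chain

set_option autoImplicit false
set_option linter.unusedSimpArgs false

namespace Crest.Agent.Switch

open Finset Crest.SwitchChain
open scoped Classical

variable {n : ℕ}

theorem sum_kernel_realizations (hn : 4 ≤ n) {d : Fin n → ℕ} {G : Finset (Edge n)}
    (hG : G ∈ realizations d) : ∑ G' ∈ realizations d, kernel n G G' = 1 := by
  rw [← kernel_sum hn G]
  refine Finset.sum_subset (subset_univ _) ?_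
  intro x _ hx
  exact kernel_eq_zero_of_notMem hG hx

/-- The chain restricted to realizations. -/
noncomputable def Pop (d : Fin n → ℕ) (f : Finset (Edge n) → ℝ) (G : Finset (Edge n)) : ℝ :=
  ∑ G' ∈ realizations d, kernel n G G' * f G'

/-- `R = 2 K - 1`: Jensen. -/
theorem sum_sq_R_le (hn : 4 ≤ n) (d : Fin n → ℕ) (f : Finset (Edge n) → ℝ) :
    ∑ G ∈ realizations d, (2 * Pop d f G - f G) ^ 2 ≤ ∑ G ∈ realizations d, f G ^ 2 := by
  set Ω := realizations d with hΩ
  let R : Finset (Edge n) → Finset (Edge n) → ℝ := fun G G' => 2 * kernel n G G' - if G = G' then 1 else 0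
  have hRnn : ∀ G G', 0 ≤ R G G' := by
    intro G G'
    have h := kernel_ge hn G G'
    simp only [R]
    split_ifs at h ⊢ with h1
    · linarith
    · linarith
  have hRsymm : ∀ G G', R G G' = R G' G := by
    intro G G'
    simp only [R]
    rw [kernel_symm]
    by_cases h : G = G'
    · rw [h]
    · rw [if_neg h, if_neg (Ne.symm h)]
  have hRsum : ∀ G ∈ Ω, ∑ G' ∈ Ω, R G G' = 1 := by
    intro G hG
    simp only [R, Finset.sum_sub_distrib, ← Finset.mul_sum]
    rw [sum_kernel_realizations hn hG, Finset.sum_ite_eq]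
    simp [hG]
    norm_num
  have hRf : ∀ G ∈ Ω, ∑ G' ∈ Ω, R G G' * f G' = 2 * Pop d f G - f G := by
    intro G hG
    simp only [R, sub_mul, Finset.sum_sub_distrib, Pop, Finset.mul_sum, mul_assoc]
    congr 1
    simp [hG]
  have hJ : ∀ G ∈ Ω, (2 * Pop d f G - f G) ^ 2 ≤ ∑ G' ∈ Ω, R G G' * f G' ^ 2 := by
    intro G hG
    set g := 2 * Pop d f G - f G with hg
    have h0 : 0 ≤ ∑ G' ∈ Ω, R G G' * (f G' - g) ^ 2 :=
      Finset.sum_nonneg fun G' _ => mul_nonneg (hRnn _ _) (sq_nonneg _)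
    have h1 : ∑ G' ∈ Ω, R G G' * (f G' - g) ^ 2
        = ∑ G' ∈ Ω, R G G' * f G' ^ 2 - 2 * g * ∑ G' ∈ Ω, R G G' * f G' + g ^ 2 * ∑ G' ∈ Ω, R G G' := by
      rw [Finset.mul_sum, Finset.mul_sum, ← Finset.sum_sub_distrib, ← Finset.sum_add_distrib]
      exact Finset.sum_congr rfl fun G' _ => by ring
    rw [h1, hRf G hG, hRsum G hG] at h0
    nlinarith
  calc ∑ G ∈ Ω, (2 * Pop d f G - f G) ^ 2 ≤ ∑ G ∈ Ω, ∑ G' ∈ Ω, R G G' * f G' ^ 2 :=
        Finset.sum_le_sum hJ
    _ = ∑ G' ∈ Ω, ∑ G ∈ Ω, R G G' * f G' ^ 2 := Finset.sum_comm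
    _ = ∑ G' ∈ Ω, f G' ^ 2 := by
        refine Finset.sum_congr rfl fun G' hG' => ?_
        rw [← Finset.sum_mul]
        have : ∑ G ∈ Ω, R G G' = 1 := by
          rw [← hRsum G' hG']
          exact Finset.sum_congr rfl fun G _ => hRsymm _ _
        rw [this, one_mul]

/-- `‖P f‖² ≤ ⟨f, P f⟩`. -/
theorem sum_sq_Pop_le (hn : 4 ≤ n) (d : Fin n → ℕ) (f : Finset (Edge n) → ℝ) :
    ∑ G ∈ realizations d, Pop d f G ^ 2 ≤ ∑ G ∈ realizations d, f G * Pop d f G := by
  have h := sum_sq_R_le hn d f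
  have h2 : ∑ G ∈ realizations d, ((2 * Pop d f G - f G) ^ 2 - f G ^ 2)
      = 4 * (∑ G ∈ realizations d, Pop d f G ^ 2 - ∑ G ∈ realizations d, f G * Pop d f G) := by
    rw [← Finset.sum_sub_distrib, Finset.mul_sum]
    exact Finset.sum_congr rfl fun G _ => by ring
  rw [Finset.sum_sub_distrib] at h2
  linarith

/-- The one-step contraction. -/
theorem contraction (hn : 4 ≤ n) (d : Fin n → ℕ) (hd : (realizations d).Nonempty) {A : ℝ} (hA : 0 < A)
    (hP : ∀ f : Finset (Edge n) → ℝ,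
      ((realizations d).card : ℝ) * (∑ G ∈ realizations d, f G ^ 2) - (∑ G ∈ realizations d, f G) ^ 2
        ≤ A * (realizations d).card *
            ∑ G ∈ realizations d, f G * (f G - ∑ G' ∈ realizations d, kernel n G G' * f G'))
    (f : Finset (Edge n) → ℝ) (hf : ∑ G ∈ realizations d, f G = 0) :
    ∑ G ∈ realizations d, Pop d f G ^ 2 ≤ (1 - 1 / A) * ∑ G ∈ realizations d, f G ^ 2 := by
  have hc : (0 : ℝ) < ((realizations d).card : ℝ) := by exact_mod_cast card_pos.2 hd
  have h1 := hP f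
  rw [hf] at h1
  have h2 : ∑ G ∈ realizations d, f G * (f G - ∑ G' ∈ realizations d, kernel n G G' * f G')
      = ∑ G ∈ realizations d, f G ^ 2 - ∑ G ∈ realizations d, f G * Pop d f G := by
    rw [← Finset.sum_sub_distrib]
    exact Finset.sum_congr rfl fun G _ => by unfold Pop; ring
  rw [h2] at h1
  have h3 : ∑ G ∈ realizations d, f G ^ 2 ≤
      A * (∑ G ∈ realizations d, f G ^ 2 - ∑ G ∈ realizations d, f G * Pop d f G) := by
    have : ((realizations d).card : ℝ) * ∑ G ∈ realizations d, f G ^ 2 ≤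
        ((realizations d).card : ℝ) * (A * (∑ G ∈ realizations d, f G ^ 2 - ∑ G ∈ realizations d, f G * Pop d f G)) := by
      nlinarith
    exact le_of_mul_le_mul_left this hc
  have h4 := sum_sq_Pop_le hn d f
  have h5 : (1 - 1 / A) * ∑ G ∈ realizations d, f G ^ 2
      = ∑ G ∈ realizations d, f G ^ 2 - (∑ G ∈ realizations d, f G ^ 2) / A := by
    field_simp
  rw [h5]
  have h6 : (∑ G ∈ realizations d, f G ^ 2) / A ≤
      ∑ G ∈ realizations d, f G ^ 2 - ∑ G ∈ realizations d, f G * Pop d f G := by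
    rw [div_le_iff₀ hA]; linarith
  linarith

/-! ### Matrix powers -/

theorem pow_zero_off (n : ℕ) (hn : 4 ≤ n) {d : Fin n → ℕ} {G G' : Finset (Edge n)}
    (hG : G ∈ realizations d) (hG' : G' ∉ realizations d) (t : ℕ) : (kernel n ^ t) G G' = 0 := by
  induction t generalizing G' with
  | zero =>
    have hne : G ≠ G' := fun h => hG' (h ▸ hG)
    simp [Matrix.one_apply, hne]
  | succ t ih =>
    rw [pow_succ, Matrix.mul_apply]
    refine Finset.sum_eq_zero fun G'' _ => ?_
    by_cases h : G'' ∈ realizations d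
    · rw [kernel_eq_zero_of_notMem h hG', mul_zero]
    · rw [ih h, zero_mul]

theorem pow_succ_eq (n : ℕ) (hn : 4 ≤ n) {d : Fin n → ℕ} {G : Finset (Edge n)}
    (hG : G ∈ realizations d) (t : ℕ) (G' : Finset (Edge n)) :
    (kernel n ^ (t + 1)) G G' = Pop d (fun K => (kernel n ^ t) G K) G' := by
  rw [pow_succ, Matrix.mul_apply]
  unfold Pop
  rw [← Finset.sum_subset (subset_univ (realizations d))]
  · exact Finset.sum_congr rfl fun G'' _ => by rw [kernel_symm, mul_comm]
  · intro x _ hx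
    rw [pow_zero_off n hn hG hx, zero_mul]

theorem sum_pow_eq_one (n : ℕ) (hn : 4 ≤ n) {d : Fin n → ℕ} {G : Finset (Edge n)}
    (hG : G ∈ realizations d) (t : ℕ) : ∑ G' ∈ realizations d, (kernel n ^ t) G G' = 1 := by
  induction t with
  | zero => simp [Matrix.one_apply, hG]
  | succ t ih =>
    simp only [pow_succ_eq n hn hG, Pop]
    rw [Finset.sum_comm]
    rw [← ih]
    refine Finset.sum_congr rfl fun G'' hG'' => ?_
    rw [← Finset.sum_mul]
    have : ∑ G' ∈ realizations d, kernel n G' G'' = 1 := by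
      rw [← sum_kernel_realizations hn hG'']
      exact Finset.sum_congr rfl fun _ _ => kernel_symm _ _
    rw [this, one_mul]

/-- Variance decay along the chain. -/
theorem var_decay (hn : 4 ≤ n) (d : Fin n → ℕ) (hd : (realizations d).Nonempty) {A : ℝ} (hA : 1 ≤ A)
    (hP : ∀ f : Finset (Edge n) → ℝ,
      ((realizations d).card : ℝ) * (∑ G ∈ realizations d, f G ^ 2) - (∑ G ∈ realizations d, f G) ^ 2
        ≤ A * (realizations d).card *
            ∑ G ∈ realizations d, f G * (f G - ∑ G' ∈ realizations d, kernel n G G' * f G'))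
    {G : Finset (Edge n)} (hG : G ∈ realizations d) (t : ℕ) :
    ∑ G' ∈ realizations d, ((kernel n ^ t) G G' - 1 / ((realizations d).card : ℝ)) ^ 2
      ≤ (1 - 1 / A) ^ t := by
  have hc : (0 : ℝ) < ((realizations d).card : ℝ) := by exact_mod_cast card_pos.2 hd
  have hA0 : 0 < A := by linarith
  have hρ : 0 ≤ 1 - 1 / A := by
    have : 1 / A ≤ 1 := by rw [div_le_one hA0]; exact hA
    linarith
  set c := 1 / ((realizations d).card : ℝ) with hcdef
  induction t with
  | zero =>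
    have h1 : ∑ G' ∈ realizations d, ((if G = G' then (1 : ℝ) else 0) - c) ^ 2 = 1 - c := by
      have : ∀ G' ∈ realizations d, ((if G = G' then (1 : ℝ) else 0) - c) ^ 2
          = (1 - 2 * c) * (if G = G' then (1 : ℝ) else 0) + c ^ 2 := by
        intro G' _
        split_ifs <;> ring
      rw [Finset.sum_congr rfl this, Finset.sum_add_distrib, ← Finset.mul_sum, Finset.sum_ite_eq]
      simp only [hG, if_true, Finset.sum_const, nsmul_eq_mul]
      rw [hcdef]
      field_simp
      ring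
    simp only [pow_zero, Matrix.one_apply]
    rw [h1]
    have : 0 ≤ c := by positivity
    linarith
  | succ t ih =>
    set f : Finset (Edge n) → ℝ := fun G' => (kernel n ^ t) G G' - c with hf
    have hf0 : ∑ G' ∈ realizations d, f G' = 0 := by
      simp only [hf, Finset.sum_sub_distrib, Finset.sum_const, nsmul_eq_mul]
      rw [sum_pow_eq_one n hn hG, hcdef]
      field_simp
      ring
    have hcon := contraction hn d hd hA0 hP f hf0
    have hPf : ∀ G' ∈ realizations d, Pop d f G' = (kernel n ^ (t + 1)) G G' - c := by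
      intro G' hG'
      rw [pow_succ_eq n hn hG]
      simp only [Pop, hf, mul_sub, Finset.sum_sub_distrib, ← Finset.sum_mul]
      rw [sum_kernel_realizations hn hG', one_mul]
    calc ∑ G' ∈ realizations d, ((kernel n ^ (t + 1)) G G' - c) ^ 2
        = ∑ G' ∈ realizations d, Pop d f G' ^ 2 :=
          Finset.sum_congr rfl fun G' hG' => by rw [hPf G' hG']
      _ ≤ (1 - 1 / A) * ∑ G' ∈ realizations d, f G' ^ 2 := hcon
      _ ≤ (1 - 1 / A) * (1 - 1 / A) ^ t := mul_le_mul_of_nonneg_left ih hρ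
      _ = (1 - 1 / A) ^ (t + 1) := by ring

/-- TV in terms of `L²`. -/
theorem tv_le_of_L2 (n : ℕ) (hn : 4 ≤ n) {d : Fin n → ℕ} {G : Finset (Edge n)}
    (hG : G ∈ realizations d) (t : ℕ)
    (hV : ((realizations d).card : ℝ) *
      ∑ G' ∈ realizations d, ((kernel n ^ t) G G' - 1 / ((realizations d).card : ℝ)) ^ 2 ≤ 1 / 4) :
    tvDist (fun G' => (kernel n ^ t) G G') (unifOn (realizations d)) ≤ 1 / 4 := by
  unfold tvDist unifOn
  have h1 : ∑ a, |(kernel n ^ t) G a - if a ∈ realizations d then 1 / ((realizations d).card : ℝ) else 0|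
      = ∑ a ∈ realizations d, |(kernel n ^ t) G a - 1 / ((realizations d).card : ℝ)| := by
    symm
    have h2 : ∑ a ∈ realizations d, |(kernel n ^ t) G a - 1 / ((realizations d).card : ℝ)|
        = ∑ a ∈ realizations d, |(kernel n ^ t) G a - if a ∈ realizations d then 1 / ((realizations d).card : ℝ) else 0| :=
      Finset.sum_congr rfl fun a ha => by rw [if_pos ha]
    rw [h2]
    refine Finset.sum_subset (subset_univ _) ?_
    intro x _ hx
    rw [if_neg hx, pow_zero_off n hn hG hx]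
    simp
  rw [h1]
  have h3 := sq_sum_le_card_mul_sum_sq (s := realizations d)
    (f := fun a => |(kernel n ^ t) G a - 1 / ((realizations d).card : ℝ)|)
  simp only [sq_abs] at h3
  have h4 : (∑ a ∈ realizations d, |(kernel n ^ t) G a - 1 / ((realizations d).card : ℝ)|) ^ 2 ≤ (1 / 2) ^ 2 := by
    refine h3.trans (hV.trans ?_)
    norm_num
  have h5 : 0 ≤ ∑ a ∈ realizations d, |(kernel n ^ t) G a - 1 / ((realizations d).card : ℝ)| :=
    Finset.sum_nonneg fun _ _ => abs_nonneg _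
  have h6 := abs_le_of_sq_le_sq' h4 (by norm_num)
  linarith [h6.2]

/-- Numerics. -/
theorem numerics (hn : 4 ≤ n) (d : Fin n → ℕ) :
    ((realizations d).card : ℝ) *
      (1 - 1 / (24 * (n : ℝ) ^ 2 * (n.choose 4 : ℝ))) ^ (2 * n ^ 8) ≤ 1 / 4 := by
  have hn' : (4 : ℝ) ≤ (n : ℝ) := by exact_mod_cast hn
  set A : ℝ := 24 * (n : ℝ) ^ 2 * (n.choose 4 : ℝ) with hA
  have hC := choose_four_pos hn
  have hC1 : (1 : ℝ) ≤ (n.choose 4 : ℝ) := by
    have : 1 ≤ n.choose 4 := Nat.choose_pos hn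
    exact_mod_cast this
  have hA1 : 1 ≤ A := by
    rw [hA]
    have : (16 : ℝ) ≤ (n : ℝ) ^ 2 := by nlinarith
    nlinarith
  have hA0 : 0 < A := by linarith
  have hAle : A ≤ (n : ℝ) ^ 6 := by
    have h := Nat.choose_le_pow_div (α := ℝ) 4 n
    have h4 : ((4 : ℕ).factorial : ℝ) = 24 := by norm_num [Nat.factorial]
    rw [h4] at h
    rw [hA]
    have : (0 : ℝ) ≤ (n : ℝ) ^ 2 := by positivity
    calc 24 * (n : ℝ) ^ 2 * (n.choose 4 : ℝ) ≤ 24 * (n : ℝ) ^ 2 * ((n : ℝ) ^ 4 / 24) :=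
          mul_le_mul_of_nonneg_left h (by positivity)
      _ = (n : ℝ) ^ 6 := by ring
  -- `|Ω| ≤ 2^{n²}`
  have hcard : ((realizations d).card : ℝ) ≤ Real.exp ((n : ℝ) ^ 2) := by
    have h1 : (realizations d).card ≤ 2 ^ (Fintype.card (Edge n)) := by
      have := Finset.card_le_univ (realizations d)
      rwa [Fintype.card_finset] at this
    have h2 : Fintype.card (Edge n) ≤ n ^ 2 := by
      have : Fintype.card (Edge n) = (Fintype.card (Fin n)).choose 2 := Sym2.card_subtype_not_diag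
      rw [this, Fintype.card_fin]
      rw [Nat.choose_two_right, sq]
      exact (Nat.div_le_self _ _).trans (Nat.mul_le_mul_left _ (Nat.sub_le _ _))
    have h3 : ((realizations d).card : ℝ) ≤ (2 : ℝ) ^ (n ^ 2) := by
      calc ((realizations d).card : ℝ) ≤ ((2 ^ (Fintype.card (Edge n)) : ℕ) : ℝ) := by exact_mod_cast h1
        _ = (2 : ℝ) ^ (Fintype.card (Edge n)) := by push_cast; rfl
        _ ≤ (2 : ℝ) ^ (n ^ 2) := pow_le_pow_right₀ (by norm_num) h2
    refine h3.trans ?_
    have h4 : (2 : ℝ) ≤ Real.exp 1 := by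
      have := Real.add_one_le_exp (1 : ℝ)
      linarith
    calc (2 : ℝ) ^ (n ^ 2) ≤ (Real.exp 1) ^ (n ^ 2) := pow_le_pow_left₀ (by norm_num) h4 _
      _ = Real.exp ((n : ℝ) ^ 2) := by
        rw [← Real.exp_nat_mul]
        push_cast
        ring_nf
  -- decay
  have hdecay : (1 - 1 / A) ^ (2 * n ^ 8) ≤ Real.exp (-(2 * (n : ℝ) ^ 2)) := by
    have h1 : 1 - 1 / A ≤ Real.exp (-(1 / A)) := by
      have := Real.add_one_le_exp (-(1 / A))
      linarith
    have h0 : 0 ≤ 1 - 1 / A := by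
      have : 1 / A ≤ 1 := by rw [div_le_one hA0]; exact hA1
      linarith
    calc (1 - 1 / A) ^ (2 * n ^ 8) ≤ (Real.exp (-(1 / A))) ^ (2 * n ^ 8) := pow_le_pow_left₀ h0 h1 _
      _ = Real.exp (((2 * n ^ 8 : ℕ) : ℝ) * (-(1 / A))) := by rw [Real.exp_nat_mul]
      _ ≤ Real.exp (-(2 * (n : ℝ) ^ 2)) := by
        apply Real.exp_le_exp.2
        push_cast
        have hn6 : (0 : ℝ) < (n : ℝ) ^ 6 := by positivity
        have : 2 * (n : ℝ) ^ 2 * A ≤ 2 * (n : ℝ) ^ 8 := by
          have : (n : ℝ) ^ 8 = (n : ℝ) ^ 2 * (n : ℝ) ^ 6 := by ring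
          rw [this]
          have hp : (0 : ℝ) ≤ 2 * (n : ℝ) ^ 2 := by positivity
          nlinarith [mul_le_mul_of_nonneg_left hAle hp]
        have h2 : 2 * (n : ℝ) ^ 2 ≤ 2 * (n : ℝ) ^ 8 * (1 / A) := by
          rw [mul_one_div, le_div_iff₀ hA0]
          exact this
        linarith
  have h0 : 0 ≤ (1 - 1 / A) ^ (2 * n ^ 8) := by
    apply pow_nonneg
    have : 1 / A ≤ 1 := by rw [div_le_one hA0]; exact hA1
    linarith
  calc ((realizations d).card : ℝ) * (1 - 1 / A) ^ (2 * n ^ 8)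
      ≤ Real.exp ((n : ℝ) ^ 2) * Real.exp (-(2 * (n : ℝ) ^ 2)) :=
        mul_le_mul hcard hdecay h0 (Real.exp_pos _).le
    _ = Real.exp (-((n : ℝ) ^ 2)) := by
        rw [← Real.exp_add]; congr 1; ring
    _ ≤ Real.exp (-2) := by
        apply Real.exp_le_exp.2
        nlinarith
    _ ≤ 1 / 4 := by
        rw [Real.exp_neg, one_div]
        apply inv_anti₀ (by norm_num)
        have h4 : (2 : ℝ) ≤ Real.exp 1 := by
          have := Real.add_one_le_exp (1 : ℝ)
          linarith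
        have : Real.exp 2 = Real.exp 1 * Real.exp 1 := by
          rw [← Real.exp_add]; norm_num
        rw [this]
        nlinarith

/-- TV part from a Poincaré inequality with constant `24 n² C(n,4)`. -/
theorem tv_of_poincare (hn : 4 ≤ n) (d : Fin n → ℕ) (hd : (realizations d).Nonempty)
    (hP : ∀ f : Finset (Edge n) → ℝ,
      ((realizations d).card : ℝ) * (∑ G ∈ realizations d, f G ^ 2) - (∑ G ∈ realizations d, f G) ^ 2
        ≤ 24 * (n : ℝ) ^ 2 * (n.choose 4 : ℝ) * (realizations d).card *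
            ∑ G ∈ realizations d, f G * (f G - ∑ G' ∈ realizations d, kernel n G G' * f G')) :
    ∃ t : ℕ, t ≤ 2 * n ^ 8 ∧ ∀ G ∈ realizations d,
        tvDist (fun G' => (kernel n ^ t) G G') (unifOn (realizations d)) ≤ 1 / 4 := by
  refine ⟨2 * n ^ 8, le_rfl, fun G hG => ?_⟩
  have hn' : (4 : ℝ) ≤ (n : ℝ) := by exact_mod_cast hn
  have hC1 : (1 : ℝ) ≤ (n.choose 4 : ℝ) := by
    have : 1 ≤ n.choose 4 := Nat.choose_pos hn
    exact_mod_cast this
  have hA1 : 1 ≤ 24 * (n : ℝ) ^ 2 * (n.choose 4 : ℝ) := by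
    have : (16 : ℝ) ≤ (n : ℝ) ^ 2 := by nlinarith
    nlinarith
  refine tv_le_of_L2 n hn hG _ ?_
  have h1 := var_decay hn d hd hA1 hP hG (2 * n ^ 8)
  have h2 := numerics hn d
  refine le_trans ?_ h2
  exact mul_le_mul_of_nonneg_left h1 (by positivity)

end Crest.Agent.Switch
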