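/-
S0453 C6: the abstract three-row lemma (blueprint `s0453_blueprint.md`, Part B).

Binary `3 × C` matrices with prescribed column sums `s` and row sums `r`, rows being finsets.
`P_x` is the average over the matrices with the same row `x`.  Then `P_0 + P_1 + P_2` has no
eigenvalue in the open interval `(2, 3)`.
-/
import Crest.Agent.Lib.Switch.Basic
import Crest.Agent.Lib.Switch.Spectral

set_option autoImplicit false

namespace Crest.Agent.Switch.ThreeRow

open Finset
open scoped Classical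

set_option linter.unusedSectionVars false
set_option linter.unusedSimpArgs false
set_option linter.unusedVariables false

variable {C : Type*} [Fintype C]

/-- Binary `3 × C` matrices (rows as finsets) with column sums `s` and row sums `r`. -/
noncomputable def Om (s : C → ℕ) (r : Fin 3 → ℕ) : Finset (Fin 3 → Finset C) :=
  univ.filter fun m => (∀ w, (univ.filter fun x => w ∈ m x).card = s w) ∧ ∀ x, (m x).card = r x

variable {s : C → ℕ} {r : Fin 3 → ℕ}

theorem mem_Om {m : Fin 3 → Finset C} :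
    m ∈ Om s r ↔ (∀ w, (univ.filter fun x => w ∈ m x).card = s w) ∧ ∀ x, (m x).card = r x := by
  simp [Om]

/-- Three distinct rows. -/
structure Tri (x y z : Fin 3) : Prop where
  xy : x ≠ y
  xz : x ≠ z
  yz : y ≠ z

theorem Tri.swap {x y z : Fin 3} (h : Tri x y z) : Tri x z y := ⟨h.xz, h.xy, h.yz.symm⟩

theorem exists_tri (x : Fin 3) : ∃ y z, Tri x y z := by
  fin_cases x
  · exact ⟨1, 2, by decide, by decide, by decide⟩
  · exact ⟨0, 2, by decide, by decide, by decide⟩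
  · exact ⟨0, 1, by decide, by decide, by decide⟩

theorem exists_third {i j : Fin 3} (h : i ≠ j) : ∃ k, Tri i j k := by
  have : ∃ k : Fin 3, i ≠ j ∧ i ≠ k ∧ j ≠ k := by
    revert i j
    decide
  obtain ⟨k, h1, h2, h3⟩ := this
  exact ⟨k, h1, h2, h3⟩

theorem univ_tri {x y z : Fin 3} (h : Tri x y z) : (univ : Finset (Fin 3)) = {x, y, z} := by
  obtain ⟨h1, h2, h3⟩ := h
  revert x y z
  decide

theorem sum_tri {x y z : Fin 3} (h : Tri x y z) {β : Type*} [AddCommMonoid β] (F : Fin 3 → β) :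
    ∑ i, F i = F x + F y + F z := by
  rw [univ_tri h, Finset.sum_insert, Finset.sum_insert, Finset.sum_singleton, add_assoc]
  · simpa using h.yz
  · simpa using ⟨h.xy, h.xz⟩

theorem col_eq {x y z : Fin 3} (h : Tri x y z) (m : Fin 3 → Finset C) (w : C) :
    (univ.filter fun i => w ∈ m i).card
      = (if w ∈ m x then 1 else 0) + (if w ∈ m y then 1 else 0) + (if w ∈ m z then 1 else 0) := by
  rw [Finset.card_filter, sum_tri h]

theorem col_m {x y z : Fin 3} (h : Tri x y z) {m : Fin 3 → Finset C} (hm : m ∈ Om s r) (w : C) :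
    (if w ∈ m x then 1 else 0) + (if w ∈ m y then 1 else 0) + (if w ∈ m z then 1 else 0) = s w := by
  rw [← col_eq h]
  exact (mem_Om.1 hm).1 w

theorem row_m {x : Fin 3} {m : Fin 3 → Finset C} (hm : m ∈ Om s r) : (m x).card = r x :=
  (mem_Om.1 hm).2 x

theorem card_exch {T : Finset C} {p q : C} (hp : p ∈ T) (hq : q ∉ T) :
    (insert q (T.erase p)).card = T.card := by
  rw [card_insert_of_notMem (fun h => hq (mem_of_mem_erase h)), card_erase_of_mem hp]
  have := card_pos.2 ⟨p, hp⟩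
  omega

/-- Elementary exchange between rows `i`, `j`: row `i` swaps `p` for `q`, row `j` swaps `q` for `p`. -/
noncomputable def ex (i j : Fin 3) (p q : C) (m : Fin 3 → Finset C) : Fin 3 → Finset C :=
  fun k => if k = i then insert q ((m i).erase p) else if k = j then insert p ((m j).erase q) else m k

theorem ex_left (i j : Fin 3) (p q : C) (m : Fin 3 → Finset C) :
    ex i j p q m i = insert q ((m i).erase p) := by simp [ex]

theorem ex_right {i j : Fin 3} (h : i ≠ j) (p q : C) (m : Fin 3 → Finset C) :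
    ex i j p q m j = insert p ((m j).erase q) := by simp [ex, h.symm]

theorem ex_other {i j k : Fin 3} (h1 : k ≠ i) (h2 : k ≠ j) (p q : C) (m : Fin 3 → Finset C) :
    ex i j p q m k = m k := by simp [ex, h1, h2]

theorem ex_mem {i j : Fin 3} (h : i ≠ j) {p q : C} {m : Fin 3 → Finset C} (hm : m ∈ Om s r)
    (h1 : p ∈ m i) (h2 : p ∉ m j) (h3 : q ∉ m i) (h4 : q ∈ m j) : ex i j p q m ∈ Om s r := by
  obtain ⟨k, hk⟩ := exists_third h
  have hpq : p ≠ q := by rintro rfl; exact h2 (by exact h4)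
  rw [mem_Om]
  constructor
  · intro w
    rw [col_eq hk, ex_left, ex_right h, ex_other hk.xz.symm hk.yz.symm, ← col_m hk hm w]
    by_cases hwp : w = p
    · subst hwp
      simp [h1, h2, hpq]
    · by_cases hwq : w = q
      · subst hwq
        simp [h3, h4, hpq, Ne.symm hpq]
      · simp [hwp, hwq]
  · intro x
    by_cases hxi : x = i
    · subst hxi
      rw [ex_left, card_exch h1 h3, row_m hm]
    · by_cases hxj : x = j
      · subst hxj
        rw [ex_right h, card_exch h4 h2, row_m hm]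
      · rw [ex_other hxi hxj, row_m hm]

theorem ex_ex {i j : Fin 3} (h : i ≠ j) {p q : C} {m : Fin 3 → Finset C}
    (h1 : p ∈ m i) (h2 : p ∉ m j) (h3 : q ∉ m i) (h4 : q ∈ m j) : ex i j q p (ex i j p q m) = m := by
  have hpq : p ≠ q := by rintro rfl; exact h2 (by exact h4)
  funext k
  by_cases hki : k = i
  · subst hki
    rw [ex_left, ex_left]
    ext u
    simp only [mem_insert, mem_erase]
    by_cases hu : u = p
    · subst hu; simp [h1]
    · by_cases hu2 : u = q
      · subst hu2; simp [h3, hu]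
      · simp [hu, hu2]
  · by_cases hkj : k = j
    · subst hkj
      rw [ex_right h, ex_right h]
      ext u
      simp only [mem_insert, mem_erase]
      by_cases hu : u = q
      · subst hu; simp [h4]
      · by_cases hu2 : u = p
        · subst hu2; simp [h2, hu]
        · simp [hu, hu2]
    · rw [ex_other hki hkj, ex_other hki hkj]

/-! ### A biregular comparison of averages -/

theorem bireg {α β γ : Type*} (P : Finset α) (R : Finset β) (A : α → Finset γ) (B : β → Finset γ)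
    (k l : ℕ) (hk : ∀ a ∈ P, (A a).card = k) (hl : ∀ b ∈ R, (B b).card = l)
    (F : α → γ → β) (G : β → γ → α)
    (hF : ∀ a ∈ P, ∀ c ∈ A a, F a c ∈ R ∧ c ∈ B (F a c) ∧ G (F a c) c = a)
    (hG : ∀ b ∈ R, ∀ c ∈ B b, G b c ∈ P ∧ c ∈ A (G b c) ∧ F (G b c) c = b)
    (hkpos : P.Nonempty → 0 < k) (hR : R.Nonempty) (Φ : α → ℝ) (φ : β → ℝ) (D : ℝ)
    (hD : ∀ a ∈ P, ∀ c ∈ A a, |Φ a - φ (F a c)| ≤ D) :
    |∑ a ∈ P, Φ a - (P.card : ℝ) * ((∑ b ∈ R, φ b) / (R.card : ℝ))| ≤ (P.card : ℝ) * D := by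
  rcases P.eq_empty_or_nonempty with rfl | hP
  · simp
  have hk0 : 0 < k := hkpos hP
  have hk0' : (0 : ℝ) < k := by exact_mod_cast hk0
  have hRc : (0 : ℝ) < R.card := by exact_mod_cast card_pos.2 hR
  -- double counting
  have dc : ∀ h : β → ℝ, ∑ a ∈ P, ∑ c ∈ A a, h (F a c) = ∑ b ∈ R, ∑ c ∈ B b, h b := by
    intro h
    rw [Finset.sum_sigma', Finset.sum_sigma']
    refine Finset.sum_bij' (fun x _ => ⟨F x.1 x.2, x.2⟩) (fun y _ => ⟨G y.1 y.2, y.2⟩) ?_ ?_ ?_ ?_ ?_
    · rintro ⟨a, c⟩ hx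
      simp only [mem_sigma] at hx ⊢
      exact ⟨(hF a hx.1 c hx.2).1, (hF a hx.1 c hx.2).2.1⟩
    · rintro ⟨b, c⟩ hy
      simp only [mem_sigma] at hy ⊢
      exact ⟨(hG b hy.1 c hy.2).1, (hG b hy.1 c hy.2).2.1⟩
    · rintro ⟨a, c⟩ hx
      simp only [mem_sigma] at hx
      simp [(hF a hx.1 c hx.2).2.2]
    · rintro ⟨b, c⟩ hy
      simp only [mem_sigma] at hy
      simp [(hG b hy.1 c hy.2).2.2]
    · rintro ⟨a, c⟩ _
      rfl
  have hcount : (k : ℝ) * P.card = l * R.card := by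
    have := dc (fun _ => 1)
    simp only [Finset.sum_const, nsmul_eq_mul, mul_one] at this
    have h1 : ∑ a ∈ P, ((A a).card : ℝ) = k * P.card := by
      rw [Finset.sum_congr rfl (fun a ha => by rw [hk a ha])]
      simp [mul_comm]
    have h2 : ∑ b ∈ R, ((B b).card : ℝ) = l * R.card := by
      rw [Finset.sum_congr rfl (fun b hb => by rw [hl b hb])]
      simp [mul_comm]
    linarith
  have hsum : ∑ a ∈ P, ∑ c ∈ A a, (Φ a - φ (F a c))
      = k * ∑ a ∈ P, Φ a - l * ∑ b ∈ R, φ b := by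
    simp only [Finset.sum_sub_distrib]
    rw [dc φ]
    congr 1
    · rw [Finset.mul_sum]
      refine Finset.sum_congr rfl fun a ha => ?_
      rw [Finset.sum_const, hk a ha, nsmul_eq_mul]
    · rw [Finset.mul_sum]
      refine Finset.sum_congr rfl fun b hb => ?_
      rw [Finset.sum_const, hl b hb, nsmul_eq_mul]
  have hbound : |∑ a ∈ P, ∑ c ∈ A a, (Φ a - φ (F a c))| ≤ k * (P.card * D) := by
    calc |∑ a ∈ P, ∑ c ∈ A a, (Φ a - φ (F a c))|
        ≤ ∑ a ∈ P, |∑ c ∈ A a, (Φ a - φ (F a c))| := Finset.abs_sum_le_sum_abs _ _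
      _ ≤ ∑ a ∈ P, ∑ c ∈ A a, |Φ a - φ (F a c)| :=
          Finset.sum_le_sum fun a _ => Finset.abs_sum_le_sum_abs _ _
      _ ≤ ∑ a ∈ P, (k : ℝ) * D := by
          refine Finset.sum_le_sum fun a ha => ?_
          calc ∑ c ∈ A a, |Φ a - φ (F a c)| ≤ ∑ c ∈ A a, D :=
                Finset.sum_le_sum fun c hc => hD a ha c hc
            _ = (k : ℝ) * D := by rw [Finset.sum_const, hk a ha, nsmul_eq_mul]
      _ = k * (P.card * D) := by
          rw [Finset.sum_const, nsmul_eq_mul]; ring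
  have hX : (k : ℝ) * (∑ a ∈ P, Φ a - (P.card : ℝ) * ((∑ b ∈ R, φ b) / (R.card : ℝ)))
      = ∑ a ∈ P, ∑ c ∈ A a, (Φ a - φ (F a c)) := by
    rw [hsum]
    have : (k : ℝ) * ((P.card : ℝ) * ((∑ b ∈ R, φ b) / (R.card : ℝ))) = l * ∑ b ∈ R, φ b := by
      rw [← mul_assoc, hcount]
      field_simp
    rw [mul_sub, this]
  rw [← hX, abs_mul, abs_of_pos hk0'] at hbound
  exact le_of_mul_le_mul_left hbound hk0'

/-- Special case: a bijection. -/
theorem bij_compare {α β : Type*} (P : Finset α) (R : Finset β) (F : α → β) (G : β → α)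
    (hF : ∀ a ∈ P, F a ∈ R ∧ G (F a) = a) (hG : ∀ b ∈ R, G b ∈ P ∧ F (G b) = b)
    (hR : R.Nonempty) (Φ : α → ℝ) (φ : β → ℝ) (D : ℝ) (hD : ∀ a ∈ P, |Φ a - φ (F a)| ≤ D) :
    |∑ a ∈ P, Φ a - (P.card : ℝ) * ((∑ b ∈ R, φ b) / (R.card : ℝ))| ≤ (P.card : ℝ) * D := by
  refine bireg P R (fun _ => ({()} : Finset Unit)) (fun _ => ({()} : Finset Unit)) 1 1
    (fun _ _ => rfl) (fun _ _ => rfl) (fun a _ => F a) (fun b _ => G b) ?_ ?_
    (fun _ => one_pos) hR Φ φ D ?_
  · intro a ha c hc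
    exact ⟨(hF a ha).1, by simp, (hF a ha).2⟩
  · intro b hb c hc
    exact ⟨(hG b hb).1, by simp, (hG b hb).2⟩
  · intro a ha c _
    exact hD a ha

/-- A finite family contracted by a factor `ν > 1` vanishes. -/
theorem contraction {I : Type*} [Finite I] (Pr : I → Prop) (a : I → ℝ) (ν : ℝ) (hν : 1 < ν)
    (h : ∀ D, (∀ i, Pr i → |a i| ≤ D) → ∀ i, Pr i → ν * |a i| ≤ D) : ∀ i, Pr i → a i = 0 := by
  intro i hi
  obtain ⟨i0, hi0, hmax⟩ := Set.exists_max_image {i | Pr i} (fun i => |a i|) (Set.toFinite _) ⟨i, hi⟩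
  have h1 := h |a i0| (fun j hj => hmax j hj) i0 hi0
  have h2 : |a i0| ≤ 0 := by nlinarith [abs_nonneg (a i0)]
  have h3 : |a i| ≤ 0 := (hmax i hi).trans h2
  exact abs_nonpos_iff.1 h3

/-! ### Fibres and row averages -/

/-- The matrices with prescribed row `x`. -/
noncomputable def fib (s : C → ℕ) (r : Fin 3 → ℕ) (x : Fin 3) (S : Finset C) :
    Finset (Fin 3 → Finset C) :=
  (Om s r).filter fun m => m x = S

theorem mem_fib {x : Fin 3} {S : Finset C} {m : Fin 3 → Finset C} :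
    m ∈ fib s r x S ↔ m ∈ Om s r ∧ m x = S := by simp [fib]

/-- The average of `v` over the matrices with row `x` equal to `S`. -/
noncomputable def gg (s : C → ℕ) (r : Fin 3 → ℕ) (v : (Fin 3 → Finset C) → ℝ) (x : Fin 3)
    (S : Finset C) : ℝ :=
  (∑ m ∈ fib s r x S, v m) / ((fib s r x S).card : ℝ)

/-- The value of the two other rows' averages. -/
noncomputable def Phi (s : C → ℕ) (r : Fin 3 → ℕ) (v : (Fin 3 → Finset C) → ℝ) (y z : Fin 3)
    (m : Fin 3 → Finset C) : ℝ :=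
  gg s r v y (m y) + gg s r v z (m z)

theorem Phi_comm (v : (Fin 3 → Finset C) → ℝ) (y z : Fin 3) : Phi s r v y z = Phi s r v z y := by
  funext m; exact add_comm _ _

section Eig

variable {v : (Fin 3 → Finset C) → ℝ} {μ : ℝ}

theorem eq_nu (hv : ∀ m ∈ Om s r, ∑ i, gg s r v i (m i) = μ * v m) {x y z : Fin 3} (h : Tri x y z)
    {T : Finset C} (hne : (fib s r x T).Nonempty) :
    (μ - 1) * gg s r v x T
      = (∑ m ∈ fib s r x T, Phi s r v y z m) / ((fib s r x T).card : ℝ) := by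
  have hc : (0 : ℝ) < (fib s r x T).card := by exact_mod_cast card_pos.2 hne
  have h1 : ∑ m ∈ fib s r x T, (gg s r v x (m x) + Phi s r v y z m)
      = μ * ∑ m ∈ fib s r x T, v m := by
    rw [Finset.mul_sum]
    refine Finset.sum_congr rfl fun m hm => ?_
    have := hv m (mem_fib.1 hm).1
    rw [sum_tri h] at this
    rw [← this, Phi]
    ring
  rw [Finset.sum_add_distrib] at h1
  have h2 : ∑ m ∈ fib s r x T, gg s r v x (m x) = ((fib s r x T).card : ℝ) * gg s r v x T := by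
    rw [Finset.sum_congr rfl (fun m hm => by rw [(mem_fib.1 hm).2])]
    simp
  have h3 : ∑ m ∈ fib s r x T, v m = ((fib s r x T).card : ℝ) * gg s r v x T := by
    unfold gg
    field_simp
  rw [h2, h3] at h1
  rw [eq_div_iff hc.ne']
  linear_combination (-1 : ℝ) * h1

theorem nu_diff (hv : ∀ m ∈ Om s r, ∑ i, gg s r v i (m i) = μ * v m) (hν : 1 < μ - 1)
    {x y z : Fin 3} (h : Tri x y z)
    {S S' : Finset C} (hne : (fib s r x S).Nonempty) (hne' : (fib s r x S').Nonempty) {D : ℝ}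
    (hb : |∑ m ∈ fib s r x S, Phi s r v y z m - ((fib s r x S).card : ℝ) *
        ((∑ m ∈ fib s r x S', Phi s r v y z m) / ((fib s r x S').card : ℝ))|
          ≤ ((fib s r x S).card : ℝ) * D) :
    (μ - 1) * |gg s r v x S - gg s r v x S'| ≤ D := by
  have hc : (0 : ℝ) < (fib s r x S).card := by exact_mod_cast card_pos.2 hne
  rw [← eq_nu hv h hne'] at hb
  have h1 := eq_nu hv h hne
  rw [eq_div_iff hc.ne'] at h1
  rw [← h1] at hb
  have h2 : (μ - 1) * gg s r v x S * ((fib s r x S).card : ℝ)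
      - ((fib s r x S).card : ℝ) * ((μ - 1) * gg s r v x S')
      = ((fib s r x S).card : ℝ) * ((μ - 1) * (gg s r v x S - gg s r v x S')) := by ring
  rw [h2, abs_mul, abs_of_pos hc, abs_mul, abs_of_pos (by linarith : (0 : ℝ) < μ - 1)] at hb
  exact le_of_mul_le_mul_left hb hc

/-! ### Step S: invariance under swaps of columns of the same type -/

/-- The swap of two columns acting on a row. -/
noncomputable def sw (w w' : C) (T : Finset C) : Finset C := T.map (Equiv.swap w w').toEmbedding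

theorem mem_sw {w w' u : C} {T : Finset C} : u ∈ sw w w' T ↔ Equiv.swap w w' u ∈ T := by
  simp [sw, Finset.mem_map_equiv]

theorem sw_sw (w w' : C) (T : Finset C) : sw w w' (sw w w' T) = T := by
  ext u
  simp [mem_sw]

theorem sw_eq_self {w w' : C} {T : Finset C} (h : w ∈ T ↔ w' ∈ T) : sw w w' T = T := by
  ext u
  rw [mem_sw]
  by_cases h1 : u = w
  · subst h1; simpa using h.symm
  · by_cases h2 : u = w'
    · subst h2; simpa using h
    · rw [Equiv.swap_apply_of_ne_of_ne h1 h2]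

theorem sw_eq_exch {w w' : C} {T : Finset C} (h1 : w ∈ T) (h2 : w' ∉ T) :
    sw w w' T = insert w' (T.erase w) := by
  ext u
  rw [mem_sw, mem_insert, mem_erase]
  by_cases h3 : u = w
  · subst h3
    have hne : u ≠ w' := by rintro rfl; exact h2 h1
    simp [h2, hne]
  · by_cases h4 : u = w'
    · subst h4; simp [h1]
    · rw [Equiv.swap_apply_of_ne_of_ne h3 h4]
      simp [h3, h4]

/-- The swap of two columns acting on a matrix. -/
noncomputable def act (w w' : C) (m : Fin 3 → Finset C) : Fin 3 → Finset C :=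
  fun i => sw w w' (m i)

theorem act_act (w w' : C) (m : Fin 3 → Finset C) : act w w' (act w w' m) = m := by
  funext i
  exact sw_sw w w' (m i)

theorem act_mem {w w' : C} (hs : s w = s w') {m : Fin 3 → Finset C} (hm : m ∈ Om s r) :
    act w w' m ∈ Om s r := by
  rw [mem_Om]
  constructor
  · intro u
    have h1 : (univ.filter fun x => u ∈ act w w' m x)
        = univ.filter fun x => Equiv.swap w w' u ∈ m x := by
      ext x
      simp [act, mem_sw]
    rw [h1, (mem_Om.1 hm).1]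
    by_cases h2 : u = w
    · subst h2; simpa using hs.symm
    · by_cases h3 : u = w'
      · subst h3; simpa using hs
      · rw [Equiv.swap_apply_of_ne_of_ne h2 h3]
  · intro x
    simp only [act, sw, card_map]
    exact row_m hm

theorem act_fib {w w' : C} (hs : s w = s w') {x : Fin 3} {S : Finset C} {m : Fin 3 → Finset C}
    (hm : m ∈ fib s r x S) : act w w' m ∈ fib s r x (sw w w' S) := by
  rw [mem_fib] at hm ⊢
  exact ⟨act_mem hs hm.1, by simp [act, hm.2]⟩

theorem stepS_contract (hv : ∀ m ∈ Om s r, ∑ i, gg s r v i (m i) = μ * v m) (hν : 1 < μ - 1) (D : ℝ)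
    (hD : ∀ x S w w', s w = s w' → |gg s r v x S - gg s r v x (sw w w' S)| ≤ D) :
    ∀ x S w w', s w = s w' → (μ - 1) * |gg s r v x S - gg s r v x (sw w w' S)| ≤ D := by
  intro x S w w' hww
  have hD0 : 0 ≤ D := (abs_nonneg _).trans (hD x S w w' hww)
  by_cases hmem : (w ∈ S ↔ w' ∈ S)
  · rw [sw_eq_self hmem]; simpa using hD0
  obtain ⟨y, z, h⟩ := exists_tri x
  by_cases hne : (fib s r x S).Nonempty
  · have hne' : (fib s r x (sw w w' S)).Nonempty := by
      obtain ⟨m, hm⟩ := hne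
      exact ⟨_, act_fib hww hm⟩
    apply nu_diff hv hν h hne hne'
    refine bij_compare _ _ (act w w') (act w w') ?_ ?_ hne' _ _ D ?_
    · intro m hm
      exact ⟨act_fib hww hm, act_act _ _ _⟩
    · intro m hm
      have := act_fib hww hm
      rw [sw_sw] at this
      exact ⟨this, act_act _ _ _⟩
    · intro m hm
      obtain ⟨hm0, hmx⟩ := mem_fib.1 hm
      have key : (w ∈ m y ↔ w' ∈ m y) ∨ (w ∈ m z ↔ w' ∈ m z) := by
        have h1 := col_m h hm0 w
        have h2 := col_m h hm0 w'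
        rw [hww] at h1
        rw [hmx] at h1 h2
        by_cases a : w ∈ S <;> by_cases b : w' ∈ S <;> by_cases c : w ∈ m y <;>
          by_cases d : w' ∈ m y <;> by_cases e : w ∈ m z <;> by_cases f : w' ∈ m z <;>
          simp only [a, b, c, d, e, f, if_true, if_false] at h1 h2 hmem ⊢ <;>
          simp_all <;> omega
      have hy : act w w' m y = sw w w' (m y) := rfl
      have hz : act w w' m z = sw w w' (m z) := rfl
      simp only [Phi, hy, hz]
      rcases key with ky | kz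
      · rw [sw_eq_self ky]
        have := hD z (m z) w w' hww
        convert this using 2
        ring
      · rw [sw_eq_self kz]
        have := hD y (m y) w w' hww
        convert this using 2
        ring
  · have h1 : fib s r x S = ∅ := not_nonempty_iff_eq_empty.1 hne
    have h2 : fib s r x (sw w w' S) = ∅ := by
      rw [← not_nonempty_iff_eq_empty]
      rintro ⟨m, hm⟩
      have := act_fib hww hm
      rw [sw_sw] at this
      exact hne ⟨_, this⟩
    simp [gg, h1, h2, hD0]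

theorem stepS (hv : ∀ m ∈ Om s r, ∑ i, gg s r v i (m i) = μ * v m) (hν : 1 < μ - 1) (x : Fin 3)
    (S : Finset C) (w w' : C) (hww : s w = s w') : gg s r v x (sw w w' S) = gg s r v x S := by
  have := contraction (I := Fin 3 × Finset C × C × C) (fun i => s i.2.2.1 = s i.2.2.2)
    (fun i => gg s r v i.1 i.2.1 - gg s r v i.1 (sw i.2.2.1 i.2.2.2 i.2.1)) (μ - 1) hν
    (fun D hD i hi => stepS_contract hv hν D
      (fun x S w w' h => hD (x, S, w, w') h) i.1 i.2.1 i.2.2.1 i.2.2.2 hi)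
    (x, S, w, w') hww
  have h2 : gg s r v x S - gg s r v x (sw w w' S) = 0 := this
  linarith

/-! ### Step R -/

/-- Row `T` with `w2` replaced by `w1`. -/
noncomputable def rep (T : Finset C) (w1 w2 : C) : Finset C := insert w1 (T.erase w2)

/-- `T` and `rep T w1 w2` are both rows `x` of some matrix, `w1` of type 1 and `w2` of type 2. -/
structure Valid (s : C → ℕ) (r : Fin 3 → ℕ) (x : Fin 3) (T : Finset C) (w1 w2 : C) : Prop where
  s1 : s w1 = 1
  s2 : s w2 = 2
  h1 : w1 ∉ T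
  h2 : w2 ∈ T
  ne1 : (fib s r x T).Nonempty
  ne2 : (fib s r x (rep T w1 w2)).Nonempty

theorem F1 {x y z : Fin 3} (h : Tri x y z) {m : Fin 3 → Finset C} (hm : m ∈ Om s r) {w : C}
    (hs : s w = 1) (hx : w ∉ m x) : w ∈ m y ↔ w ∉ m z := by
  have h1 := col_m h hm w
  rw [hs] at h1
  by_cases b : w ∈ m y <;> by_cases c : w ∈ m z <;> simp [hx, b, c] at h1 ⊢

theorem F2 {x y z : Fin 3} (h : Tri x y z) {m : Fin 3 → Finset C} (hm : m ∈ Om s r) {w : C}
    (hs : s w = 1) (hx : w ∈ m x) : w ∉ m y ∧ w ∉ m z := by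
  have h1 := col_m h hm w
  rw [hs] at h1
  by_cases b : w ∈ m y <;> by_cases c : w ∈ m z <;> simp [hx, b, c] at h1 ⊢

theorem F3 {x y z : Fin 3} (h : Tri x y z) {m : Fin 3 → Finset C} (hm : m ∈ Om s r) {w : C}
    (hs : s w = 2) (hx : w ∈ m x) : w ∈ m y ↔ w ∉ m z := by
  have h1 := col_m h hm w
  rw [hs] at h1
  by_cases b : w ∈ m y <;> by_cases c : w ∈ m z <;> simp [hx, b, c] at h1 ⊢

theorem F4 {x y z : Fin 3} (h : Tri x y z) {m : Fin 3 → Finset C} (hm : m ∈ Om s r) {w : C}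
    (hs : s w = 2) (hx : w ∉ m x) : w ∈ m y ∧ w ∈ m z := by
  have h1 := col_m h hm w
  rw [hs] at h1
  by_cases b : w ∈ m y <;> by_cases c : w ∈ m z <;> simp [hx, b, c] at h1 ⊢

theorem Valid.ne {x : Fin 3} {T : Finset C} {w1 w2 : C} (hV : Valid s r x T w1 w2) : w1 ≠ w2 := by
  rintro rfl
  exact hV.h1 hV.h2

theorem mem_rep_left {T : Finset C} {w1 w2 : C} : w1 ∈ rep T w1 w2 := mem_insert_self _ _

theorem notMem_rep_right {T : Finset C} {w1 w2 : C} (hne : w1 ≠ w2) : w2 ∉ rep T w1 w2 := by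
  simp [rep, hne.symm]

theorem rep_rep {T : Finset C} {w1 w2 : C} (h1 : w1 ∉ T) (h2 : w2 ∈ T) :
    insert w2 ((rep T w1 w2).erase w1) = T := by
  ext u
  simp only [rep, mem_insert, mem_erase]
  by_cases h3 : u = w2
  · subst h3; simp [h2]
  · by_cases h4 : u = w1
    · subst h4; simp [h1, h3]
    · simp [h3, h4]

theorem partA (v : (Fin 3 → Finset C) → ℝ) {D : ℝ}
    (hD : ∀ x T w1 w2, Valid s r x T w1 w2 → |gg s r v x T - gg s r v x (rep T w1 w2)| ≤ D)
    {x y z : Fin 3} (h : Tri x y z) {S : Finset C} {w1 w2 : C} (hV : Valid s r x S w1 w2) :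
    |∑ m ∈ (fib s r x S).filter (fun m => w1 ∉ m y ∧ w2 ∈ m y), Phi s r v y z m
      - (((fib s r x S).filter (fun m => w1 ∉ m y ∧ w2 ∈ m y)).card : ℝ) *
        ((∑ m ∈ fib s r x (rep S w1 w2), Phi s r v y z m) / ((fib s r x (rep S w1 w2)).card : ℝ))|
      ≤ (((fib s r x S).filter (fun m => w1 ∉ m y ∧ w2 ∈ m y)).card : ℝ) * D := by
  have hne := hV.ne
  refine bij_compare _ _ (ex x z w2 w1) (ex x z w1 w2) ?_ ?_ hV.ne2 _ _ D ?_
  · intro m hm
    obtain ⟨hm1, hy1, hy2⟩ := mem_filter.1 hm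
    obtain ⟨hm0, hmx⟩ := mem_fib.1 hm1
    have a1 : w2 ∈ m x := hmx ▸ hV.h2
    have a2 : w1 ∉ m x := hmx ▸ hV.h1
    have a3 : w1 ∈ m z := by
      by_contra hc
      exact hy1 ((F1 h hm0 hV.s1 a2).2 hc)
    have a4 : w2 ∉ m z := (F3 h hm0 hV.s2 a1).1 hy2
    refine ⟨mem_fib.2 ⟨ex_mem h.xz hm0 a1 a4 a2 a3, by rw [ex_left, hmx]; rfl⟩,
      ex_ex h.xz a1 a4 a2 a3⟩
  · intro m hm
    obtain ⟨hm0, hmx⟩ := mem_fib.1 hm
    have a1 : w1 ∈ m x := hmx ▸ mem_rep_left
    have a2 : w2 ∉ m x := hmx ▸ notMem_rep_right hne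
    obtain ⟨a3, a4⟩ := F2 h hm0 hV.s1 a1
    obtain ⟨a5, a6⟩ := F4 h hm0 hV.s2 a2
    refine ⟨mem_filter.2 ⟨mem_fib.2 ⟨ex_mem h.xz hm0 a1 a4 a2 a6, ?_⟩, ?_, ?_⟩, ex_ex h.xz a1 a4 a2 a6⟩
    · rw [ex_left, hmx]; exact rep_rep hV.h1 hV.h2
    · rw [ex_other h.xy.symm h.yz]; exact a3
    · rw [ex_other h.xy.symm h.yz]; exact a5
  · intro m hm
    obtain ⟨hm1, hy1, hy2⟩ := mem_filter.1 hm
    obtain ⟨hm0, hmx⟩ := mem_fib.1 hm1
    have a1 : w2 ∈ m x := hmx ▸ hV.h2
    have a2 : w1 ∉ m x := hmx ▸ hV.h1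
    have a3 : w1 ∈ m z := by
      by_contra hc
      exact hy1 ((F1 h hm0 hV.s1 a2).2 hc)
    have a4 : w2 ∉ m z := (F3 h hm0 hV.s2 a1).1 hy2
    have hmem := ex_mem h.xz hm0 a1 a4 a2 a3
    have hV2 : Valid s r z (insert w2 ((m z).erase w1)) w1 w2 := by
      refine ⟨hV.s1, hV.s2, ?_, mem_insert_self _ _, ⟨_, mem_fib.2 ⟨hmem, ex_right h.xz _ _ _⟩⟩, ⟨m, mem_fib.2 ⟨hm0, ?_⟩⟩⟩
      · simp [hne]
      · symm
        simp only [rep]
        ext u
        simp only [mem_insert, mem_erase]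
        by_cases h3 : u = w1
        · subst h3; simp [a3]
        · by_cases h4 : u = w2
          · subst h4; simp [a4, h3]
          · simp [h3, h4]
    have h5 := hD z _ w1 w2 hV2
    have h6 : rep (insert w2 ((m z).erase w1)) w1 w2 = m z := by
      simp only [rep]
      ext u
      simp only [mem_insert, mem_erase]
      by_cases h3 : u = w1
      · subst h3; simp [a3]
      · by_cases h4 : u = w2
        · subst h4; simp [a4, h3]
        · simp [h3, h4]
    rw [h6, abs_sub_comm] at h5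
    have h7 : Phi s r v y z m - Phi s r v y z (ex x z w2 w1 m)
        = gg s r v z (m z) - gg s r v z (insert w2 ((m z).erase w1)) := by
      simp only [Phi]
      rw [ex_other h.xy.symm h.yz, ex_right h.xz]
      ring
    rw [h7]
    exact h5

theorem card_sdiff_fib {x y z : Fin 3} (h : Tri x y z) {m m' : Fin 3 → Finset C}
    (hm : m ∈ Om s r) (hm' : m' ∈ Om s r) (heq : m x = m' x) :
    (m z \ m y).card = (m' z \ m' y).card := by
  have h0 : m z ∩ m y = m' z ∩ m' y := by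
    ext w
    have h1 := col_m h hm w
    have h2 := col_m h hm' w
    rw [heq] at h1
    simp only [mem_inter]
    by_cases a : w ∈ m' x <;> by_cases b : w ∈ m y <;> by_cases c : w ∈ m z <;>
      by_cases d : w ∈ m' y <;> by_cases e : w ∈ m' z <;>
      simp only [a, b, c, d, e, if_true, if_false] at h1 h2 ⊢ <;> simp_all <;> omega
  have h1 := card_sdiff_add_card_inter (m z) (m y)
  have h2 := card_sdiff_add_card_inter (m' z) (m' y)
  rw [row_m hm] at h1
  rw [row_m hm'] at h2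
  rw [h0] at h1
  omega

theorem partC (v : (Fin 3 → Finset C) → ℝ) {μ : ℝ} {D : ℝ}
    (hS : ∀ x S w w', s w = s w' → gg s r v x (sw w w' S) = gg s r v x S)
    (hD : ∀ x T w1 w2, Valid s r x T w1 w2 → |gg s r v x T - gg s r v x (rep T w1 w2)| ≤ D)
    {x y z : Fin 3} (h : Tri x y z) {S : Finset C} {w1 w2 : C} (hV : Valid s r x S w1 w2) :
    |∑ m ∈ (fib s r x S).filter (fun m => w1 ∈ m y ∧ w2 ∈ m y), Phi s r v y z m
      - (((fib s r x S).filter (fun m => w1 ∈ m y ∧ w2 ∈ m y)).card : ℝ) *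
        ((∑ m ∈ fib s r x (rep S w1 w2), Phi s r v y z m) / ((fib s r x (rep S w1 w2)).card : ℝ))|
      ≤ (((fib s r x S).filter (fun m => w1 ∈ m y ∧ w2 ∈ m y)).card : ℝ) * D := by
  have hne := hV.ne
  rcases ((fib s r x S).filter (fun m => w1 ∈ m y ∧ w2 ∈ m y)).eq_empty_or_nonempty with hP | hP
  · rw [hP]; simp
  obtain ⟨m0, hm0⟩ := hP
  obtain ⟨hm01, -⟩ := mem_filter.1 hm0
  obtain ⟨hm00, hm0x⟩ := mem_fib.1 hm01
  obtain ⟨m0', hm0'⟩ := hV.ne2
  obtain ⟨hm0'0, hm0'x⟩ := mem_fib.1 hm0'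
  refine bireg _ _ (fun m => m z \ m y) (fun m' => m' y \ m' z) (m0 z \ m0 y).card
    (m0' y \ m0' z).card ?_ ?_
    (fun m a => ex x z w2 w1 (ex y z w1 a m)) (fun m' a => ex y z a w1 (ex x z w1 w2 m')) ?_ ?_ ?_ hV.ne2 _ _ D ?_
  · intro m hm
    obtain ⟨hm1, -⟩ := mem_filter.1 hm
    obtain ⟨hm2, hmx⟩ := mem_fib.1 hm1
    exact card_sdiff_fib h hm2 hm00 (hmx.trans hm0x.symm)
  · intro m hm
    obtain ⟨hm2, hmx⟩ := mem_fib.1 hm
    exact card_sdiff_fib h.swap hm2 hm0'0 (hmx.trans hm0'x.symm)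
  · -- forward map
    intro m hm a ha
    obtain ⟨hm1, hy1, hy2⟩ := mem_filter.1 hm
    obtain ⟨hm2, hmx⟩ := mem_fib.1 hm1
    obtain ⟨haz, hay⟩ := mem_sdiff.1 ha
    have b1 : w2 ∈ m x := hmx ▸ hV.h2
    have b2 : w1 ∉ m x := hmx ▸ hV.h1
    have b3 : w1 ∉ m z := by
      intro hc
      exact ((F1 h hm2 hV.s1 b2).1 hy1) hc
    have b4 : w2 ∉ m z := (F3 h hm2 hV.s2 b1).1 hy2
    have haw1 : a ≠ w1 := by rintro rfl; exact hay hy1
    have haw2 : a ≠ w2 := by rintro rfl; exact hay hy2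
    have hm3 := ex_mem h.yz hm2 hy1 b3 hay haz
    have c1 : (ex y z w1 a m) x = m x := ex_other h.xy h.xz _ _ _
    have c2 : (ex y z w1 a m) z = insert w1 ((m z).erase a) := ex_right h.yz _ _ _
    have c3 : (ex y z w1 a m) y = insert a ((m y).erase w1) := ex_left _ _ _ _ _
    have d1 : w2 ∈ (ex y z w1 a m) x := by rw [c1]; exact b1
    have d2 : w2 ∉ (ex y z w1 a m) z := by
      rw [c2]; simp [hne.symm, b4]
    have d3 : w1 ∉ (ex y z w1 a m) x := by rw [c1]; exact b2
    have d4 : w1 ∈ (ex y z w1 a m) z := by rw [c2]; simp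
    have hm4 := ex_mem h.xz hm3 d1 d2 d3 d4
    have e1 : (ex x z w2 w1 (ex y z w1 a m)) x = rep S w1 w2 := by
      rw [ex_left, c1, hmx]; rfl
    have e2 : (ex x z w2 w1 (ex y z w1 a m)) y = insert a ((m y).erase w1) := by
      rw [ex_other h.xy.symm h.yz, c3]
    have e3 : (ex x z w2 w1 (ex y z w1 a m)) z = insert w2 ((insert w1 ((m z).erase a)).erase w1) := by
      rw [ex_right h.xz, c2]
    refine ⟨mem_fib.2 ⟨hm4, e1⟩, ?_, ?_⟩
    · rw [mem_sdiff, e2, e3]
      simp [haw1, haw2]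
    · show ex y z a w1 (ex x z w1 w2 (ex x z w2 w1 (ex y z w1 a m))) = m
      rw [ex_ex h.xz d1 d2 d3 d4, ex_ex h.yz hy1 b3 hay haz]
  · -- backward map
    intro m hm a ha
    obtain ⟨hm2, hmx⟩ := mem_fib.1 hm
    obtain ⟨hay, haz⟩ := mem_sdiff.1 ha
    have b1 : w1 ∈ m x := hmx ▸ mem_rep_left
    have b2 : w2 ∉ m x := hmx ▸ notMem_rep_right hne
    obtain ⟨a3, a4⟩ := F2 h hm2 hV.s1 b1
    obtain ⟨a5, a6⟩ := F4 h hm2 hV.s2 b2
    have haw1 : a ≠ w1 := by rintro rfl; exact a3 hay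
    have haw2 : a ≠ w2 := by rintro rfl; exact haz a6
    have hm1 := ex_mem h.xz hm2 b1 a4 b2 a6
    have c1 : (ex x z w1 w2 m) x = S := by
      rw [ex_left, hmx]; exact rep_rep hV.h1 hV.h2
    have c2 : (ex x z w1 w2 m) y = m y := ex_other h.xy.symm h.yz _ _ _
    have c3 : (ex x z w1 w2 m) z = insert w1 ((m z).erase w2) := ex_right h.xz _ _ _
    have d1 : a ∈ (ex x z w1 w2 m) y := by rw [c2]; exact hay
    have d2 : a ∉ (ex x z w1 w2 m) z := by
      rw [c3]; simp [haw1, haz]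
    have d3 : w1 ∉ (ex x z w1 w2 m) y := by rw [c2]; exact a3
    have d4 : w1 ∈ (ex x z w1 w2 m) z := by rw [c3]; simp
    have hm0 := ex_mem h.yz hm1 d1 d2 d3 d4
    have e1 : (ex y z a w1 (ex x z w1 w2 m)) x = S := by
      rw [ex_other h.xy h.xz, c1]
    have e2 : (ex y z a w1 (ex x z w1 w2 m)) y = insert w1 ((m y).erase a) := by
      rw [ex_left, c2]
    have e3 : (ex y z a w1 (ex x z w1 w2 m)) z
        = insert a ((insert w1 ((m z).erase w2)).erase w1) := by
      rw [ex_right h.yz, c3]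
    refine ⟨mem_filter.2 ⟨mem_fib.2 ⟨hm0, e1⟩, ?_, ?_⟩, ?_, ?_⟩
    · rw [e2]; simp
    · rw [e2]; simp [haw2.symm, a5, hne.symm]
    · rw [mem_sdiff, e2, e3]
      simp [haw1]
    · show ex x z w2 w1 (ex y z w1 a (ex y z a w1 (ex x z w1 w2 m))) = m
      rw [ex_ex h.yz d1 d2 d3 d4, ex_ex h.xz b1 a4 b2 a6]
  · -- positivity
    intro _
    have b1 : w1 ∈ m0' x := hm0'x ▸ mem_rep_left
    have b2 : w2 ∉ m0' x := hm0'x ▸ notMem_rep_right hne
    obtain ⟨a3, a4⟩ := F2 h hm0'0 hV.s1 b1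
    obtain ⟨a5, a6⟩ := F4 h hm0'0 hV.s2 b2
    have hm1 := ex_mem h.xz hm0'0 b1 a4 b2 a6
    have c1 : (ex x z w1 w2 m0') x = S := by
      rw [ex_left, hm0'x]; exact rep_rep hV.h1 hV.h2
    rw [card_sdiff_fib h hm00 hm1 (hm0x.trans c1.symm)]
    refine card_pos.2 ⟨w1, mem_sdiff.2 ⟨?_, ?_⟩⟩
    · rw [ex_right h.xz]; simp
    · rw [ex_other h.xy.symm h.yz]; exact a3
  · -- the bound
    intro m hm a ha
    obtain ⟨hm1, hy1, hy2⟩ := mem_filter.1 hm
    obtain ⟨hm2, hmx⟩ := mem_fib.1 hm1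
    obtain ⟨haz, hay⟩ := mem_sdiff.1 ha
    have b1 : w2 ∈ m x := hmx ▸ hV.h2
    have b2 : w1 ∉ m x := hmx ▸ hV.h1
    have b3 : w1 ∉ m z := by
      intro hc
      exact ((F1 h hm2 hV.s1 b2).1 hy1) hc
    have b4 : w2 ∉ m z := (F3 h hm2 hV.s2 b1).1 hy2
    have haw1 : a ≠ w1 := by rintro rfl; exact hay hy1
    have haw2 : a ≠ w2 := by rintro rfl; exact hay hy2
    have hm3 := ex_mem h.yz hm2 hy1 b3 hay haz
    have c1 : (ex y z w1 a m) x = m x := ex_other h.xy h.xz _ _ _
    have c2 : (ex y z w1 a m) z = insert w1 ((m z).erase a) := ex_right h.yz _ _ _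
    have c3 : (ex y z w1 a m) y = insert a ((m y).erase w1) := ex_left _ _ _ _ _
    have d1 : w2 ∈ (ex y z w1 a m) x := by rw [c1]; exact b1
    have d2 : w2 ∉ (ex y z w1 a m) z := by
      rw [c2]; simp [hne.symm, b4]
    have d3 : w1 ∉ (ex y z w1 a m) x := by rw [c1]; exact b2
    have d4 : w1 ∈ (ex y z w1 a m) z := by rw [c2]; simp
    have hm4 := ex_mem h.xz hm3 d1 d2 d3 d4
    have e2 : (ex x z w2 w1 (ex y z w1 a m)) y = insert a ((m y).erase w1) := by
      rw [ex_other h.xy.symm h.yz, c3]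
    have e3 : (ex x z w2 w1 (ex y z w1 a m)) z = insert w2 ((m z).erase a) := by
      rw [ex_right h.xz, c2, erase_insert]
      simp [b3]
    have hsa : s a = 1 ∨ s a = 2 := by
      have := col_m h hm2 a
      simp only [haz, hay, if_true, if_false] at this
      by_cases hx : a ∈ m x <;> simp [hx] at this <;> omega
    simp only [Phi, e2, e3]
    rcases hsa with hsa | hsa
    · -- `a` has the type of `w1`
      have h1 : gg s r v y (insert a ((m y).erase w1)) = gg s r v y (m y) := by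
        rw [← sw_eq_exch hy1 hay]
        exact hS y (m y) w1 a (hV.s1.trans hsa.symm)
      have hV2 : Valid s r z (insert w2 ((m z).erase a)) a w2 := by
        refine ⟨hsa, hV.s2, ?_, mem_insert_self _ _, ⟨_, mem_fib.2 ⟨hm4, e3⟩⟩, ⟨m, mem_fib.2 ⟨hm2, ?_⟩⟩⟩
        · simp [haw2]
        · exact (rep_rep (w1 := w2) (w2 := a) b4 haz).symm
      have h5 := hD z _ a w2 hV2
      have h6 : rep (insert w2 ((m z).erase a)) a w2 = m z := rep_rep (w1 := w2) (w2 := a) b4 haz
      rw [h6, abs_sub_comm] at h5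
      rw [h1]
      convert h5 using 2
      ring
    · -- `a` has the type of `w2`
      have h1 : gg s r v z (insert w2 ((m z).erase a)) = gg s r v z (m z) := by
        rw [← sw_eq_exch haz b4]
        exact hS z (m z) a w2 (hsa.trans hV.s2.symm)
      have hV2 : Valid s r y (insert a ((m y).erase w1)) w1 a := by
        refine ⟨hV.s1, hsa, ?_, mem_insert_self _ _, ⟨_, mem_fib.2 ⟨hm4, e2⟩⟩, ⟨m, mem_fib.2 ⟨hm2, ?_⟩⟩⟩
        · simp [haw1.symm]
        · exact (rep_rep (w1 := a) (w2 := w1) hay hy1).symm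
      have h5 := hD y _ w1 a hV2
      have h6 : rep (insert a ((m y).erase w1)) w1 a = m y := rep_rep (w1 := a) (w2 := w1) hay hy1
      rw [h6, abs_sub_comm] at h5
      rw [h1]
      convert h5 using 2
      ring

theorem stepR_contract (hv : ∀ m ∈ Om s r, ∑ i, gg s r v i (m i) = μ * v m) (hν : 1 < μ - 1) (D : ℝ)
    (hD : ∀ x T w1 w2, Valid s r x T w1 w2 → |gg s r v x T - gg s r v x (rep T w1 w2)| ≤ D) :
    ∀ x T w1 w2, Valid s r x T w1 w2 → (μ - 1) * |gg s r v x T - gg s r v x (rep T w1 w2)| ≤ D := by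
  intro x S w1 w2 hV
  have hS := fun x S w w' hww => stepS hv hν x S w w' hww
  obtain ⟨y, z, h⟩ := exists_tri x
  apply nu_diff hv hν h hV.ne1 hV.ne2
  have pA := partA v hD h hV
  have pB := partA v hD h.swap hV
  have pC := partC (μ := μ) v hS hD h hV
  have pD := partC (μ := μ) v hS hD h.swap hV
  rw [Phi_comm v z y] at pB pD
  set E : ℝ := (∑ m ∈ fib s r x (rep S w1 w2), Phi s r v y z m)
    / ((fib s r x (rep S w1 w2)).card : ℝ) with hE
  have decomp : ∀ F : (Fin 3 → Finset C) → ℝ, ∑ m ∈ fib s r x S, F m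
      = ∑ m ∈ (fib s r x S).filter (fun m => w1 ∉ m y ∧ w2 ∈ m y), F m
      + ∑ m ∈ (fib s r x S).filter (fun m => w1 ∉ m z ∧ w2 ∈ m z), F m
      + ∑ m ∈ (fib s r x S).filter (fun m => w1 ∈ m y ∧ w2 ∈ m y), F m
      + ∑ m ∈ (fib s r x S).filter (fun m => w1 ∈ m z ∧ w2 ∈ m z), F m := by
    intro F
    simp only [Finset.sum_filter]
    rw [← Finset.sum_add_distrib, ← Finset.sum_add_distrib, ← Finset.sum_add_distrib]
    refine Finset.sum_congr rfl fun m hm => ?_
    obtain ⟨hm0, hmx⟩ := mem_fib.1 hm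
    have a1 : w2 ∈ m x := hmx ▸ hV.h2
    have a2 : w1 ∉ m x := hmx ▸ hV.h1
    have a3 := F1 h hm0 hV.s1 a2
    have a4 := F3 h hm0 hV.s2 a1
    by_cases b : w1 ∈ m y <;> by_cases c : w2 ∈ m y
    · have b' := a3.1 b
      have c' := a4.1 c
      simp [b, c, b', c']
    · have b' := a3.1 b
      have c' : w2 ∈ m z := by
        by_contra hc
        exact c (a4.2 hc)
      simp [b, c, b', c']
    · have b' : w1 ∈ m z := by
        by_contra hc
        exact b (a3.2 hc)
      have c' := a4.1 c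
      simp [b, c, b', c']
    · have b' : w1 ∈ m z := by
        by_contra hc
        exact b (a3.2 hc)
      have c' : w2 ∈ m z := by
        by_contra hc
        exact c (a4.2 hc)
      simp [b, c, b', c']
  have hcard : ((fib s r x S).card : ℝ)
      = (((fib s r x S).filter (fun m => w1 ∉ m y ∧ w2 ∈ m y)).card : ℝ)
      + (((fib s r x S).filter (fun m => w1 ∉ m z ∧ w2 ∈ m z)).card : ℝ)
      + (((fib s r x S).filter (fun m => w1 ∈ m y ∧ w2 ∈ m y)).card : ℝ)
      + (((fib s r x S).filter (fun m => w1 ∈ m z ∧ w2 ∈ m z)).card : ℝ) := by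
    have := decomp (fun _ => 1)
    simpa using this
  rw [decomp (Phi s r v y z), hcard]
  rw [abs_le] at pA pB pC pD ⊢
  constructor <;> nlinarith [pA.1, pA.2, pB.1, pB.2, pC.1, pC.2, pD.1, pD.2]

theorem stepR (hv : ∀ m ∈ Om s r, ∑ i, gg s r v i (m i) = μ * v m) (hν : 1 < μ - 1) {x : Fin 3}
    {T : Finset C} {w1 w2 : C} (hV : Valid s r x T w1 w2) :
    gg s r v x T = gg s r v x (rep T w1 w2) := by
  have := contraction (I := Fin 3 × Finset C × C × C) (fun i => Valid s r i.1 i.2.1 i.2.2.1 i.2.2.2)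
    (fun i => gg s r v i.1 i.2.1 - gg s r v i.1 (rep i.2.1 i.2.2.1 i.2.2.2)) (μ - 1) hν
    (fun D hD i hi => stepR_contract hv hν D
      (fun x S w w' h => hD (x, S, w, w') h) i.1 i.2.1 i.2.2.1 i.2.2.2 hi)
    (x, T, w1, w2) hV
  have h2 : gg s r v x T - gg s r v x (rep T w1 w2) = 0 := this
  linarith

theorem sdiff_exch_left {S S' : Finset C} {w w' : C} (hw' : w' ∈ S') :
    (insert w' (S.erase w)) \ S' = (S \ S').erase w := by
  ext u
  simp only [mem_sdiff, mem_insert, mem_erase]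
  constructor
  · rintro ⟨rfl | ⟨h1, h2⟩, h3⟩
    · exact absurd hw' h3
    · exact ⟨h1, h2, h3⟩
  · rintro ⟨h1, h2, h3⟩
    exact ⟨Or.inr ⟨h1, h2⟩, h3⟩

theorem sdiff_exch_right {S S' : Finset C} {w w' : C} (hw' : w' ∉ S) :
    S \ (insert w (S'.erase w')) = (S \ S').erase w := by
  ext u
  simp only [mem_sdiff, mem_insert, mem_erase]
  constructor
  · rintro ⟨h1, h2⟩
    refine ⟨fun h3 => h2 (Or.inl h3), h1, fun h3 => h2 (Or.inr ⟨?_, h3⟩)⟩
    rintro rfl
    exact hw' h1
  · rintro ⟨h1, h2, h3⟩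
    refine ⟨h2, ?_⟩
    rintro (h4 | ⟨-, h4⟩)
    · exact h1 h4
    · exact h3 h4

theorem g_const (hv : ∀ m ∈ Om s r, ∑ i, gg s r v i (m i) = μ * v m) (hν : 1 < μ - 1) (x : Fin 3) :
    ∀ (k : ℕ) (S S' : Finset C), (S \ S').card = k → (fib s r x S).Nonempty →
      (fib s r x S').Nonempty → gg s r v x S = gg s r v x S' := by
  intro k
  induction k with
  | zero =>
    intro S S' hk hne hne'
    obtain ⟨m, hm⟩ := hne
    obtain ⟨m', hm'⟩ := hne'
    obtain ⟨hm0, hmx⟩ := mem_fib.1 hm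
    obtain ⟨hm0', hmx'⟩ := mem_fib.1 hm'
    have h1 : S.card = r x := hmx ▸ row_m hm0
    have h2 : S'.card = r x := hmx' ▸ row_m hm0'
    have h3 : S ⊆ S' := by
      rw [← Finset.sdiff_eq_empty_iff_subset]
      exact card_eq_zero.1 hk
    rw [Finset.eq_of_subset_of_card_le h3 (by omega)]
  | succ k ih =>
    intro S S' hk hne hne'
    have hne0 := hne
    have hne0' := hne'
    obtain ⟨m, hm⟩ := hne
    obtain ⟨m', hm'⟩ := hne'
    obtain ⟨hm0, hmx⟩ := mem_fib.1 hm
    obtain ⟨hm0', hmx'⟩ := mem_fib.1 hm'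
    have h1 : S.card = r x := hmx ▸ row_m hm0
    have h2 : S'.card = r x := hmx' ▸ row_m hm0'
    obtain ⟨w, hw⟩ : (S \ S').Nonempty := card_pos.1 (by omega)
    have hk' : (S' \ S).card = k + 1 := by
      rw [← hk]
      exact (Finset.card_sdiff_comm (h1.trans h2.symm)).symm
    obtain ⟨w', hw'⟩ : (S' \ S).Nonempty := card_pos.1 (by omega)
    obtain ⟨hwS, hwS'⟩ := mem_sdiff.1 hw
    obtain ⟨hw'S', hw'S⟩ := mem_sdiff.1 hw'
    obtain ⟨y, z, h⟩ := exists_tri x
    have hcard : ((S \ S').erase w).card = k := by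
      rw [card_erase_of_mem hw, hk]; rfl
    -- types of `w`, `w'`
    have hx1 : w ∈ m x := hmx ▸ hwS
    have hx2 : w ∉ m' x := hmx' ▸ hwS'
    have hx3 : w' ∉ m x := hmx ▸ hw'S
    have hx4 : w' ∈ m' x := hmx' ▸ hw'S'
    have ts1 : s w = 1 ∨ s w = 2 := by
      have a1 := col_m h hm0 w
      have a2 := col_m h hm0' w
      simp only [hx1, hx2, if_true, if_false] at a1 a2
      split_ifs at a1 a2 <;> omega
    have ts2 : s w' = 1 ∨ s w' = 2 := by
      have a1 := col_m h hm0 w'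
      have a2 := col_m h hm0' w'
      simp only [hx3, hx4, if_true, if_false] at a1 a2
      split_ifs at a1 a2 <;> omega
    by_cases hsame : s w = s w'
    · -- same type: swap in `S`
      have e1 : sw w w' S = insert w' (S.erase w) := sw_eq_exch hwS hw'S
      have hS := stepS hv hν x S w w' hsame
      rw [← hS, e1]
      refine ih _ _ ?_ ?_ hne0'
      · rw [sdiff_exch_left hw'S', hcard]
      · rw [← e1]
        exact ⟨_, act_fib hsame hm⟩
    · rcases ts1 with ts1 | ts1 <;> rcases ts2 with ts2 | ts2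
      · exact absurd (ts1.trans ts2.symm) hsame
      · -- `w` type 1, `w'` type 2: reverse step on `S`
        obtain ⟨a3, a4⟩ := F2 h hm0 ts1 hx1
        obtain ⟨a5, a6⟩ := F4 h hm0 ts2 hx3
        have hm1 := ex_mem h.xz hm0 hx1 a4 hx3 a6
        have hne1 : (fib s r x (insert w' (S.erase w))).Nonempty :=
          ⟨_, mem_fib.2 ⟨hm1, by rw [ex_left, hmx]⟩⟩
        have hrep : rep (insert w' (S.erase w)) w w' = S :=
          rep_rep (w1 := w') (w2 := w) hw'S hwS
        have hww : w ≠ w' := by rintro rfl; exact hw'S hwS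
        have hV : Valid s r x (insert w' (S.erase w)) w w' := by
          refine ⟨ts1, ts2, ?_, mem_insert_self _ _, hne1, ?_⟩
          · simp [hww]
          · rw [hrep]; exact hne0
        have := stepR hv hν hV
        rw [hrep] at this
        rw [← this]
        refine ih _ _ ?_ hne1 hne0'
        rw [sdiff_exch_left hw'S', hcard]
      · -- `w` type 2, `w'` type 1: reverse step on `S'`
        obtain ⟨a3, a4⟩ := F2 h hm0' ts2 hx4
        obtain ⟨a5, a6⟩ := F4 h hm0' ts1 hx2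
        have hm1 := ex_mem h.xz hm0' hx4 a4 hx2 a6
        have hne1 : (fib s r x (insert w (S'.erase w'))).Nonempty :=
          ⟨_, mem_fib.2 ⟨hm1, by rw [ex_left, hmx']⟩⟩
        have hrep : rep (insert w (S'.erase w')) w' w = S' :=
          rep_rep (w1 := w) (w2 := w') hwS' hw'S'
        have hww : w ≠ w' := by rintro rfl; exact hw'S hwS
        have hV : Valid s r x (insert w (S'.erase w')) w' w := by
          refine ⟨ts2, ts1, ?_, mem_insert_self _ _, hne1, ?_⟩
          · simp [hww.symm]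
          · rw [hrep]; exact hne0'
        have := stepR hv hν hV
        rw [hrep] at this
        rw [this.symm.symm.symm]
        refine ih _ _ ?_ hne0 hne1
        rw [sdiff_exch_right hw'S, hcard]
      · exact absurd (ts1.trans ts2.symm) hsame

/-- **The three-row lemma**: `P_0 + P_1 + P_2` has no eigenvalue in `(2, 3)`. -/
theorem no_eig (hμ2 : 2 < μ) (hμ3 : μ < 3)
    (hv : ∀ m ∈ Om s r, ∑ i, gg s r v i (m i) = μ * v m) : ∀ m ∈ Om s r, v m = 0 := by
  have hν : 1 < μ - 1 := by linarith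
  intro m0 hm0
  have hconst : ∀ x, ∀ m ∈ Om s r, gg s r v x (m x) = gg s r v x (m0 x) := by
    intro x m hm
    exact g_const hv hν x _ _ _ rfl ⟨m, mem_fib.2 ⟨hm, rfl⟩⟩ ⟨m0, mem_fib.2 ⟨hm0, rfl⟩⟩
  have key : ∀ x y z, Tri x y z → (μ - 1) * gg s r v x (m0 x)
      = gg s r v y (m0 y) + gg s r v z (m0 z) := by
    intro x y z h
    have hne : (fib s r x (m0 x)).Nonempty := ⟨m0, mem_fib.2 ⟨hm0, rfl⟩⟩
    have hc : (0 : ℝ) < (fib s r x (m0 x)).card := by exact_mod_cast card_pos.2 hne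
    rw [eq_nu hv h hne, div_eq_iff hc.ne']
    rw [Finset.sum_congr rfl (g := fun _ => gg s r v y (m0 y) + gg s r v z (m0 z))
      (fun m hm => by
        have := (mem_fib.1 hm).1
        simp only [Phi]
        rw [hconst y m this, hconst z m this])]
    rw [Finset.sum_const, nsmul_eq_mul]
    ring
  have k0 := key 0 1 2 ⟨by decide, by decide, by decide⟩
  have k1 := key 1 0 2 ⟨by decide, by decide, by decide⟩
  have k2 := key 2 0 1 ⟨by decide, by decide, by decide⟩
  set c0 := gg s r v 0 (m0 0)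
  set c1 := gg s r v 1 (m0 1)
  set c2 := gg s r v 2 (m0 2)
  have hsum : (μ - 3) * (c0 + c1 + c2) = 0 := by
    linear_combination k0 + k1 + k2
  have hsum0 : c0 + c1 + c2 = 0 := by
    rcases mul_eq_zero.1 hsum with h | h
    · exfalso; linarith
    · exact h
  have hμ0 : μ ≠ 0 := by linarith
  have e0 : c0 = 0 := by
    have : μ * c0 = 0 := by linear_combination k0 + hsum0
    exact (mul_eq_zero.1 this).resolve_left hμ0
  have e1 : c1 = 0 := by
    have : μ * c1 = 0 := by linear_combination k1 + hsum0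
    exact (mul_eq_zero.1 this).resolve_left hμ0
  have e2 : c2 = 0 := by
    have : μ * c2 = 0 := by linear_combination k2 + hsum0
    exact (mul_eq_zero.1 this).resolve_left hμ0
  have h3 := hv m0 hm0
  rw [Fin.sum_univ_three] at h3
  have h4 : μ * v m0 = 0 := by
    rw [← h3]
    show c0 + c1 + c2 = 0
    exact hsum0
  exact (mul_eq_zero.1 h4).resolve_left hμ0

end Eig

/-! ### The quadratic inequality -/

/-- `Q_x f = f - P_x f`. -/
noncomputable def Qm (s : C → ℕ) (r : Fin 3 → ℕ) (x : Fin 3) (f : (Fin 3 → Finset C) → ℝ)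
    (m : Fin 3 → Finset C) : ℝ :=
  f m - gg s r f x (m x)

theorem gg_eq_gavg (x : Fin 3) (f : (Fin 3 → Finset C) → ℝ) (m : Fin 3 → Finset C) :
    gg s r f x (m x) = gavg (Om s r) (fun G H => G x = H x) f m := by
  have : fib s r x (m x) = gblk (Om s r) (fun G H => G x = H x) m := by
    ext m'
    simp [fib, gblk, eq_comm]
  unfold gg gavg
  rw [this]

theorem sum_Qm_sym (x : Fin 3) (f g : (Fin 3 → Finset C) → ℝ) :
    ∑ m ∈ Om s r, f m * Qm s r x g m = ∑ m ∈ Om s r, Qm s r x f m * g m := by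
  have h1 := sum_mul_gavg (Ω := Om s r) (r := fun (G H : Fin 3 → Finset C) => G x = H x)
    (fun _ => rfl) (fun _ _ h => h.symm) (fun _ _ _ h h' => h.trans h') f g
  have h2 := sum_gavg_mul (Ω := Om s r) (r := fun (G H : Fin 3 → Finset C) => G x = H x)
    (fun _ => rfl) (fun _ _ h => h.symm) (fun _ _ _ h h' => h.trans h') f g
  simp only [Qm, gg_eq_gavg, mul_sub, sub_mul, Finset.sum_sub_distrib]
  rw [h1, h2]

theorem sum_Qm_sq (x : Fin 3) (f : (Fin 3 → Finset C) → ℝ) :
    ∑ m ∈ Om s r, f m * Qm s r x f m = ∑ m ∈ Om s r, (Qm s r x f m) ^ 2 := by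
  have h1 := sum_Q_mul_Q (Ω := Om s r) (r := fun (G H : Fin 3 → Finset C) => G x = H x)
    (fun _ => rfl) (fun _ _ h => h.symm) (fun _ _ _ h h' => h.trans h') f f
  simp only [Qm, gg_eq_gavg, sq]
  rw [h1]
  exact Finset.sum_congr rfl fun m _ => mul_comm _ _

theorem gg_add (f g : (Fin 3 → Finset C) → ℝ) (x : Fin 3) (S : Finset C) :
    gg s r (f + g) x S = gg s r f x S + gg s r g x S := by
  simp [gg, Finset.sum_add_distrib, add_div]

theorem gg_smul (c : ℝ) (f : (Fin 3 → Finset C) → ℝ) (x : Fin 3) (S : Finset C) :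
    gg s r (c • f) x S = c * gg s r f x S := by
  simp [gg, ← Finset.mul_sum, mul_div_assoc]

theorem gg_congr {f g : (Fin 3 → Finset C) → ℝ} (h : ∀ m ∈ Om s r, f m = g m) (x : Fin 3)
    (S : Finset C) : gg s r f x S = gg s r g x S := by
  unfold gg
  congr 1
  exact Finset.sum_congr rfl fun m hm => h m (mem_fib.1 hm).1

/-- **Three-row inequality.** -/
theorem three_row_nonneg (s : C → ℕ) (r : Fin 3 → ℕ) (f : (Fin 3 → Finset C) → ℝ) :
    0 ≤ ∑ m ∈ Om s r, (Qm s r 0 f m * Qm s r 1 f m + Qm s r 1 f m * Qm s r 2 f m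
        + Qm s r 2 f m * Qm s r 0 f m) := by
  set T : ((Fin 3 → Finset C) → ℝ) → ((Fin 3 → Finset C) → ℝ) :=
    fun f m => Qm s r 0 f m + Qm s r 1 f m + Qm s r 2 f m with hT
  have key := spectral_no_gap (Om s r) T ?_ ?_ ?_ ?_ ?_ f
  · have e1 : ∑ m ∈ Om s r, f m * T f m = ∑ m ∈ Om s r, (Qm s r 0 f m) ^ 2
        + ∑ m ∈ Om s r, (Qm s r 1 f m) ^ 2 + ∑ m ∈ Om s r, (Qm s r 2 f m) ^ 2 := by
      rw [← sum_Qm_sq, ← sum_Qm_sq, ← sum_Qm_sq, ← Finset.sum_add_distrib, ← Finset.sum_add_distrib]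
      refine Finset.sum_congr rfl fun m _ => ?_
      simp only [hT]
      ring
    have e2 : ∑ m ∈ Om s r, (T f m) ^ 2 = ∑ m ∈ Om s r, (Qm s r 0 f m) ^ 2
        + ∑ m ∈ Om s r, (Qm s r 1 f m) ^ 2 + ∑ m ∈ Om s r, (Qm s r 2 f m) ^ 2
        + 2 * ∑ m ∈ Om s r, (Qm s r 0 f m * Qm s r 1 f m + Qm s r 1 f m * Qm s r 2 f m
          + Qm s r 2 f m * Qm s r 0 f m) := by
      rw [Finset.mul_sum, ← Finset.sum_add_distrib, ← Finset.sum_add_distrib,
        ← Finset.sum_add_distrib]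
      refine Finset.sum_congr rfl fun m _ => ?_
      simp only [hT]
      ring
    rw [e1, e2] at key
    linarith
  · intro f g G _
    simp only [hT, Qm, gg_add, Pi.add_apply]
    ring
  · intro c f G _
    simp only [hT, Qm, gg_smul, Pi.smul_apply, smul_eq_mul]
    ring
  · intro f g h G hG
    simp only [hT, Qm]
    rw [gg_congr h, gg_congr h, gg_congr h, h G hG]
  · intro f g
    simp only [hT, mul_add, add_mul, Finset.sum_add_distrib]
    rw [sum_Qm_sym, sum_Qm_sym, sum_Qm_sym]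
  · intro v μ hex hev
    by_contra hcon
    push Not at hcon
    obtain ⟨h0, h1⟩ := hcon
    obtain ⟨G, hG, hne⟩ := hex
    refine hne (no_eig (μ := 3 - μ) (v := v) (by linarith) (by linarith) ?_ G hG)
    intro m hm
    have := hev m hm
    simp only [hT, Qm] at this
    rw [Fin.sum_univ_three]
    linarith

end Crest.Agent.Switch.ThreeRow
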