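/-
S0453 C7: the graph side of Part B.  For distinct `a b c`,
`0 ≤ ∑_{G} (Q_ab Q_bc + Q_bc Q_ca + Q_ca Q_ab)`.

Fix `t : Fin 3 → Fin n` injective.  A graph `G` gives a binary `3 × Option (Fin n)` matrix: the entry
`(i, some w)` is the slot `t i – w` for `w` outside the triangle, and the entry `(x, none)` is the
negation of the triangle slot opposite to `t x`.  A class (fixed slots outside, fixed column sums) is
in bijection with the matrices with prescribed row and column sums, and the `(y,z)`-fibre of `G`
is the set of graphs of the class with the same row `x`.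
-/
import Crest.Agent.Lib.Switch.Basic
import Crest.Agent.Lib.Switch.ThreeRow

set_option autoImplicit false
set_option linter.unusedSectionVars false
set_option linter.unusedSimpArgs false
set_option linter.unusedVariables false

namespace Crest.Agent.Switch.Triple

open Finset Crest.SwitchChain ThreeRow
open scoped Classical

variable {n : ℕ} (t : Fin 3 → Fin n)

/-- `w` is outside the triangle. -/
def off (w : Fin n) : Prop := ∀ i, w ≠ t i

/-- Row `i` of the matrix of `G`. -/
noncomputable def row (G : Finset (Edge n)) (i : Fin 3) : Finset (Option (Fin n)) :=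
  univ.filter fun c => (∃ w, c = some w ∧ off t w ∧ adj G (t i) w) ∨
    (c = none ∧ ¬ adj G (t (i + 1)) (t (i + 2)))

/-- Column sums of `G`. -/
noncomputable def col (G : Finset (Edge n)) (c : Option (Fin n)) : ℕ :=
  (univ.filter fun i => c ∈ row t G i).card

/-- `G`, `H` agree on all slots outside the triangle's vertices. -/
def rest (G H : Finset (Edge n)) : Prop :=
  ∀ u v, off t u → off t v → (adj G u v ↔ adj H u v)

/-- The class relation. -/
def Kc (G H : Finset (Edge n)) : Prop := rest t G H ∧ col t G = col t H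

variable {t}

theorem tri_cases {x y z : Fin 3} (h : Tri x y z) :
    (y = x + 1 ∧ z = x + 2) ∨ (y = x + 2 ∧ z = x + 1) := by
  obtain ⟨h1, h2, h3⟩ := h
  revert x y z
  decide

theorem third_eq (x y z i : Fin 3) (h1 : x ≠ y) (h2 : x ≠ z) (h3 : y ≠ z) (h4 : i ≠ y) (h5 : i ≠ z) :
    i = x := by
  have := x.isLt
  have := y.isLt
  have := z.isLt
  have := i.isLt
  simp only [ne_eq, Fin.ext_iff] at *
  omega

theorem tri_self (x : Fin 3) : Tri x (x + 1) (x + 2) := by
  refine ⟨?_, ?_, ?_⟩ <;> revert x <;> decide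

theorem tri_rot {x y z : Fin 3} (h : Tri x y z) : Tri y x z := ⟨h.xy.symm, h.yz, h.xz⟩
theorem tri_rot2 {x y z : Fin 3} (h : Tri x y z) : Tri z x y := ⟨h.xz.symm, h.yz.symm, h.xy⟩

theorem some_mem_row {G : Finset (Edge n)} {i : Fin 3} {w : Fin n} :
    some w ∈ row t G i ↔ off t w ∧ adj G (t i) w := by
  simp [row]

theorem none_mem_row {G : Finset (Edge n)} {x y z : Fin 3} (h : Tri x y z) :
    none ∈ row t G x ↔ ¬ adj G (t y) (t z) := by
  have h0 : none ∈ row t G x ↔ ¬ adj G (t (x + 1)) (t (x + 2)) := by simp [row]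
  rw [h0]
  rcases tri_cases h with ⟨rfl, rfl⟩ | ⟨rfl, rfl⟩
  · exact Iff.rfl
  · rw [adj_comm]

theorem vertex_cases (w : Fin n) : off t w ∨ ∃ i, w = t i := by
  by_cases h : off t w
  · exact Or.inl h
  · right
    unfold off at h
    simpa using h

theorem off_ne {w : Fin n} (h : off t w) (i : Fin 3) : w ≠ t i := h i

/-! ### Degrees -/

theorem deg_split (hinj : Function.Injective t) (G : Finset (Edge n)) (v : Fin n) :
    deg G v = (univ.filter fun u => off t u ∧ adj G v u).card
      + (univ.filter fun i => adj G v (t i)).card := by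
  rw [deg_eq_card]
  have h1 := Finset.card_filter_add_card_filter_not (s := univ.filter fun u => adj G v u)
    (fun u => off t u)
  rw [← h1, filter_filter, filter_filter]
  congr 1
  · congr 1
    ext u
    simp [and_comm]
  · have : (univ.filter fun u => adj G v u ∧ ¬ off t u)
        = (univ.filter fun i => adj G v (t i)).image t := by
      ext u
      simp only [mem_filter, mem_univ, true_and, mem_image]
      constructor
      · rintro ⟨h2, h3⟩
        rcases vertex_cases (t := t) u with h4 | ⟨i, rfl⟩
        · exact absurd h4 h3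
        · exact ⟨i, h2, rfl⟩
      · rintro ⟨i, h2, rfl⟩
        exact ⟨h2, fun h3 => h3 i rfl⟩
    rw [this, card_image_of_injective _ hinj]

theorem col_some {G : Finset (Edge n)} {w : Fin n} (hw : off t w) :
    col t G (some w) = (univ.filter fun i => adj G w (t i)).card := by
  unfold col
  congr 1
  ext i
  simp only [mem_filter, mem_univ, true_and, some_mem_row]
  rw [adj_comm]
  exact ⟨fun h => h.2, fun h => ⟨hw, h⟩⟩

theorem col_some_of_not_off {G : Finset (Edge n)} {w : Fin n} (hw : ¬ off t w) :
    col t G (some w) = 0 := by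
  unfold col
  rw [card_eq_zero, filter_eq_empty_iff]
  intro i _
  rw [some_mem_row]
  exact fun h => hw h.1

/-- (I1) -/
theorem deg_off (hinj : Function.Injective t) (G : Finset (Edge n)) {w : Fin n} (hw : off t w) :
    deg G w = (univ.filter fun u => off t u ∧ adj G w u).card + col t G (some w) := by
  rw [deg_split hinj, col_some hw]

theorem card_row (G : Finset (Edge n)) {x y z : Fin 3} (h : Tri x y z) :
    (row t G x).card = (univ.filter fun u => off t u ∧ adj G (t x) u).card
      + (if adj G (t y) (t z) then 0 else 1) := by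
  have h1 : (row t G x).card = (univ.filter fun c => c ∈ row t G x).card := by simp
  rw [h1, Finset.card_filter, Fintype.sum_option, Finset.card_filter, add_comm]
  congr 1
  · refine Finset.sum_congr rfl fun u _ => ?_
    simp only [some_mem_row]
  · simp only [none_mem_row h]
    by_cases h2 : adj G (t y) (t z) <;> simp [h2]

/-- (I2) -/
theorem deg_tri (hinj : Function.Injective t) (G : Finset (Edge n)) {x y z : Fin 3} (h : Tri x y z) :
    deg G (t x) + col t G none = (row t G x).card + 2 := by
  rw [deg_split hinj, card_row G h]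
  have h1 : (univ.filter fun i => adj G (t x) (t i)).card
      = (if adj G (t x) (t x) then 1 else 0) + (if adj G (t x) (t y) then 1 else 0)
        + (if adj G (t x) (t z) then 1 else 0) := by
    rw [Finset.card_filter, sum_tri h]
  have h2 : col t G none = (if none ∈ row t G x then 1 else 0) + (if none ∈ row t G y then 1 else 0)
      + (if none ∈ row t G z then 1 else 0) := by
    unfold col
    convert col_eq h (fun i => row t G i) none
  rw [h1, h2]
  simp only [none_mem_row h, none_mem_row (tri_rot h), none_mem_row (tri_rot2 h), not_adj_self, if_false]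
  by_cases a1 : adj G (t x) (t y) <;> by_cases a2 : adj G (t x) (t z) <;>
    by_cases a3 : adj G (t y) (t z) <;> simp only [a1, a2, a3, if_true, if_false, not_true_eq_false, not_false_eq_true]

/-! ### Extensionality -/

theorem graph_ext_rows {G H : Finset (Edge n)} (h1 : rest t G H) (h2 : ∀ i, row t G i = row t H i) :
    G = H := by
  apply graph_ext
  intro u v
  rcases vertex_cases (t := t) u with hu | ⟨i, rfl⟩ <;> rcases vertex_cases (t := t) v with hv | ⟨j, rfl⟩
  · exact h1 u v hu hv
  · rw [adj_comm G, adj_comm H]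
    have := congrArg (fun S => some u ∈ S) (h2 j)
    simp only [some_mem_row, eq_iff_iff] at this
    simpa [hu] using this
  · have := congrArg (fun S => some v ∈ S) (h2 i)
    simp only [some_mem_row, eq_iff_iff] at this
    simpa [hv] using this
  · by_cases hij : i = j
    · subst hij
      simp [not_adj_self]
    · obtain ⟨k, hk⟩ := exists_third hij
      have hT : Tri k i j := ⟨hk.xz.symm, hk.yz.symm, hk.xy⟩
      have := congrArg (fun S => none ∈ S) (h2 k)
      simp only [none_mem_row hT, eq_iff_iff, not_iff_not] at this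
      exact this

/-! ### Fibres -/

theorem Kc_refl (G : Finset (Edge n)) : Kc t G G := ⟨fun _ _ _ _ => Iff.rfl, rfl⟩

theorem Kc_symm {G H : Finset (Edge n)} (h : Kc t G H) : Kc t H G :=
  ⟨fun u v hu hv => (h.1 u v hu hv).symm, h.2.symm⟩

theorem Kc_trans {G H K : Finset (Edge n)} (h : Kc t G H) (h' : Kc t H K) : Kc t G K :=
  ⟨fun u v hu hv => (h.1 u v hu hv).trans (h'.1 u v hu hv), h.2.trans h'.2⟩

theorem rest_of_same {G H : Finset (Edge n)} {y z : Fin 3} (h : same (t y) (t z) G H) :
    rest t G H := fun u v hu hv => h.2 u v (hu y) (hu z) (hv y) (hv z)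

theorem row_of_same (hinj : Function.Injective t) {G H : Finset (Edge n)} {x y z : Fin 3}
    (hT : Tri x y z) (h : same (t y) (t z) G H) : row t G x = row t H x := by
  ext c
  cases c with
  | none =>
    rw [none_mem_row hT, none_mem_row hT, h.1]
  | some w =>
    rw [some_mem_row, some_mem_row]
    refine and_congr_right fun hw => ?_
    exact h.2 _ _ (fun e => hT.xy (hinj e)) (fun e => hT.xz (hinj e)) (hw y) (hw z)

theorem col_of_same (hinj : Function.Injective t) {d : Fin n → ℕ} {G H : Finset (Edge n)}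
    (hG : G ∈ realizations d) (hH : H ∈ realizations d) {x y z : Fin 3} (hT : Tri x y z)
    (h : same (t y) (t z) G H) : col t G = col t H := by
  funext c
  cases c with
  | none =>
    have h1 := deg_tri hinj G hT
    have h2 := deg_tri hinj H hT
    rw [mem_realizations.1 hG] at h1
    rw [mem_realizations.1 hH, ← row_of_same hinj hT h] at h2
    omega
  | some w =>
    by_cases hw : off t w
    · have h1 := deg_off hinj G hw
      have h2 := deg_off hinj H hw
      rw [mem_realizations.1 hG] at h1
      rw [mem_realizations.1 hH] at h2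
      have h3 : (univ.filter fun u => off t u ∧ adj G w u)
          = (univ.filter fun u => off t u ∧ adj H w u) := by
        ext u
        simp only [mem_filter, mem_univ, true_and]
        exact and_congr_right fun hu => rest_of_same h w u hw hu
      rw [h3] at h1
      omega
    · rw [col_some_of_not_off hw, col_some_of_not_off hw]

theorem same_of_rows {G H : Finset (Edge n)} {x y z : Fin 3} (hT : Tri x y z)
    (h1 : rest t G H) (h2 : row t G x = row t H x) : same (t y) (t z) G H := by
  constructor
  · have := congrArg (fun S => none ∈ S) h2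
    simp only [none_mem_row hT, eq_iff_iff, not_iff_not] at this
    exact this
  · have key : ∀ u, u ≠ t y → u ≠ t z → off t u ∨ u = t x := by
      intro u h3 h4
      rcases vertex_cases (t := t) u with hu | ⟨i, rfl⟩
      · exact Or.inl hu
      · right
        have a1 : i ≠ y := fun e => h3 (by rw [e])
        have a2 : i ≠ z := fun e => h4 (by rw [e])
        rw [third_eq x y z i hT.xy hT.xz hT.yz a1 a2]
    intro u v h3 h4 h5 h6
    rcases key u h3 h4 with hu | rfl <;> rcases key v h5 h6 with hv | rfl
    · exact h1 u v hu hv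
    · rw [adj_comm G, adj_comm H]
      have := congrArg (fun S => some u ∈ S) h2
      simp only [some_mem_row, eq_iff_iff] at this
      simpa [hu] using this
    · have := congrArg (fun S => some v ∈ S) h2
      simp only [some_mem_row, eq_iff_iff] at this
      simpa [hv] using this
    · simp [not_adj_self]

/-! ### From matrices to graphs -/

/-- The slots of the graph of the matrix `m`, with the slots outside taken from `G0`. -/
def rel (t : Fin 3 → Fin n) (G0 : Finset (Edge n)) (m : Fin 3 → Finset (Option (Fin n))) (u v : Fin n) :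
    Prop :=
  (off t u ∧ off t v ∧ adj G0 u v) ∨ (∃ i, u = t i ∧ off t v ∧ some v ∈ m i) ∨
    (∃ i, v = t i ∧ off t u ∧ some u ∈ m i) ∨ (∃ x y z, Tri x y z ∧ u = t y ∧ v = t z ∧ none ∉ m x)

theorem rel_symm (G0 : Finset (Edge n)) (m : Fin 3 → Finset (Option (Fin n))) (u v : Fin n) :
    rel t G0 m u v ↔ rel t G0 m v u := by
  have key : ∀ u v, rel t G0 m u v → rel t G0 m v u := by
    rintro u v (⟨h1, h2, h3⟩ | ⟨i, h1, h2, h3⟩ | ⟨i, h1, h2, h3⟩ | ⟨x, y, z, h1, h2, h3, h4⟩)
    · exact Or.inl ⟨h2, h1, (adj_comm _ _ _).1 h3⟩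
    · exact Or.inr (Or.inr (Or.inl ⟨i, h1, h2, h3⟩))
    · exact Or.inr (Or.inl ⟨i, h1, h2, h3⟩)
    · exact Or.inr (Or.inr (Or.inr ⟨x, z, y, h1.swap, h3, h2, h4⟩))
  exact ⟨key u v, key v u⟩

/-- The graph of the matrix `m`. -/
noncomputable def toG (t : Fin 3 → Fin n) (G0 : Finset (Edge n))
    (m : Fin 3 → Finset (Option (Fin n))) : Finset (Edge n) :=
  ofRel (rel t G0 m)

theorem adj_toG_off {G0 : Finset (Edge n)} {m : Fin 3 → Finset (Option (Fin n))} {u v : Fin n}
    (hu : off t u) (hv : off t v) : adj (toG t G0 m) u v ↔ adj G0 u v := by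
  by_cases huv : u = v
  · subst huv
    simp [not_adj_self]
  · rw [toG, adj_ofRel (rel_symm G0 m) huv]
    constructor
    · rintro (⟨-, -, h3⟩ | ⟨i, h1, -⟩ | ⟨i, h1, -⟩ | ⟨x, y, z, -, h2, -⟩)
      · exact h3
      · exact absurd h1 (hu i)
      · exact absurd h1 (hv i)
      · exact absurd h2 (hu y)
    · intro h
      exact Or.inl ⟨hu, hv, h⟩

theorem adj_toG_row (hinj : Function.Injective t) {G0 : Finset (Edge n)}
    {m : Fin 3 → Finset (Option (Fin n))} {i : Fin 3} {w : Fin n} (hw : off t w) :
    adj (toG t G0 m) (t i) w ↔ some w ∈ m i := by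
  have hne : t i ≠ w := (hw i).symm
  rw [toG, adj_ofRel (rel_symm G0 m) hne]
  constructor
  · rintro (⟨h1, -⟩ | ⟨i', h1, -, h3⟩ | ⟨i', h1, -⟩ | ⟨x, y, z, -, -, h3, -⟩)
    · exact absurd rfl (h1 i)
    · rw [hinj h1]; exact h3
    · exact absurd h1 (hw i')
    · exact absurd h3 (hw z)
  · intro h
    exact Or.inr (Or.inl ⟨i, rfl, hw, h⟩)

theorem adj_toG_tri (hinj : Function.Injective t) {G0 : Finset (Edge n)}
    {m : Fin 3 → Finset (Option (Fin n))} {x y z : Fin 3} (hT : Tri x y z) :
    adj (toG t G0 m) (t y) (t z) ↔ none ∉ m x := by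
  have hne : t y ≠ t z := fun e => hT.yz (hinj e)
  rw [toG, adj_ofRel (rel_symm G0 m) hne]
  constructor
  · rintro (⟨h1, -⟩ | ⟨i', -, h2, -⟩ | ⟨i', -, h2, -⟩ | ⟨x', y', z', hT', h2, h3, h4⟩)
    · exact absurd rfl (h1 y)
    · exact absurd rfl (h2 z)
    · exact absurd rfl (h2 y)
    · have e1 := hinj h2
      have e2 := hinj h3
      subst e1 e2
      have e3 : x' = x := third_eq x y z x' hT.xy hT.xz hT.yz hT'.xy hT'.xz
      subst e3
      exact h4
  · intro h
    exact Or.inr (Or.inr (Or.inr ⟨x, y, z, hT, rfl, rfl, h⟩))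

theorem mem_Om' {s : Option (Fin n) → ℕ} {r : Fin 3 → ℕ} {m : Fin 3 → Finset (Option (Fin n))} :
    m ∈ Om s r ↔ (∀ w, (univ.filter fun x => w ∈ m x).card = s w) ∧ ∀ x, (m x).card = r x := by
  rw [mem_Om]
  constructor <;>
  · intro h
    refine ⟨fun w => ?_, h.2⟩
    convert h.1 w

/-- The parameters of the class of `G0`. -/
noncomputable def rr (t : Fin 3 → Fin n) (G0 : Finset (Edge n)) : Fin 3 → ℕ :=
  fun i => (row t G0 i).card

theorem row_toG (hinj : Function.Injective t) {G0 : Finset (Edge n)}
    {m : Fin 3 → Finset (Option (Fin n))} (hm : m ∈ Om (col t G0) (rr t G0)) (i : Fin 3) :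
    row t (toG t G0 m) i = m i := by
  ext c
  cases c with
  | none =>
    obtain ⟨y, z, hT⟩ := exists_tri i
    rw [none_mem_row hT, adj_toG_tri hinj hT, not_not]
  | some w =>
    rw [some_mem_row]
    by_cases hw : off t w
    · rw [adj_toG_row hinj hw]
      simp [hw]
    · have h1 := (mem_Om'.1 hm).1 (some w)
      rw [col_some_of_not_off hw, card_eq_zero, filter_eq_empty_iff] at h1
      constructor
      · exact fun h => absurd h.1 hw
      · exact fun h => absurd h (h1 (mem_univ i))

theorem rest_toG {G0 : Finset (Edge n)} {m : Fin 3 → Finset (Option (Fin n))} :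
    rest t G0 (toG t G0 m) := fun _ _ hu hv => (adj_toG_off hu hv).symm

theorem col_toG (hinj : Function.Injective t) {G0 : Finset (Edge n)}
    {m : Fin 3 → Finset (Option (Fin n))} (hm : m ∈ Om (col t G0) (rr t G0)) :
    col t (toG t G0 m) = col t G0 := by
  funext c
  rw [← (mem_Om'.1 hm).1 c]
  unfold col
  congr 1
  ext i
  simp only [mem_filter, mem_univ, true_and, row_toG hinj hm]

theorem toG_mem (hinj : Function.Injective t) {d : Fin n → ℕ} {G0 : Finset (Edge n)}
    (hG0 : G0 ∈ realizations d) {m : Fin 3 → Finset (Option (Fin n))}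
    (hm : m ∈ Om (col t G0) (rr t G0)) : toG t G0 m ∈ realizations d := by
  rw [mem_realizations]
  intro v
  rcases vertex_cases (t := t) v with hv | ⟨x, rfl⟩
  · rw [deg_off hinj _ hv, col_toG hinj hm, ← mem_realizations.1 hG0, deg_off hinj G0 hv]
    congr 2
    ext u
    simp only [mem_filter, mem_univ, true_and]
    exact and_congr_right fun hu => adj_toG_off hv hu
  · obtain ⟨y, z, hT⟩ := exists_tri x
    have h1 := deg_tri hinj (toG t G0 m) hT
    have h2 := deg_tri hinj G0 hT
    rw [col_toG hinj hm, row_toG hinj hm, row_m hm] at h1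
    rw [mem_realizations.1 hG0] at h2
    simp only [rr] at h1
    omega

/-- Rows of a graph in the class of `G0`. -/
theorem rows_mem (hinj : Function.Injective t) {d : Fin n → ℕ} {G0 H : Finset (Edge n)}
    (hG0 : G0 ∈ realizations d) (hH : H ∈ realizations d) (hK : Kc t G0 H) :
    row t H ∈ Om (col t G0) (rr t G0) := by
  rw [mem_Om']
  constructor
  · intro c
    rw [hK.2]
    rfl
  · intro x
    obtain ⟨y, z, hT⟩ := exists_tri x
    have h1 := deg_tri hinj H hT
    have h2 := deg_tri hinj G0 hT
    rw [mem_realizations.1 hH] at h1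
    rw [mem_realizations.1 hG0, hK.2] at h2
    simp only [rr]
    omega

theorem Kc_toG (hinj : Function.Injective t) {G0 : Finset (Edge n)}
    {m : Fin 3 → Finset (Option (Fin n))} (hm : m ∈ Om (col t G0) (rr t G0)) :
    Kc t G0 (toG t G0 m) := ⟨rest_toG, (col_toG hinj hm).symm⟩

theorem toG_row (hinj : Function.Injective t) {d : Fin n → ℕ} {G0 H : Finset (Edge n)}
    (hG0 : G0 ∈ realizations d) (hH : H ∈ realizations d) (hK : Kc t G0 H) :
    toG t G0 (row t H) = H := by
  have hm := rows_mem hinj hG0 hH hK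
  refine graph_ext_rows (t := t) ?_ (fun i => row_toG hinj hm i)
  intro u v hu hv
  rw [adj_toG_off hu hv]
  exact hK.1 u v hu hv

/-! ### The block averages -/

/-- The block of `H` corresponds to the fibre of its row `x`. -/
theorem avg_eq_gg (hinj : Function.Injective t) {d : Fin n → ℕ} {G0 H : Finset (Edge n)}
    (hG0 : G0 ∈ realizations d) (hH : H ∈ realizations d) (hK : Kc t G0 H) {x y z : Fin 3}
    (hT : Tri x y z) (f : Finset (Edge n) → ℝ) :
    avg d (t y) (t z) f H
      = gg (col t G0) (rr t G0) (fun m => f (toG t G0 m)) x (row t H x) := by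
  unfold avg gg
  have hmap : ∀ H' ∈ blk d (t y) (t z) H,
      row t H' ∈ fib (col t G0) (rr t G0) x (row t H x) ∧ toG t G0 (row t H') = H' := by
    intro H' hH'
    obtain ⟨h1, h2⟩ := mem_filter.1 hH'
    have hK' : Kc t G0 H' :=
      Kc_trans hK ⟨rest_of_same h2, col_of_same hinj hH h1 hT h2⟩
    exact ⟨mem_fib.2 ⟨rows_mem hinj hG0 h1 hK', (row_of_same hinj hT h2).symm⟩,
      toG_row hinj hG0 h1 hK'⟩
  have hback : ∀ m ∈ fib (col t G0) (rr t G0) x (row t H x),
      toG t G0 m ∈ blk d (t y) (t z) H ∧ row t (toG t G0 m) = m := by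
    intro m hm
    obtain ⟨h1, h2⟩ := mem_fib.1 hm
    have hrow : row t (toG t G0 m) = m := funext fun i => row_toG hinj h1 i
    refine ⟨mem_filter.2 ⟨toG_mem hinj hG0 h1, ?_⟩, hrow⟩
    apply same_of_rows hT
    · exact (Kc_trans (Kc_symm hK) (Kc_toG hinj h1)).1
    · rw [hrow, h2]
  congr 1
  · refine Finset.sum_nbij' (row t) (toG t G0) (fun a ha => (hmap a ha).1)
      (fun a ha => (hback a ha).1) (fun a ha => (hmap a ha).2) (fun a ha => (hback a ha).2) ?_
    intro a ha
    rw [(hmap a ha).2]
  · congr 1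
    refine Finset.card_nbij' (row t) (toG t G0) (fun a ha => (hmap a ha).1)
      (fun a ha => (hback a ha).1) (fun a ha => (hmap a ha).2) (fun a ha => (hback a ha).2)

/-- `Q` on a class is `Qm`. -/
theorem Q_eq_Qm (hinj : Function.Injective t) {d : Fin n → ℕ} {G0 H : Finset (Edge n)}
    (hG0 : G0 ∈ realizations d) (hH : H ∈ realizations d) (hK : Kc t G0 H) {x y z : Fin 3}
    (hT : Tri x y z) (f : Finset (Edge n) → ℝ) :
    Q d (t y) (t z) f H = Qm (col t G0) (rr t G0) x (fun m => f (toG t G0 m)) (row t H) := by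
  unfold Q Qm
  rw [avg_eq_gg hinj hG0 hH hK hT]
  beta_reduce
  rw [toG_row hinj hG0 hH hK]

/-- The inequality on a class. -/
theorem class_nonneg (hinj : Function.Injective t) {d : Fin n → ℕ} {G0 : Finset (Edge n)}
    (hG0 : G0 ∈ realizations d) (f : Finset (Edge n) → ℝ) :
    0 ≤ ∑ H ∈ (realizations d).filter (Kc t G0),
      (Q d (t 0) (t 1) f H * Q d (t 1) (t 2) f H + Q d (t 1) (t 2) f H * Q d (t 2) (t 0) f H
        + Q d (t 2) (t 0) f H * Q d (t 0) (t 1) f H) := by
  have h := three_row_nonneg (col t G0) (rr t G0) (fun m => f (toG t G0 m))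
  have hT0 : Tri 0 1 2 := ⟨by decide, by decide, by decide⟩
  have hT1 : Tri 1 2 0 := ⟨by decide, by decide, by decide⟩
  have hT2 : Tri 2 0 1 := ⟨by decide, by decide, by decide⟩
  have hsum : ∑ H ∈ (realizations d).filter (Kc t G0),
      (Q d (t 0) (t 1) f H * Q d (t 1) (t 2) f H + Q d (t 1) (t 2) f H * Q d (t 2) (t 0) f H
        + Q d (t 2) (t 0) f H * Q d (t 0) (t 1) f H)
      = ∑ m ∈ Om (col t G0) (rr t G0),
        (Qm (col t G0) (rr t G0) 0 (fun m => f (toG t G0 m)) m
            * Qm (col t G0) (rr t G0) 1 (fun m => f (toG t G0 m)) m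
          + Qm (col t G0) (rr t G0) 1 (fun m => f (toG t G0 m)) m
            * Qm (col t G0) (rr t G0) 2 (fun m => f (toG t G0 m)) m
          + Qm (col t G0) (rr t G0) 2 (fun m => f (toG t G0 m)) m
            * Qm (col t G0) (rr t G0) 0 (fun m => f (toG t G0 m)) m) := by
    refine Finset.sum_nbij' (row t) (toG t G0) ?_ ?_ ?_ ?_ ?_
    · intro H hH
      obtain ⟨h1, h2⟩ := mem_filter.1 hH
      exact rows_mem hinj hG0 h1 h2
    · intro m hm
      exact mem_filter.2 ⟨toG_mem hinj hG0 hm, Kc_toG hinj hm⟩
    · intro H hH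
      obtain ⟨h1, h2⟩ := mem_filter.1 hH
      exact toG_row hinj hG0 h1 h2
    · intro m hm
      exact funext fun i => row_toG hinj hm i
    · intro H hH
      obtain ⟨h1, h2⟩ := mem_filter.1 hH
      rw [Q_eq_Qm hinj hG0 h1 h2 hT0, Q_eq_Qm hinj hG0 h1 h2 hT1, Q_eq_Qm hinj hG0 h1 h2 hT2]
      ring
  rw [hsum]
  exact h

end Crest.Agent.Switch.Triple

namespace Crest.Agent.Switch

open Finset Crest.SwitchChain
open scoped Classical

variable {n : ℕ}

/-- **Part B.** -/
theorem triple_nonneg (d : Fin n → ℕ) {a b c : Fin n} (hab : a ≠ b) (hac : a ≠ c) (hbc : b ≠ c)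
    (f : Finset (Edge n) → ℝ) :
    0 ≤ ∑ G ∈ realizations d, (Q d a b f G * Q d b c f G + Q d b c f G * Q d c a f G
        + Q d c a f G * Q d a b f G) := by
  set t : Fin 3 → Fin n := ![a, b, c] with ht
  have hinj : Function.Injective t := by
    intro i j h
    fin_cases i <;> fin_cases j <;> simp_all [ht]
  have h0 : t 0 = a := rfl
  have h1 : t 1 = b := rfl
  have h2 : t 2 = c := rfl
  rw [sum_eq_sum_gavg (Ω := realizations d) (r := Triple.Kc t) Triple.Kc_refl
    (fun _ _ h => Triple.Kc_symm h) (fun _ _ _ h h' => Triple.Kc_trans h h')]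
  refine Finset.sum_nonneg fun G hG => ?_
  unfold gavg gblk
  refine div_nonneg ?_ (Nat.cast_nonneg _)
  have := Triple.class_nonneg hinj hG f
  rwa [h0, h1, h2] at this

end Crest.Agent.Switch
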