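/-
S0453 top-level assembly (C10): `‖Df‖² ≥ ⟨f,Df⟩`.
-/
import Crest.Agent.Lib.Switch.Spectral
import Crest.Agent.Lib.Switch.Connect
import Crest.Agent.Lib.Switch.TripleGraph
import Crest.Agent.Lib.Switch.TV
import Crest.Agent.Lib.Switch.SplitGraph
import Crest.Agent.Lib.Switch.JohnsonGraph
import Crest.Agent.Lib.Switch.Kernel

set_option autoImplicit false

namespace Crest.Agent.Switch

open Finset Crest.SwitchChain
open scoped Classical

variable {n : ℕ}

/-- Split of a sum over `Fin n` at two distinct points. -/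
theorem sum_split2 {a b : Fin n} (hab : a ≠ b) (F : Fin n → ℝ) :
    ∑ c, F c = F a + F b + ∑ c, if c ≠ a ∧ c ≠ b then F c else 0 := by
  have h : ∀ c, F c = (if c = a then F c else 0) + (if c = b then F c else 0)
      + (if c ≠ a ∧ c ≠ b then F c else 0) := by
    intro c
    by_cases h1 : c = a
    · subst h1; simp [hab]
    · by_cases h2 : c = b
      · subst h2; simp [h1]
      · simp [h1, h2]
  calc ∑ c, F c = ∑ c, ((if c = a then F c else 0) + (if c = b then F c else 0)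
      + (if c ≠ a ∧ c ≠ b then F c else 0)) := Finset.sum_congr rfl fun c _ => h c
    _ = _ := by
      rw [Finset.sum_add_distrib, Finset.sum_add_distrib]
      simp

/-- The pattern decomposition of ordered pairs relative to a pair `a ≠ b`. -/
theorem sum_pairs_decomp {a b : Fin n} (hab : a ≠ b) (ψ : Fin n → Fin n → ℝ)
    (hψ : ∀ c e, ψ c e = ψ e c) :
    ∑ c, ∑ e, (if c ≠ e then ψ c e else 0)
      = 2 * ψ a b + 2 * (∑ z, if z ≠ a ∧ z ≠ b then ψ a z else 0)
        + 2 * (∑ z, if z ≠ a ∧ z ≠ b then ψ b z else 0)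
        + ∑ c, ∑ e, (if c ≠ a ∧ c ≠ b ∧ e ≠ a ∧ e ≠ b ∧ c ≠ e then ψ c e else 0) := by
  rw [sum_split2 hab]
  have h1 : ∑ e, (if a ≠ e then ψ a e else 0)
      = ψ a b + ∑ z, if z ≠ a ∧ z ≠ b then ψ a z else 0 := by
    rw [sum_split2 hab]
    simp only [ne_eq, not_true_eq_false, if_false, hab, not_false_eq_true, if_true, zero_add]
    congr 1
    refine Finset.sum_congr rfl fun z _ => ?_
    by_cases h : z = a
    · simp [h]
    · by_cases h' : z = b
      · simp [h']
      · have : a ≠ z := fun h'' => h h''.symm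
        simp [h, h', this]
  have h2 : ∑ e, (if b ≠ e then ψ b e else 0)
      = ψ a b + ∑ z, if z ≠ a ∧ z ≠ b then ψ b z else 0 := by
    rw [sum_split2 hab]
    simp only [ne_eq, not_true_eq_false, if_false, hab.symm, not_false_eq_true, if_true, add_zero]
    rw [hψ b a]
    congr 1
    refine Finset.sum_congr rfl fun z _ => ?_
    by_cases h : z = a
    · simp [h]
    · by_cases h' : z = b
      · simp [h']
      · have : b ≠ z := fun h'' => h' h''.symm
        simp [h, h', this]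
  have h3 : ∑ c, (if c ≠ a ∧ c ≠ b then ∑ e, (if c ≠ e then ψ c e else 0) else 0)
      = (∑ z, if z ≠ a ∧ z ≠ b then ψ a z else 0) + (∑ z, if z ≠ a ∧ z ≠ b then ψ b z else 0)
        + ∑ c, ∑ e, (if c ≠ a ∧ c ≠ b ∧ e ≠ a ∧ e ≠ b ∧ c ≠ e then ψ c e else 0) := by
    rw [← Finset.sum_add_distrib, ← Finset.sum_add_distrib]
    refine Finset.sum_congr rfl fun c _ => ?_
    by_cases hc : c ≠ a ∧ c ≠ b
    · rw [if_pos hc, if_pos hc, if_pos hc, sum_split2 hab]
      have h4 : (if c ≠ a then ψ c a else 0) = ψ a c := by rw [if_pos hc.1, hψ]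
      have h5 : (if c ≠ b then ψ c b else 0) = ψ b c := by rw [if_pos hc.2, hψ]
      rw [h4, h5]
      congr 1
      refine Finset.sum_congr rfl fun e _ => ?_
      by_cases he : e ≠ a ∧ e ≠ b
      · by_cases hce : c ≠ e
        · simp [hc.1, hc.2, he.1, he.2, hce]
        · simp [hc.1, hc.2, he.1, he.2, hce]
      · have : ¬ (c ≠ a ∧ c ≠ b ∧ e ≠ a ∧ e ≠ b ∧ c ≠ e) := fun h => he ⟨h.2.2.1, h.2.2.2.1⟩
        rw [if_neg he, if_neg this]
    · rw [if_neg hc, if_neg hc, if_neg hc]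
      have : ∀ e, ¬ (c ≠ a ∧ c ≠ b ∧ e ≠ a ∧ e ≠ b ∧ c ≠ e) := fun e h => hc ⟨h.1, h.2.1⟩
      simp [this]
  rw [h1, h2, h3]
  ring

/-- Inner product of `Q`'s. -/
noncomputable def ip (d : Fin n → ℕ) (f : Finset (Edge n) → ℝ) (a b c e : Fin n) : ℝ :=
  ∑ G ∈ realizations d, Q d a b f G * Q d c e f G

theorem ip_swap12 (d : Fin n → ℕ) (f : Finset (Edge n) → ℝ) (a b c e : Fin n) :
    ip d f a b c e = ip d f b a c e := by
  unfold ip; simp only [Q_comm d a b]

theorem ip_swap34 (d : Fin n → ℕ) (f : Finset (Edge n) → ℝ) (a b c e : Fin n) :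
    ip d f a b c e = ip d f a b e c := by
  unfold ip; simp only [Q_comm d c e]

theorem ip_comm (d : Fin n → ℕ) (f : Finset (Edge n) → ℝ) (a b c e : Fin n) :
    ip d f a b c e = ip d f c e a b := by
  unfold ip; exact Finset.sum_congr rfl fun G _ => mul_comm _ _

/-- `Dop` as a half sum over ordered pairs. -/
theorem Dop_eq (d : Fin n → ℕ) (f : Finset (Edge n) → ℝ) (G : Finset (Edge n)) :
    Dop d f G = (1 / 2) * ∑ a, ∑ b, if a ≠ b then Q d a b f G else 0 := by
  unfold Dop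
  have h1 : ∀ a b : Fin n, (if a ≠ b then Q d a b f G else 0)
      = (if a < b then Q d a b f G else 0) + (if b < a then Q d b a f G else 0) := by
    intro a b
    rcases lt_trichotomy a b with h | h | h
    · simp [h, h.ne, h.le.not_gt]
    · simp [h]
    · simp [h, h.ne', h.le.not_gt, Q_comm d a b]
  simp only [h1, Finset.sum_add_distrib]
  have h2 : ∑ a, ∑ b, (if b < a then Q d b a f G else 0)
      = ∑ a, ∑ b, (if a < b then Q d a b f G else 0) := Finset.sum_comm
  rw [h2]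
  have h3 : ∀ a, ∑ b ∈ univ.filter (fun b : Fin n => a < b), Q d a b f G
      = ∑ b, if a < b then Q d a b f G else 0 := fun a => Finset.sum_filter _ _
  simp only [h3]
  ring

/-- `⟨f, Df⟩ = ½ S₂`. -/
theorem inner_Dop (d : Fin n → ℕ) (f : Finset (Edge n) → ℝ) :
    ∑ G ∈ realizations d, f G * Dop d f G
      = (1 / 2) * ∑ a, ∑ b, if a ≠ b then ip d f a b a b else 0 := by
  simp only [Dop_eq]
  have h : ∀ G, f G * ((1 / 2) * ∑ a, ∑ b, if a ≠ b then Q d a b f G else 0)
      = (1 / 2) * ∑ a, ∑ b, if a ≠ b then f G * Q d a b f G else 0 := by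
    intro G
    rw [mul_left_comm, Finset.mul_sum]
    congr 1
    refine Finset.sum_congr rfl fun a _ => ?_
    rw [Finset.mul_sum]
    refine Finset.sum_congr rfl fun b _ => ?_
    split_ifs <;> simp
  simp only [h]
  rw [← Finset.mul_sum]
  congr 1
  rw [Finset.sum_comm]
  refine Finset.sum_congr rfl fun a _ => ?_
  rw [Finset.sum_comm]
  refine Finset.sum_congr rfl fun b _ => ?_
  by_cases hab : a ≠ b
  · simp only [hab, if_true, ne_eq, not_false_eq_true]
    unfold ip
    rw [← sum_Q_sq]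
    exact Finset.sum_congr rfl fun G _ => sq _
  · simp [hab]

/-- `‖Df‖² = ¼ Σ ordered`. -/
theorem norm_Dop (d : Fin n → ℕ) (f : Finset (Edge n) → ℝ) :
    ∑ G ∈ realizations d, (Dop d f G) ^ 2
      = (1 / 4) * ∑ a, ∑ b, if a ≠ b then (∑ c, ∑ e, if c ≠ e then ip d f a b c e else 0) else 0 := by
  simp only [Dop_eq]
  have h : ∀ G, ((1 / 2) * ∑ a, ∑ b, if a ≠ b then Q d a b f G else 0) ^ 2
      = (1 / 4) * ∑ a, ∑ b, if a ≠ b then
          (∑ c, ∑ e, if c ≠ e then Q d a b f G * Q d c e f G else 0) else 0 := by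
    intro G
    have : ∀ a b : Fin n, (if a ≠ b then
          (∑ c, ∑ e, if c ≠ e then Q d a b f G * Q d c e f G else 0) else 0)
        = (if a ≠ b then Q d a b f G else 0) * ∑ c, ∑ e, if c ≠ e then Q d c e f G else 0 := by
      intro a b
      by_cases hab : a ≠ b
      · simp only [hab, if_true, ne_eq, not_false_eq_true]
        rw [Finset.mul_sum]
        refine Finset.sum_congr rfl fun c _ => ?_
        rw [Finset.mul_sum]
        refine Finset.sum_congr rfl fun e _ => ?_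
        split_ifs <;> simp
      · simp [hab]
    simp only [this]
    simp only [← Finset.sum_mul]
    ring
  simp only [h]
  rw [← Finset.mul_sum]
  congr 1
  rw [Finset.sum_comm]
  refine Finset.sum_congr rfl fun a _ => ?_
  rw [Finset.sum_comm]
  refine Finset.sum_congr rfl fun b _ => ?_
  by_cases hab : a ≠ b
  · simp only [hab, if_true, ne_eq, not_false_eq_true]
    rw [Finset.sum_comm]
    refine Finset.sum_congr rfl fun c _ => ?_
    rw [Finset.sum_comm]
    refine Finset.sum_congr rfl fun e _ => ?_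
    by_cases hce : c ≠ e
    · simp only [hce, if_true, ne_eq, not_false_eq_true]
      rfl
    · simp [hce]
  · simp [hab]

/-- The sum of `ip x y y z` over distinct triples is nonnegative. -/
theorem triple_sum_nonneg (d : Fin n → ℕ) (f : Finset (Edge n) → ℝ) :
    0 ≤ ∑ x, ∑ y, ∑ z, if x ≠ y ∧ x ≠ z ∧ y ≠ z then ip d f x y y z else 0 := by
  set T := ∑ x, ∑ y, ∑ z, if x ≠ y ∧ x ≠ z ∧ y ≠ z then ip d f x y y z else 0 with hT
  have h1 : 0 ≤ ∑ x, ∑ y, ∑ z, if x ≠ y ∧ x ≠ z ∧ y ≠ z then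
      (ip d f x y y z + ip d f y z z x + ip d f z x x y) else 0 := by
    refine Finset.sum_nonneg fun x _ => Finset.sum_nonneg fun y _ => Finset.sum_nonneg fun z _ => ?_
    split_ifs with h
    · have := triple_nonneg d h.1 h.2.1 h.2.2 f
      simp only [Finset.sum_add_distrib] at this
      exact this
    · exact le_refl _
  have h2 : (∑ x, ∑ y, ∑ z, if x ≠ y ∧ x ≠ z ∧ y ≠ z then ip d f y z z x else 0) = T := by
    rw [hT]
    -- rename (x,y,z) ↦ (z,x,y)
    calc (∑ x, ∑ y, ∑ z, if x ≠ y ∧ x ≠ z ∧ y ≠ z then ip d f y z z x else 0)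
        = ∑ y, ∑ z, ∑ x, if x ≠ y ∧ x ≠ z ∧ y ≠ z then ip d f y z z x else 0 := by
          rw [Finset.sum_comm]
          refine Finset.sum_congr rfl fun y _ => ?_
          rw [Finset.sum_comm]
      _ = _ := by
          refine Finset.sum_congr rfl fun y _ => Finset.sum_congr rfl fun z _ =>
            Finset.sum_congr rfl fun x _ => ?_
          by_cases h : y ≠ z ∧ y ≠ x ∧ z ≠ x
          · have h' : x ≠ y ∧ x ≠ z ∧ y ≠ z := ⟨h.2.1.symm, h.2.2.symm, h.1⟩
            rw [if_pos h', if_pos h]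
          · have h' : ¬ (x ≠ y ∧ x ≠ z ∧ y ≠ z) := fun h'' =>
              h ⟨h''.2.2, h''.1.symm, h''.2.1.symm⟩
            rw [if_neg h', if_neg h]
  have h3 : (∑ x, ∑ y, ∑ z, if x ≠ y ∧ x ≠ z ∧ y ≠ z then ip d f z x x y else 0) = T := by
    rw [hT]
    calc (∑ x, ∑ y, ∑ z, if x ≠ y ∧ x ≠ z ∧ y ≠ z then ip d f z x x y else 0)
        = ∑ z, ∑ x, ∑ y, if x ≠ y ∧ x ≠ z ∧ y ≠ z then ip d f z x x y else 0 := by
          have : ∀ x : Fin n, (∑ y, ∑ z, if x ≠ y ∧ x ≠ z ∧ y ≠ z then ip d f z x x y else 0)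
              = ∑ z, ∑ y, if x ≠ y ∧ x ≠ z ∧ y ≠ z then ip d f z x x y else 0 :=
            fun x => Finset.sum_comm
          simp only [this]
          exact Finset.sum_comm
      _ = _ := by
          refine Finset.sum_congr rfl fun z _ => Finset.sum_congr rfl fun x _ =>
            Finset.sum_congr rfl fun y _ => ?_
          by_cases h : z ≠ x ∧ z ≠ y ∧ x ≠ y
          · have h' : x ≠ y ∧ x ≠ z ∧ y ≠ z := ⟨h.2.2, h.1.symm, h.2.1.symm⟩
            rw [if_pos h', if_pos h]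
          · have h' : ¬ (x ≠ y ∧ x ≠ z ∧ y ≠ z) := fun h'' =>
              h ⟨h''.2.1.symm, h''.2.2.symm, h''.1⟩
            rw [if_neg h', if_neg h]
  have h4 : (∑ x, ∑ y, ∑ z, if x ≠ y ∧ x ≠ z ∧ y ≠ z then
      (ip d f x y y z + ip d f y z z x + ip d f z x x y) else 0) = 3 * T := by
    have : ∀ x y z : Fin n, (if x ≠ y ∧ x ≠ z ∧ y ≠ z then
        (ip d f x y y z + ip d f y z z x + ip d f z x x y) else 0)
        = (if x ≠ y ∧ x ≠ z ∧ y ≠ z then ip d f x y y z else 0)
          + (if x ≠ y ∧ x ≠ z ∧ y ≠ z then ip d f y z z x else 0)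
          + (if x ≠ y ∧ x ≠ z ∧ y ≠ z then ip d f z x x y else 0) := by
      intro x y z; split_ifs <;> simp
    simp only [this, Finset.sum_add_distrib]
    rw [h2, h3]
    ring
  rw [h4] at h1
  linarith

theorem sum_pairs_eq (a b : Fin n) (F : Fin n → Fin n → ℝ) :
    (∑ c, ∑ e, if c ≠ a ∧ c ≠ b ∧ e ≠ a ∧ e ≠ b ∧ c ≠ e then F c e else 0)
      = ∑ p ∈ pairs a b, F p.1 p.2 := by
  unfold pairs
  rw [Finset.sum_filter, Fintype.sum_prod_type]

theorem sum_quads_eq (F : Fin n → Fin n → Fin n → Fin n → ℝ) :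
    (∑ a, ∑ b, if a ≠ b then (∑ p ∈ pairs a b, F a b p.1 p.2) else 0)
      = ∑ t ∈ quads n, F t.1 t.2.1 t.2.2.1 t.2.2.2 := by
  unfold quads
  rw [Finset.sum_filter]
  simp only [Fintype.sum_prod_type]
  refine Finset.sum_congr rfl fun a _ => Finset.sum_congr rfl fun b _ => ?_
  by_cases hab : a ≠ b
  · rw [if_pos hab, ← sum_pairs_eq]
    refine Finset.sum_congr rfl fun c _ => Finset.sum_congr rfl fun e _ => ?_
    by_cases h : c ≠ a ∧ c ≠ b ∧ e ≠ a ∧ e ≠ b ∧ c ≠ e
    · have h' : a ≠ b ∧ a ≠ c ∧ a ≠ e ∧ b ≠ c ∧ b ≠ e ∧ c ≠ e :=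
        ⟨hab, h.1.symm, h.2.2.1.symm, h.2.1.symm, h.2.2.2.1.symm, h.2.2.2.2⟩
      rw [if_pos h, if_pos h']
    · have h' : ¬ (a ≠ b ∧ a ≠ c ∧ a ≠ e ∧ b ≠ c ∧ b ≠ e ∧ c ≠ e) := fun h'' =>
        h ⟨h''.2.1.symm, h''.2.2.2.1.symm, h''.2.2.1.symm, h''.2.2.2.2.1.symm, h''.2.2.2.2.2⟩
      rw [if_neg h, if_neg h']
  · rw [if_neg hab]
    symm
    refine Finset.sum_eq_zero fun c _ => Finset.sum_eq_zero fun e _ => ?_
    rw [if_neg (fun h => hab h.1)]

/-- The disjoint part is nonnegative. -/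
theorem quad_sum_nonneg (d : Fin n → ℕ) (f : Finset (Edge n) → ℝ) :
    0 ≤ ∑ a, ∑ b, if a ≠ b then
      (∑ c, ∑ e, if c ≠ a ∧ c ≠ b ∧ e ≠ a ∧ e ≠ b ∧ c ≠ e then ip d f a b c e else 0) else 0 := by
  simp only [sum_pairs_eq]
  rw [sum_quads_eq (fun a b c e => ip d f a b c e)]
  have h1 : ∑ t ∈ quads n, (Fl d t.1 t.2.1 t.2.2.1 t.2.2.2 f - Tt d t.1 t.2.1 t.2.2.1 t.2.2.2 f
      - Tt d t.2.2.1 t.2.2.2 t.1 t.2.1 f) ≤ ∑ t ∈ quads n, 2 * ip d f t.1 t.2.1 t.2.2.1 t.2.2.2 := by
    refine Finset.sum_le_sum fun t ht => ?_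
    simp only [quads, mem_filter, mem_univ, true_and] at ht
    obtain ⟨h1, h2, h3, h4, h5, h6⟩ := ht
    exact split_ineq d h1 h2 h3 h4 h5 h6 f
  have h2 : ∑ t ∈ quads n, Tt d t.2.2.1 t.2.2.2 t.1 t.2.1 f
      = ∑ t ∈ quads n, Tt d t.1 t.2.1 t.2.2.1 t.2.2.2 f := by
    refine Finset.sum_nbij' (fun t => (t.2.2.1, t.2.2.2, t.1, t.2.1))
      (fun t => (t.2.2.1, t.2.2.2, t.1, t.2.1)) ?_ ?_ ?_ ?_ ?_
    · intro t ht
      simp only [quads, mem_filter, mem_univ, true_and] at ht ⊢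
      obtain ⟨h1, h2, h3, h4, h5, h6⟩ := ht
      exact ⟨h6, h2.symm, h4.symm, h3.symm, h5.symm, h1⟩
    · intro t ht
      simp only [quads, mem_filter, mem_univ, true_and] at ht ⊢
      obtain ⟨h1, h2, h3, h4, h5, h6⟩ := ht
      exact ⟨h6, h2.symm, h4.symm, h3.symm, h5.symm, h1⟩
    · intro t _; rfl
    · intro t _; rfl
    · intro t _; rfl
  have h3 : 0 ≤ ∑ t ∈ quads n, (Fl d t.1 t.2.1 t.2.2.1 t.2.2.2 f - 2 * Tt d t.1 t.2.1 t.2.2.1 t.2.2.2 f) := by
    rw [← sum_quads_eq (fun a b c e => Fl d a b c e f - 2 * Tt d a b c e f)]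
    refine Finset.sum_nonneg fun a _ => Finset.sum_nonneg fun b _ => ?_
    split_ifs with hab
    · exact johnson_main_T d hab f
    · exact le_refl _
  rw [Finset.sum_sub_distrib, Finset.sum_sub_distrib, h2, ← Finset.mul_sum] at h1
  rw [Finset.sum_sub_distrib, ← Finset.mul_sum] at h3
  linarith

/-- Main inequality `⟨f,Df⟩ ≤ ‖Df‖²`. -/
theorem Dop_key (d : Fin n → ℕ) (f : Finset (Edge n) → ℝ) :
    ∑ G ∈ realizations d, f G * Dop d f G ≤ ∑ G ∈ realizations d, (Dop d f G) ^ 2 := by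
  rw [inner_Dop, norm_Dop]
  set S2 := ∑ a, ∑ b, if a ≠ b then ip d f a b a b else 0 with hS2
  set T := ∑ x, ∑ y, ∑ z, if x ≠ y ∧ x ≠ z ∧ y ≠ z then ip d f x y y z else 0 with hT
  set S4 := ∑ a, ∑ b, if a ≠ b then
    (∑ c, ∑ e, if c ≠ a ∧ c ≠ b ∧ e ≠ a ∧ e ≠ b ∧ c ≠ e then ip d f a b c e else 0) else 0 with hS4
  -- decomposition
  have hdec : ∀ a b : Fin n, (if a ≠ b then (∑ c, ∑ e, if c ≠ e then ip d f a b c e else 0) else 0)
      = 2 * (if a ≠ b then ip d f a b a b else 0)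
        + 2 * (∑ z, if a ≠ b ∧ a ≠ z ∧ b ≠ z then ip d f b a a z else 0)
        + 2 * (∑ z, if a ≠ b ∧ a ≠ z ∧ b ≠ z then ip d f a b b z else 0)
        + (if a ≠ b then
          (∑ c, ∑ e, if c ≠ a ∧ c ≠ b ∧ e ≠ a ∧ e ≠ b ∧ c ≠ e then ip d f a b c e else 0) else 0) := by
    intro a b
    by_cases hab : a ≠ b
    · have := sum_pairs_decomp hab (fun c e => ip d f a b c e) (fun c e => ip_swap34 d f a b c e)
      simp only [hab, if_true, true_and, ne_eq, not_false_eq_true]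
      simp only [ne_eq] at this
      rw [this]
      have h1 : (∑ z, if ¬ z = a ∧ ¬ z = b then ip d f a b a z else 0)
          = ∑ z, if ¬ a = z ∧ ¬ b = z then ip d f b a a z else 0 := by
        refine Finset.sum_congr rfl fun z _ => ?_
        rw [ip_swap12 d f a b a z]
        simp only [eq_comm]
      have h2 : (∑ z, if ¬ z = a ∧ ¬ z = b then ip d f a b b z else 0)
          = ∑ z, if ¬ a = z ∧ ¬ b = z then ip d f a b b z else 0 := by
        refine Finset.sum_congr rfl fun z _ => ?_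
        simp only [eq_comm]
      rw [h1, h2]
    · simp [hab]
  have hT1 : (∑ a, ∑ b, ∑ z, if a ≠ b ∧ a ≠ z ∧ b ≠ z then ip d f a b b z else 0) = T := rfl
  have hT2 : (∑ a, ∑ b, ∑ z, if a ≠ b ∧ a ≠ z ∧ b ≠ z then ip d f b a a z else 0) = T := by
    rw [hT, Finset.sum_comm]
    refine Finset.sum_congr rfl fun a _ => Finset.sum_congr rfl fun b _ =>
      Finset.sum_congr rfl fun z _ => ?_
    by_cases h : b ≠ a ∧ b ≠ z ∧ a ≠ z
    · have h' : a ≠ b ∧ a ≠ z ∧ b ≠ z := ⟨h.1.symm, h.2.2, h.2.1⟩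
      rw [if_pos h', if_pos h]
    · have h' : ¬ (a ≠ b ∧ a ≠ z ∧ b ≠ z) := fun h'' => h ⟨h''.1.symm, h''.2.2, h''.2.1⟩
      rw [if_neg h', if_neg h]
  have hsum : (∑ a, ∑ b, if a ≠ b then (∑ c, ∑ e, if c ≠ e then ip d f a b c e else 0) else 0)
      = 2 * S2 + 2 * T + 2 * T + S4 := by
    simp only [hdec, Finset.sum_add_distrib, ← Finset.mul_sum]
    rw [hT1, hT2]
  rw [hsum]
  have hT0 : 0 ≤ T := triple_sum_nonneg d f
  -- quad part
  have hS40 : 0 ≤ S4 := quad_sum_nonneg d f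
  linarith

/-! ### Linearity and the spectral step -/

theorem avg_add (d : Fin n → ℕ) (a b : Fin n) (f g : Finset (Edge n) → ℝ) (G : Finset (Edge n)) :
    avg d a b (f + g) G = avg d a b f G + avg d a b g G := by
  unfold avg
  simp only [Pi.add_apply, Finset.sum_add_distrib, add_div]

theorem avg_smul (d : Fin n → ℕ) (a b : Fin n) (c : ℝ) (f : Finset (Edge n) → ℝ)
    (G : Finset (Edge n)) : avg d a b (c • f) G = c * avg d a b f G := by
  unfold avg
  simp only [Pi.smul_apply, smul_eq_mul, ← Finset.mul_sum, mul_div_assoc]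

theorem Q_add (d : Fin n → ℕ) (a b : Fin n) (f g : Finset (Edge n) → ℝ) (G : Finset (Edge n)) :
    Q d a b (f + g) G = Q d a b f G + Q d a b g G := by
  unfold Q; rw [avg_add]; simp only [Pi.add_apply]; ring

theorem Q_smul (d : Fin n → ℕ) (a b : Fin n) (c : ℝ) (f : Finset (Edge n) → ℝ)
    (G : Finset (Edge n)) : Q d a b (c • f) G = c * Q d a b f G := by
  unfold Q; rw [avg_smul]; simp only [Pi.smul_apply, smul_eq_mul]; ring

theorem Q_loc (d : Fin n → ℕ) (a b : Fin n) {f g : Finset (Edge n) → ℝ}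
    (h : ∀ G ∈ realizations d, f G = g G) {G : Finset (Edge n)} (hG : G ∈ realizations d) :
    Q d a b f G = Q d a b g G := by
  unfold Q avg
  have h2 : ∑ H ∈ blk d a b G, f H = ∑ H ∈ blk d a b G, g H :=
    Finset.sum_congr rfl fun H hH => h H (mem_filter.1 hH).1
  rw [h G hG, h2]

theorem Dop_add (d : Fin n → ℕ) (f g : Finset (Edge n) → ℝ) (G : Finset (Edge n)) :
    Dop d (f + g) G = Dop d f G + Dop d g G := by
  unfold Dop
  simp only [Q_add, Finset.sum_add_distrib]

theorem Dop_smul (d : Fin n → ℕ) (c : ℝ) (f : Finset (Edge n) → ℝ) (G : Finset (Edge n)) :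
    Dop d (c • f) G = c * Dop d f G := by
  unfold Dop
  simp only [Q_smul, Finset.mul_sum]

theorem Dop_loc (d : Fin n → ℕ) {f g : Finset (Edge n) → ℝ}
    (h : ∀ G ∈ realizations d, f G = g G) {G : Finset (Edge n)} (hG : G ∈ realizations d) :
    Dop d f G = Dop d g G := by
  unfold Dop
  exact Finset.sum_congr rfl fun a _ => Finset.sum_congr rfl fun b _ => Q_loc d a b h hG

theorem Dop_sym (d : Fin n → ℕ) (f g : Finset (Edge n) → ℝ) :
    ∑ G ∈ realizations d, f G * Dop d g G = ∑ G ∈ realizations d, Dop d f G * g G := by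
  unfold Dop
  simp only [Finset.mul_sum, Finset.sum_mul]
  have hL : ∀ X : Finset (Edge n) → Fin n → Fin n → ℝ,
      (∑ G ∈ realizations d, ∑ a, ∑ b ∈ univ.filter (fun b : Fin n => a < b), X G a b)
        = ∑ a, ∑ b ∈ univ.filter (fun b : Fin n => a < b), ∑ G ∈ realizations d, X G a b := by
    intro X
    rw [Finset.sum_comm]
    exact Finset.sum_congr rfl fun a _ => Finset.sum_comm
  rw [hL, hL]
  exact Finset.sum_congr rfl fun a _ => Finset.sum_congr rfl fun b _ => sum_mul_Q d a b f g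

theorem ip_self_nonneg (d : Fin n → ℕ) (f : Finset (Edge n) → ℝ) (a b : Fin n) :
    0 ≤ ip d f a b a b := by
  unfold ip
  exact Finset.sum_nonneg fun G _ => mul_self_nonneg _

theorem Dop_psd (d : Fin n → ℕ) (f : Finset (Edge n) → ℝ) :
    0 ≤ ∑ G ∈ realizations d, f G * Dop d f G := by
  rw [inner_Dop]
  refine mul_nonneg (by norm_num) (Finset.sum_nonneg fun a _ => Finset.sum_nonneg fun b _ => ?_)
  split_ifs
  · exact ip_self_nonneg d f a b
  · exact le_refl _

/-- The flip stays in the `(a,b)` block. -/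
theorem same_flipG {a b c e : Fin n} (hca : c ≠ a) (hcb : c ≠ b) (hea : e ≠ a) (heb : e ≠ b)
    (G : Finset (Edge n)) : same a b G (flipG a b c e G) := by
  have key : ∀ u v : Fin n, ¬ (s(u, v) = s(a, c) ∨ s(u, v) = s(b, e) ∨ s(u, v) = s(a, e) ∨ s(u, v) = s(b, c)) →
      (adj G u v ↔ adj (flipG a b c e G) u v) := by
    intro u v h
    by_cases huv : u = v
    · subst huv
      exact ⟨fun h' => absurd h' (not_adj_self _ _), fun h' => absurd h' (not_adj_self _ _)⟩
    · rw [adj_iff_mem huv, adj_iff_mem huv]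
      simp only [flipG, mem_filter, mem_univ, true_and, mkE]
      tauto
  refine ⟨key a b ?_, fun u v h1 h2 h3 h4 => key u v ?_⟩
  · simp only [Sym2.eq_iff]
    have hab' := hca.symm
    have h1 := hcb.symm
    have h2 := hea.symm
    have h3 := heb.symm
    tauto
  · simp only [Sym2.eq_iff]
    tauto

/-- Kernel of `D`: constants. -/
theorem Dop_ker (d : Fin n → ℕ) (f : Finset (Edge n) → ℝ)
    (h : ∀ G ∈ realizations d, Dop d f G = 0) {G H : Finset (Edge n)}
    (hG : G ∈ realizations d) (hH : H ∈ realizations d) : f G = f H := by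
  have h0 : ∑ G ∈ realizations d, f G * Dop d f G = 0 :=
    Finset.sum_eq_zero fun G hG => by rw [h G hG, mul_zero]
  rw [inner_Dop] at h0
  have h1 : ∑ a, ∑ b, (if a ≠ b then ip d f a b a b else 0) = 0 := by linarith
  have h2 : ∀ a b : Fin n, a ≠ b → ip d f a b a b = 0 := by
    intro a b hab
    have h3 := (Finset.sum_eq_zero_iff_of_nonneg (fun a _ => Finset.sum_nonneg fun b _ => by
      split_ifs
      · exact ip_self_nonneg d f a b
      · exact le_refl _)).1 h1 a (mem_univ _)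
    have h4 := (Finset.sum_eq_zero_iff_of_nonneg (fun b _ => by
      split_ifs
      · exact ip_self_nonneg d f a b
      · exact le_refl _)).1 h3 b (mem_univ _)
    simpa [hab] using h4
  have h3 : ∀ a b : Fin n, a ≠ b → ∀ G ∈ realizations d, Q d a b f G = 0 := by
    intro a b hab G hG
    have := h2 a b hab
    unfold ip at this
    have h5 := (Finset.sum_eq_zero_iff_of_nonneg (fun G _ => mul_self_nonneg _)).1 this G hG
    exact mul_self_eq_zero.1 h5
  refine flip_connected d f ?_ hG hH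
  intro a b c e hab hac hae hbc hbe hce G hG hY
  have hF := flipG_mem d hab hac hae hbc hbe hce hG hY
  have h4 := h3 a b hab G hG
  have h5 := h3 a b hab _ hF
  unfold Q at h4 h5
  have hs := same_flipG hac.symm hbc.symm hae.symm hbe.symm G
  have h6 : avg d a b f G = avg d a b f (flipG a b c e G) :=
    gavg_congr (same_symm' a b) (same_trans' a b) f hs
  linarith

theorem Dop_one (d : Fin n → ℕ) {G : Finset (Edge n)} (hG : G ∈ realizations d) :
    Dop d (fun _ => 1) G = 0 := by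
  unfold Dop
  refine Finset.sum_eq_zero fun a _ => Finset.sum_eq_zero fun b _ => ?_
  unfold Q avg
  have hne : ((blk d a b G).card : ℝ) ≠ 0 := by
    have : G ∈ blk d a b G := mem_filter.2 ⟨hG, same_refl a b G⟩
    exact_mod_cast (Finset.card_pos.2 ⟨G, this⟩).ne'
  simp [hne]

/-- Poincaré for `D`. -/
theorem Dop_poincare (d : Fin n → ℕ) (f : Finset (Edge n) → ℝ) :
    ((realizations d).card : ℝ) * ∑ G ∈ realizations d, f G ^ 2 - (∑ G ∈ realizations d, f G) ^ 2
      ≤ ((realizations d).card : ℝ) * ∑ G ∈ realizations d, f G * Dop d f G :=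
  spectral_poincare (realizations d) (Dop d) (fun f g G _ => Dop_add d f g G)
    (fun c f G _ => Dop_smul d c f G) (fun _ _ h _ hG => Dop_loc d h hG) (Dop_sym d)
    (fun G hG => Dop_one d hG) (Dop_psd d)
    (Dop_key d) (fun f hf _ hG _ hH => Dop_ker d f hf hG hH) f

/-- `⟨f,Df⟩ ≤ (1/8) Σ Fl`. -/
theorem inner_Dop_le_Fl (d : Fin n → ℕ) (f : Finset (Edge n) → ℝ) :
    ∑ G ∈ realizations d, f G * Dop d f G
      ≤ (1 / 8 : ℝ) * ∑ t ∈ quads n, Fl d t.1 t.2.1 t.2.2.1 t.2.2.2 f := by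
  rw [inner_Dop, ← sum_quads_eq (fun a b c e => Fl d a b c e f)]
  have : (∑ a, ∑ b, if a ≠ b then ip d f a b a b else 0)
      ≤ (1 / 4) * ∑ a, ∑ b, if a ≠ b then (∑ p ∈ pairs a b, Fl d a b p.1 p.2 f) else 0 := by
    rw [Finset.mul_sum]
    refine Finset.sum_le_sum fun a _ => ?_
    rw [Finset.mul_sum]
    refine Finset.sum_le_sum fun b _ => ?_
    by_cases hab : a ≠ b
    · simp only [hab, if_true, ne_eq, not_false_eq_true]
      have := johnson_main_Q d hab f
      have h2 : ip d f a b a b = ∑ G ∈ realizations d, (Q d a b f G) ^ 2 :=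
        Finset.sum_congr rfl fun G _ => (sq _).symm
      rw [h2]
      linarith
    · simp [hab]
  linarith

/-- The Poincaré half of the statement. -/
theorem main_poincare (hn : 4 ≤ n) (d : Fin n → ℕ) (f : Finset (Edge n) → ℝ) :
    ((realizations d).card : ℝ) * (∑ G ∈ realizations d, f G ^ 2) - (∑ G ∈ realizations d, f G) ^ 2
      ≤ 24 * (n : ℝ) ^ 2 * (n.choose 4 : ℝ) * (realizations d).card *
          ∑ G ∈ realizations d, f G * (f G - ∑ G' ∈ realizations d, kernel n G G' * f G') := by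
  have h1 := Dop_poincare d f
  have h2 := inner_Dop_le_Fl d f
  have h3 := fl_le_kernel hn d f
  set X := ∑ G ∈ realizations d, f G * (f G - ∑ G' ∈ realizations d, kernel n G G' * f G') with hX
  have hC : (0 : ℝ) < (n.choose 4 : ℝ) := by
    exact_mod_cast Nat.choose_pos hn
  have hΩ : (0 : ℝ) ≤ ((realizations d).card : ℝ) := Nat.cast_nonneg _
  have hD := Dop_psd d f
  have hX0 : 0 ≤ 12 * (n.choose 4 : ℝ) * X := by linarith
  have hn2 : (1 : ℝ) ≤ (n : ℝ) ^ 2 := by
    have : (1 : ℝ) ≤ (n : ℝ) := by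
      have : 1 ≤ n := by omega
      exact_mod_cast this
    nlinarith
  have h4 : ((realizations d).card : ℝ) * ∑ G ∈ realizations d, f G * Dop d f G
      ≤ ((realizations d).card : ℝ) * (12 * (n.choose 4 : ℝ) * X) :=
    mul_le_mul_of_nonneg_left (by linarith) hΩ
  have h5 : ((realizations d).card : ℝ) * (12 * (n.choose 4 : ℝ) * X)
      ≤ 24 * (n : ℝ) ^ 2 * (n.choose 4 : ℝ) * (realizations d).card * X := by
    have : 0 ≤ ((realizations d).card : ℝ) * (12 * (n.choose 4 : ℝ) * X) := mul_nonneg hΩ hX0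
    nlinarith
  linarith

end Crest.Agent.Switch
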